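import Vale.Agent.P162.Row

/-! An entropy Brascamp-Lieb inequality for Latin-type constraints on a grid. -/

set_option linter.unusedSectionVars false

namespace Vale.Agent.P162

open Finset

variable {α β : Type} [Fintype α] [DecidableEq α] [Fintype β] [DecidableEq β] {m : ℕ}

lemma sum_log_phase (L : ℕ) (hL : 1 ≤ L) :
    ∑ τ : Fin L, Real.log (1 - (τ : ℕ) / L) ≤ 1 + Real.log L - L := by
  have hL0 : (0 : ℝ) < L := by exact_mod_cast hL
  have hN : ∀ τ : Fin L, (0 : ℝ) < L - (τ : ℕ) := fun τ => by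
    have : ((τ : ℕ) : ℝ) < L := by exact_mod_cast τ.2
    linarith
  have : ∀ τ : Fin L, Real.log (1 - (τ : ℕ) / L) = Real.log (L - (τ : ℕ)) - Real.log L := by
    intro τ
    rw [← Real.log_div (hN τ).ne' hL0.ne']; congr 1; field_simp
  simp_rw [this]
  rw [Finset.sum_sub_distrib, ← Real.log_prod (fun τ _ => (hN τ).ne')]
  have h := prod_sub (Equiv.refl (Fin L))
  simp only [Equiv.refl_apply] at h
  rw [h]
  have := log_fact_le L hL
  simp only [Finset.sum_const, Finset.card_univ, Fintype.card_fin, nsmul_eq_mul]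
  linarith

lemma phase_avg (L : ℕ) (hL : 1 ≤ L) (w : α → ℝ) (w0 : ∀ a, 0 ≤ w a) (w1 : ∑ a, w a = 1)
    (κ : α → β) (b : β)
    (hD : ∀ t : β → Fin L, 0 < 1 - ∑ a, if t (κ a) < t b then w a else 0) :
    ∑ t : β → Fin L, Real.log (1 - ∑ a, if t (κ a) < t b then w a else 0)
      ≤ Fintype.card (β → Fin L) * (-1 + (1 + Real.log L) / L
        + min 1 (L * ∑ a, if κ a = b then w a else 0)) := by
  have hL0 : (0 : ℝ) < L := by exact_mod_cast hL
  have hL1 : (1 : ℝ) ≤ L := by exact_mod_cast hL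
  have hδ : 0 ≤ (1 + Real.log L) / L := by
    have := Real.log_nonneg hL1
    positivity
  set η := ∑ a, if κ a = b then w a else 0 with hη
  have η0 : 0 ≤ η := Finset.sum_nonneg fun a _ => by split_ifs; exacts [w0 a, le_rfl]
  rcases le_total 1 (L * η) with h | h
  · rw [min_eq_left h]
    refine le_trans (Finset.sum_nonpos fun t _ => Real.log_nonpos (hD t).le ?_) ?_
    · have : 0 ≤ ∑ a, if t (κ a) < t b then w a else 0 :=
        Finset.sum_nonneg fun a _ => by split_ifs; exacts [w0 a, le_rfl]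
      linarith
    · have : -1 + (1 + Real.log L) / L + 1 = (1 + Real.log L) / L := by ring
      rw [this]; positivity
  rw [min_eq_right h]
  set A : Fin L → ℝ := fun τ => 1 - (τ : ℕ) / L with hA
  have hA1 : ∀ τ, 1 / L ≤ A τ := fun τ => by
    have : ((τ : ℕ) : ℝ) + 1 ≤ L := by exact_mod_cast τ.2
    rw [hA, div_le_iff₀ hL0]; field_simp; linarith
  have hA0 : ∀ τ, 0 < A τ := fun τ => lt_of_lt_of_le (by positivity) (hA1 τ)
  have s1 : ∀ t : β → Fin L, Real.log (1 - ∑ a, if t (κ a) < t b then w a else 0)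
      ≤ Real.log (A (t b)) + (1 / A (t b) - 1)
        - ∑ a, w a * (if t (κ a) < t b then 1 / A (t b) else 0) := by
    intro t
    have := Real.log_le_sub_one_of_pos (div_pos (hD t) (hA0 (t b)))
    rw [Real.log_div (hD t).ne' (hA0 _).ne', sub_div, Finset.sum_div] at this
    have e : ∑ a, (if t (κ a) < t b then w a else 0) / A (t b)
        = ∑ a, w a * (if t (κ a) < t b then 1 / A (t b) else 0) :=
      Finset.sum_congr rfl fun a _ => by split_ifs <;> ring
    linarith
  refine (Finset.sum_le_sum fun t _ => s1 t).trans ?_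
  rw [Finset.sum_sub_distrib, Finset.sum_add_distrib, Finset.sum_comm]
  simp_rw [← Finset.mul_sum]
  have s2 : L * ∑ t : β → Fin L, Real.log (A (t b))
      ≤ Fintype.card (β → Fin L) * (1 + Real.log L - L) := by
    have := resample b (fun t : β → Fin L => Real.log (A (t b)))
    simp only [Fintype.card_fin, Function.update_self] at this
    rw [this, Finset.sum_const, Finset.card_univ, nsmul_eq_mul]
    exact mul_le_mul_of_nonneg_left (sum_log_phase L hL) (Nat.cast_nonneg _)
  have s3 : ∀ a, κ a ≠ b → ∑ t : β → Fin L, (if t (κ a) < t b then 1 / A (t b) else 0)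
      = ∑ t : β → Fin L, (1 / A (t b) - 1) := by
    intro a ha
    have := resample (κ a) (fun t : β → Fin L => if t (κ a) < t b then 1 / A (t b) else 0)
    simp only [Fintype.card_fin, Function.update_self, Function.update_of_ne ha.symm] at this
    apply mul_left_cancel₀ hL0.ne'
    rw [this, Finset.mul_sum]
    refine Finset.sum_congr rfl fun t _ => ?_
    rw [← Finset.sum_filter, Finset.sum_const, nsmul_eq_mul]
    have c : (univ.filter fun y : Fin L => y < t b).card = t b := by
      rw [← Fin.card_Iio]; congr 1; ext y; simp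
    rw [c]
    have h1 := (hA0 (t b)).ne'
    have h2 : ((t b : ℕ) : ℝ) = L * (1 - A (t b)) := by simp only [hA]; field_simp; ring
    rw [h2]
    field_simp
  set R := ∑ t : β → Fin L, (1 / A (t b) - 1) with hR
  have s4 : ∑ a, w a * ∑ t : β → Fin L, (if t (κ a) < t b then 1 / A (t b) else 0)
      = (1 - η) * R := by
    have : (1 - η) = ∑ a, (w a - if κ a = b then w a else 0) := by
      rw [Finset.sum_sub_distrib, w1]
    rw [this, Finset.sum_mul]
    refine Finset.sum_congr rfl fun a _ => ?_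
    by_cases ha : κ a = b
    · simp [ha]
    · rw [s3 a ha]; simp [ha]
  have s5 : R ≤ Fintype.card (β → Fin L) * L := by
    rw [hR, ← Finset.card_univ, ← nsmul_eq_mul, ← Finset.sum_const]
    refine Finset.sum_le_sum fun t _ => ?_
    have := one_div_le_one_div_of_le (by positivity) (hA1 (t b))
    rw [one_div_one_div] at this
    linarith
  rw [s4]
  have s6 : ∑ t : β → Fin L, Real.log (A (t b))
      ≤ Fintype.card (β → Fin L) * (-1 + (1 + Real.log L) / L) := by
    apply le_of_mul_le_mul_left _ hL0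
    refine s2.trans (le_of_eq ?_)
    field_simp; ring
  nlinarith [mul_le_mul_of_nonneg_left s5 η0]

/-- the Latin constraint -/
def Lat (c : α → Equiv.Perm β) (r : β → Equiv.Perm α) : Prop :=
  ∀ s, Function.Injective fun a => r (c a s) a

open Classical in
theorem bl_fix (e : α ≃ Fin m) (c : α → Equiv.Perm β) {L : ℕ} {lam A : ℝ} (hL : 2 ≤ L)
    (hlam : Real.exp lam = L ^ 2) (hm : L ^ 8 ≤ m) (u : Equiv.Perm α → ℝ) (u0 : ∀ σ, 0 ≤ u σ)
    (hu : ((∑ σ, u σ ^ (1 / (1 - 1 / lam))) / m.factorial) ^ (1 - 1 / lam) ≤ A) :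
    ∑ r : β → Equiv.Perm α, (if Lat c r then ∏ b, u (r b) else 0)
      ≤ (m.factorial * A) ^ Fintype.card β * Real.exp (m * Fintype.card β
        * (-1 + (3 + Real.log L) / L)
        + ∑ a, ∑ s, if ∃ a', a' ≠ a ∧ c a' s = c a s then 1 else 0) := by
  have hL2 : (2 : ℝ) ≤ L := by exact_mod_cast hL
  have hm2 : (L : ℝ) ^ 8 ≤ m := by exact_mod_cast hm
  have hA0 : 0 ≤ A := le_trans (Real.rpow_nonneg (div_nonneg (Finset.sum_nonneg fun σ _ =>
    Real.rpow_nonneg (u0 σ) _) (Nat.cast_nonneg _)) _) hu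
  have hm0 : 0 < m := lt_of_lt_of_le (by positivity) hm
  have : Nonempty α := ⟨e.symm ⟨0, hm0⟩⟩
  set W : (β → Equiv.Perm α) → ℝ := fun r => if Lat c r then ∏ b, u (r b) else 0 with hW
  have W0 : ∀ r, 0 ≤ W r := fun r => by
    simp only [hW]; split_ifs
    exacts [Finset.prod_nonneg fun b _ => u0 _, le_rfl]
  set Z := ∑ r, W r with hZ
  rcases (show 0 ≤ Z from Finset.sum_nonneg fun r _ => W0 r).eq_or_lt with h | hZ0
  · rw [← h]; positivity
  set μ : (β → Equiv.Perm α) → ℝ := fun r => W r / Z with hμ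
  have μ0 : ∀ r, 0 ≤ μ r := fun r => div_nonneg (W0 r) hZ0.le
  have μ1 : ∑ r, μ r = 1 := by simp only [hμ]; rw [← Finset.sum_div, div_self hZ0.ne']
  have μp : ∀ r, 0 < μ r → Lat c r ∧ (∀ b, 0 < u (r b)) ∧ μ r = (∏ b, u (r b)) / Z := by
    intro r hr
    have h1 : 0 < W r := (div_pos_iff_of_pos_right hZ0).mp hr
    have h2 : Lat c r := by
      by_contra hc; simp [hW, hc] at h1
    simp only [hW, if_pos h2] at h1
    refine ⟨h2, fun b => lt_of_le_of_ne (u0 _) fun h => ?_, by simp only [hμ, hW, if_pos h2]⟩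
    rw [Finset.prod_eq_zero (Finset.mem_univ b) h.symm] at h1
    exact lt_irrefl _ h1
  set ν : β → Equiv.Perm α → ℝ := fun b σ => ∑ r, if r b = σ then μ r else 0 with hν
  have νs : ∀ b (Φ : Equiv.Perm α → ℝ), ∑ σ, ν b σ * Φ σ = ∑ r, μ r * Φ (r b) := by
    intro b Φ
    simp only [hν]
    simp_rw [Finset.sum_mul]
    rw [Finset.sum_comm]
    refine Finset.sum_congr rfl fun r _ => ?_
    simp
  have ν0 : ∀ b σ, 0 ≤ ν b σ := fun b σ =>
    Finset.sum_nonneg fun r _ => by split_ifs; exacts [μ0 r, le_rfl]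
  have ν1 : ∀ b, ∑ σ, ν b σ = 1 := fun b => by simpa [μ1] using νs b (fun _ => 1)
  have νp : ∀ r b, 0 < μ r → 0 < ν b (r b) := by
    intro r b hr
    refine hr.trans_le ?_
    have := Finset.single_le_sum (f := fun r' : β → Equiv.Perm α => if r' b = r b then μ r' else 0)
      (fun r' _ => by split_ifs; exacts [μ0 r', le_rfl]) (Finset.mem_univ r)
    simpa using this
  have νu : ∀ b σ, 0 < ν b σ → 0 < u σ := by
    intro b σ h
    obtain ⟨r, -, hr⟩ := Finset.exists_lt_of_sum_lt (s := univ) (f := fun _ => (0 : ℝ))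
      (g := fun r : β → Equiv.Perm α => if r b = σ then μ r else 0) (by simpa using h)
    split_ifs at hr with h1
    · rw [← h1]; exact (μp r hr).2.1 b
    · exact absurd hr (lt_irrefl _)
  set Fb : (β → Fin L) → α → β → (α × β → α) → α → Prop := fun t a b φ y =>
    ∃ a', t (c a' ((c a)⁻¹ b)) < t b ∧ φ (a', c a' ((c a)⁻¹ b)) = y with hFb
  set q : α → β → (α × β → α) → α → ℝ := fun a b φ y => cq (ν b) e a (fun a => φ (a, b)) y
    with hq
  have q0 : ∀ a b φ y, 0 ≤ q a b φ y := fun a b φ y => cq_nonneg e (ν0 b) _ _ _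
  set D : (β → Fin L) → α → β → (α × β → α) → ℝ := fun t a b φ =>
    1 - ∑ y, if Fb t a b φ y then q a b φ y else 0 with hD
  set g : (β → Fin L) → α → β → (α × β → α) → α → ℝ := fun t a b φ y =>
    (if Fb t a b φ y then 0 else q a b φ y) / D t a b φ with hg
  have n0 : ∀ t a b φ y, 0 ≤ (if Fb t a b φ y then 0 else q a b φ y) := fun t a b φ y => by
    split_ifs; exacts [le_rfl, q0 _ _ _ _]
  have Dge : ∀ t a b φ, ∑ y, (if Fb t a b φ y then 0 else q a b φ y) ≤ D t a b φ := by
    intro t a b φ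
    have := cq_sum_le (ν := ν b) e a (fun a => φ (a, b))
    simp only [hD]
    rw [le_sub_iff_add_le, ← Finset.sum_add_distrib]
    refine le_trans (le_of_eq (Finset.sum_congr rfl fun y _ => ?_)) this
    split_ifs <;> simp [hq]
  have D0 : ∀ t a b φ, 0 ≤ D t a b φ := fun t a b φ =>
    le_trans (Finset.sum_nonneg fun y _ => n0 _ _ _ _ _) (Dge t a b φ)
  have g0 : ∀ t a b φ y, 0 ≤ g t a b φ y := fun t a b φ y => div_nonneg (n0 _ _ _ _ _) (D0 _ _ _ _)
  have gc : ∀ t a b (φ ψ : α × β → α) y, (∀ j : α × β, (t j.2 : ℕ) * m + e j.1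
      < (t b : ℕ) * m + e a → φ j = ψ j) → g t a b φ y = g t a b ψ y := by
    intro t a b φ ψ y h
    have c1 : ∀ y, Fb t a b φ y ↔ Fb t a b ψ y := by
      intro y
      refine exists_congr fun a' => and_congr_right fun ht => ?_
      rw [h]
      have h1 := (e a').2
      have h2 : (t (c a' ((c a)⁻¹ b)) : ℕ) + 1 ≤ t b := ht
      have h3 := Nat.mul_le_mul_right m h2
      simp only
      nlinarith
    have c2 : ∀ y, q a b φ y = q a b ψ y := fun y =>
      cq_congr e a (fun a' ha => h (a', b) (by simpa using ha)) y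
    simp only [hg, hD, c1, c2]
  have rb : ∀ t : β → Fin L, ∑ φ : α × β → α, ∏ j : α × β, g t j.1 j.2 φ (φ j) ≤ 1 := by
    intro t
    refine rank_bound (fun j : α × β => (t j.2 : ℕ) * m + e j.1) _ (fun j φ => g0 _ _ _ _ _)
      (fun i j φ y hj hle => ?_) (fun i φ => ?_)
    · rw [Function.update_of_ne hj.symm]
      refine gc _ _ _ _ _ _ fun k hk => Function.update_of_ne ?_ _ _
      rintro rfl; omega
    · have : ∀ y, g t i.1 i.2 (Function.update φ i y) (Function.update φ i y i)
          = g t i.1 i.2 φ y := by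
        intro y
        rw [Function.update_self]
        refine gc _ _ _ _ _ _ fun k hk => Function.update_of_ne ?_ _ _
        rintro rfl; omega
      simp_rw [this]
      simp only [hg]
      rw [← Finset.sum_div]
      exact div_le_one_of_le₀ (Dge _ _ _ _) (D0 _ _ _ _)
  set φ : (β → Equiv.Perm α) → α × β → α := fun r j => r j.2 j.1 with hφ
  have φi : Function.Injective φ := fun r r' h =>
    funext fun b => Equiv.ext fun a => congrFun h (a, b)
  have nF : ∀ t r a b, 0 < μ r → ¬ Fb t a b (φ r) (r b a) := by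
    rintro t r a b hr ⟨a', h1, h2⟩
    have : a' = a := (μp r hr).1 ((c a)⁻¹ b) (by simpa [hφ] using h2)
    subst this
    simp at h1
  have qp : ∀ r a b, 0 < μ r → 0 < q a b (φ r) (r b a) := fun r a b hr =>
    cq_pos e (ν0 b) (νp r b hr) a
  have Dp : ∀ t r a b, 0 < μ r → 0 < D t a b (φ r) := by
    intro t r a b hr
    refine lt_of_lt_of_le ?_ (Dge _ _ _ _)
    refine Finset.sum_pos' (fun y _ => n0 _ _ _ _ _) ⟨r b a, Finset.mem_univ _, ?_⟩
    rw [if_neg (nF t r a b hr)]; exact qp r a b hr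
  have gp : ∀ t r (j : α × β), 0 < μ r → g t j.1 j.2 (φ r) (φ r j)
      = q j.1 j.2 (φ r) (r j.2 j.1) / D t j.1 j.2 (φ r) := by
    intro t r j hr
    simp only [hg]
    rw [if_neg (nF t r _ _ hr)]
  have gb : ∀ t : β → Fin L, ∑ r, μ r * ((∑ b, Real.log (ν b (r b))
      - ∑ j : α × β, Real.log (D t j.1 j.2 (φ r))) - Real.log (μ r)) ≤ 0 := by
    intro t
    refine le_trans (le_of_eq (Finset.sum_congr rfl fun r _ => ?_))
      (gibbs μ (fun r => ∏ j : α × β, g t j.1 j.2 (φ r) (φ r j)) μ0 μ1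
        (fun r => Finset.prod_nonneg fun j _ => g0 _ _ _ _ _)
        ((sum_inj_le φ φi (fun ψ => ∏ j : α × β, g t j.1 j.2 ψ (ψ j))
          (fun ψ => Finset.prod_nonneg fun j _ => g0 _ _ _ _ _)).trans (rb t))
        (fun r hr => Finset.prod_pos fun j _ => by
          rw [gp t r j hr]; exact div_pos (qp r _ _ hr) (Dp t r _ _ hr)))
    rcases (μ0 r).eq_or_lt with h | hr
    · simp [← h]
    congr 2
    simp_rw [gp t r _ hr]
    rw [Finset.prod_div_distrib, Real.log_div (Finset.prod_pos fun j _ => qp r _ _ hr).ne'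
      (Finset.prod_pos fun j _ => Dp t r _ _ hr).ne',
      Real.log_prod (fun j _ => (Dp t r _ _ hr).ne'), Fintype.prod_prod_type_right,
      Real.log_prod (fun b _ => (Finset.prod_pos fun a _ => qp r _ _ hr).ne')]
    congr 1
    refine Finset.sum_congr rfl fun b _ => ?_
    rw [← prod_cq e (ν0 b) (ν1 b) (νp r b hr)]
  have av : ∀ r a b, 0 < μ r → ∑ t : β → Fin L, Real.log (D t a b (φ r))
      ≤ Fintype.card (β → Fin L) * (-1 + (1 + Real.log L) / L
        + (min 1 (L * q a b (φ r) (r b a))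
          + if ∃ a', a' ≠ a ∧ c a' ((c a)⁻¹ b) = b then 1 else 0)) := by
    intro r a b hr
    set s := (c a)⁻¹ b with hs
    have hbij : Function.Bijective fun a' => r (c a' s) a' :=
      Finite.injective_iff_bijective.mp ((μp r hr).1 s)
    set w : α → ℝ := fun a' => q a b (φ r) (r (c a' s) a') with hw
    have w1 : ∑ a', w a' = 1 := by
      rw [← cq_sum_eq e (ν0 b) (νp r b hr) a]
      exact hbij.sum_comp (fun y => q a b (φ r) y)
    have eD : ∀ t, D t a b (φ r) = 1 - ∑ a', if t (c a' s) < t b then w a' else 0 := by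
      intro t
      simp only [hD]
      rw [← hbij.sum_comp]
      congr 1
      refine Finset.sum_congr rfl fun a' _ => if_congr ⟨?_, fun h => ⟨a', h, rfl⟩⟩ rfl rfl
      rintro ⟨a'', h1, h2⟩
      have : a'' = a' := hbij.1 h2
      rw [← this]; exact h1
    have := phase_avg L (by omega) w (fun a' => q0 _ _ _ _) w1 (fun a' => c a' s) b
      (fun t => by rw [← eD]; exact Dp t r a b hr)
    simp_rw [eD]
    refine this.trans (mul_le_mul_of_nonneg_left (add_le_add le_rfl ?_) (Nat.cast_nonneg _))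
    split_ifs with hx
    · have : 0 ≤ min 1 (L * q a b (φ r) (r b a)) :=
        le_min zero_le_one (mul_nonneg (Nat.cast_nonneg _) (q0 _ _ _ _))
      linarith [min_le_left 1 (L * ∑ a', if c a' s = b then w a' else 0)]
    · rw [Finset.sum_eq_single a]
      · simp [hw, hs]
      · intro a' _ ha'; exact if_neg fun h => hx ⟨a', ha', h⟩
      · simp
  set X : ℝ := ∑ a, ∑ s, if ∃ a', a' ≠ a ∧ c a' s = c a s then 1 else 0 with hX
  have hX2 : X = ∑ j : α × β, if ∃ a', a' ≠ j.1 ∧ c a' ((c j.1)⁻¹ j.2) = j.2 then 1 else 0 := by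
    rw [hX, Fintype.sum_prod_type]
    refine Finset.sum_congr rfl fun a _ => ?_
    rw [← Equiv.sum_comp (c a)⁻¹]
    simp
  set T : ℝ := (Fintype.card (β → Fin L) : ℝ) with hT
  have hT0 : 0 < T := by
    have : Nonempty (Fin L) := ⟨⟨0, by omega⟩⟩
    rw [hT]; exact_mod_cast Fintype.card_pos
  set δ := -1 + (1 + Real.log L) / L with hδ
  clear_value δ
  have fin2 : ∀ r, T * (μ r * Real.log Z) ≤ (∑ t : β → Fin L, μ r * ((∑ b, Real.log (ν b (r b))
      - ∑ j : α × β, Real.log (D t j.1 j.2 (φ r))) - Real.log (μ r)))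
      + T * (∑ b, μ r * (Real.log (u (r b)) - Real.log (ν b (r b))
        + ∑ a, min 1 (L * cq (ν b) e a (r b) (r b a))) + μ r * (m * Fintype.card β * δ + X)) := by
    intro r
    rcases (μ0 r).eq_or_lt with h | hr
    · simp [← h]
    have l1 : Real.log (μ r) = ∑ b, Real.log (u (r b)) - Real.log Z := by
      rw [(μp r hr).2.2, Real.log_div (Finset.prod_pos fun b _ => (μp r hr).2.1 b).ne' hZ0.ne',
        Real.log_prod (fun b _ => ((μp r hr).2.1 b).ne')]
    have l2 := Finset.sum_le_sum (s := univ) fun (j : α × β) _ => av r j.1 j.2 hr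
    rw [Finset.sum_comm, ← Finset.mul_sum, Finset.sum_add_distrib, Finset.sum_add_distrib, ← hX2,
      Finset.sum_const, Finset.card_univ, Fintype.card_prod, Fintype.card_congr e,
      Fintype.card_fin, nsmul_eq_mul, Fintype.sum_prod_type_right] at l2
    rw [← Finset.mul_sum, ← Finset.mul_sum, Finset.sum_sub_distrib, Finset.sum_sub_distrib,
      Finset.sum_add_distrib, Finset.sum_sub_distrib, Finset.sum_const, Finset.sum_const,
      Finset.card_univ, nsmul_eq_mul, nsmul_eq_mul, l1]
    push_cast at l2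
    have l3 := mul_le_mul_of_nonneg_left l2 hr.le
    simp only [hq, hφ] at l3 ⊢
    nlinarith
  have tot := Finset.sum_le_sum (s := univ) fun r _ => fin2 r
  rw [← Finset.mul_sum, ← Finset.sum_mul, μ1, one_mul, Finset.sum_add_distrib, Finset.sum_comm,
    ← Finset.mul_sum, Finset.sum_add_distrib, ← Finset.sum_mul, μ1, one_mul,
    Finset.sum_comm (s := (univ : Finset (β → Equiv.Perm α)))] at tot
  have t1 := Finset.sum_nonpos (s := univ) fun t _ => gb t
  have t2 := Finset.sum_le_sum (s := univ) fun b _ =>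
    (νs b _).symm.le.trans (row_bound e (ν0 b) (ν1 b) hL2 hlam hm2 u u0 (νu b) hu)
  rw [Finset.sum_const, Finset.card_univ, nsmul_eq_mul] at t2
  have t3 : T * Real.log Z ≤ T * (Fintype.card β * (Real.log (m.factorial * A) + 2 * m / L)
      + (m * Fintype.card β * δ + X)) := by
    nlinarith [mul_le_mul_of_nonneg_left t2 hT0.le]
  have t4 := le_of_mul_le_mul_left t3 hT0
  have hA : 0 < A ∨ Fintype.card β = 0 := by
    rcases isEmpty_or_nonempty β with hb | ⟨⟨b⟩⟩
    · right; exact Fintype.card_eq_zero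
    · left
      obtain ⟨σ, -, hσ⟩ := Finset.exists_lt_of_sum_lt (s := univ) (f := fun _ => (0 : ℝ))
        (g := ν b) (by simp [ν1])
      refine lt_of_lt_of_le (Real.rpow_pos_of_pos (div_pos (Finset.sum_pos' (fun σ _ =>
        Real.rpow_nonneg (u0 σ) _) ⟨σ, Finset.mem_univ _, Real.rpow_pos_of_pos (νu b σ hσ) _⟩)
        (by positivity)) _) hu
  have hP : 0 < ((m.factorial : ℝ) * A) ^ Fintype.card β := by
    rcases hA with h | h
    · positivity
    · rw [h]; simp
  rw [← Real.exp_log hZ0, ← Real.exp_log hP, ← Real.exp_add, Real.exp_le_exp, Real.log_pow]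
  refine t4.trans (le_of_eq ?_)
  rw [hδ]; ring

open Classical in
lemma bl_col (rk : α → ℕ) {L lam A : ℝ} (hl1 : 1 < lam) (hlam : Real.exp lam = L ^ 2)
    (w : Equiv.Perm β → ℝ) (w0 : ∀ σ, 0 ≤ w σ) (hA : 0 < A)
    (hw : ((∑ σ, w σ ^ (1 / (1 - 1 / lam))) / (Fintype.card β).factorial) ^ (1 - 1 / lam) ≤ A) :
    ∑ c : α → Equiv.Perm β, (∏ a, w (c a)) * Real.exp (2 * ∑ a, ∑ s,
      if ∃ a', rk a' < rk a ∧ c a' s = c a s then 1 else 0)
      ≤ ((Fintype.card β).factorial * A * Real.exp (L ^ 4 * Fintype.card α)) ^ Fintype.card α := by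
  set P := (Fintype.card β).factorial * A * Real.exp (L ^ 4 * Fintype.card α) with hP
  have hP0 : 0 < P := by positivity
  have hf : (0 : ℝ) < (Fintype.card β).factorial := by positivity
  set F : α → (α → Equiv.Perm β) → β → Finset β := fun a c s =>
    (univ.filter fun a' => rk a' < rk a).image fun a' => c a' s with hF
  set g : α → (α → Equiv.Perm β) → Equiv.Perm β → ℝ := fun a c σ =>
    w σ * Real.exp (2 * (univ.filter fun s => σ s ∈ F a c s).card) / P with hg
  have gc : ∀ a j c y σ, rk a ≤ rk j → g a (Function.update c j y) σ = g a c σ := by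
    intro a j c y σ h
    have : F a (Function.update c j y) = F a c := by
      funext s
      refine Finset.image_congr fun a' ha' => ?_
      have : a' ≠ j := by rintro rfl; simp at ha'; omega
      simp [this]
    simp only [hg, this]
  have hth0 : 0 < 1 - 1 / lam := by rw [sub_pos, div_lt_one (by linarith)]; exact hl1
  have rb := rank_bound rk (fun a c => g a c (c a))
    (fun a c => div_nonneg (mul_nonneg (w0 _) (Real.exp_pos _).le) hP0.le)
    (fun a j c y hj hle => by rw [Function.update_of_ne hj.symm, gc _ _ _ _ _ hle])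
    (fun a c => by
      simp_rw [Function.update_self, gc _ _ _ _ _ le_rfl]
      simp only [hg]
      rw [← Finset.sum_div, div_le_one hP0]
      have hc : (1 / (1 - 1 / lam)).HolderConjugate lam := by
        rw [Real.holderConjugate_iff]
        refine ⟨?_, by field_simp; ring⟩
        rw [lt_div_iff₀ hth0]
        have : 0 < 1 / lam := by positivity
        linarith
      refine (Real.inner_le_Lp_mul_Lq_of_nonneg univ hc (fun σ _ => w0 σ)
        (fun σ _ => (Real.exp_pos _).le)).trans ?_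
      rw [one_div_one_div]
      have m1 := perm_moment (F a c) (Fintype.card α) (fun s => Finset.card_image_le.trans
        (Finset.card_le_univ _)) (Λ := L ^ 4) (by positivity)
      have m2 : ∀ k : ℕ, Real.exp (2 * k) ^ lam = (L ^ 4) ^ k := by
        intro k
        rw [← Real.exp_mul, show (L ^ 4) = (L ^ 2) ^ 2 by ring, ← hlam, ← Real.exp_nat_mul,
          ← Real.exp_nat_mul]
        congr 1; push_cast; ring
      simp_rw [m2]
      have m3 := Real.rpow_le_rpow (Finset.sum_nonneg fun σ _ => by positivity) m1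
        (show 0 ≤ 1 / lam by positivity)
      have S0 : 0 ≤ ∑ σ, w σ ^ (1 / (1 - 1 / lam)) :=
        Finset.sum_nonneg fun σ _ => Real.rpow_nonneg (w0 σ) _
      rw [Real.div_rpow S0 hf.le, div_le_iff₀ (Real.rpow_pos_of_pos hf _)] at hw
      refine (mul_le_mul hw m3 (Real.rpow_nonneg (Finset.sum_nonneg fun σ _ => by positivity) _)
        (by positivity)).trans ?_
      rw [Real.mul_rpow hf.le (Real.exp_pos _).le]
      have m4 : Real.exp (L ^ 4 * Fintype.card α) ^ (1 / lam)
          ≤ Real.exp (L ^ 4 * Fintype.card α) := by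
        rw [← Real.exp_mul, Real.exp_le_exp]
        refine mul_le_of_le_one_right (by positivity) ?_
        rw [div_le_one (by linarith)]; linarith
      have m5 : ((Fintype.card β).factorial : ℝ) ^ (1 - 1 / lam)
          * ((Fintype.card β).factorial : ℝ) ^ (1 / lam) = (Fintype.card β).factorial := by
        rw [← Real.rpow_add hf]; simp
      calc _ = (((Fintype.card β).factorial : ℝ) ^ (1 - 1 / lam)
          * ((Fintype.card β).factorial : ℝ) ^ (1 / lam)) * A
            * Real.exp (L ^ 4 * Fintype.card α) ^ (1 / lam) := by ring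
        _ ≤ P := by rw [m5, hP]; gcongr)
  rw [← div_le_one (by positivity), Finset.sum_div]
  refine le_trans (le_of_eq (Finset.sum_congr rfl fun c _ => ?_)) rb
  simp only [hg]
  rw [Finset.prod_div_distrib, Finset.prod_mul_distrib, Finset.prod_const, Finset.card_univ,
    ← Real.exp_sum, Finset.mul_sum]
  congr 3
  refine Finset.sum_congr rfl fun a _ => ?_
  rw [Finset.card_filter]
  push_cast
  congr 1
  refine Finset.sum_congr rfl fun s _ => if_congr ?_ rfl rfl
  simp [hF]

open Classical in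
theorem bl (e : α ≃ Fin m) {L : ℕ} {lam A B : ℝ} (hL : 2 ≤ L)
    (hlam : Real.exp lam = L ^ 2) (hm : L ^ 8 ≤ m) (u : Equiv.Perm α → ℝ) (u0 : ∀ σ, 0 ≤ u σ)
    (hu : ((∑ σ, u σ ^ (1 / (1 - 1 / lam))) / m.factorial) ^ (1 - 1 / lam) ≤ A)
    (w : Equiv.Perm β → ℝ) (w0 : ∀ σ, 0 ≤ w σ) (hB : 0 < B)
    (hw : ((∑ σ, w σ ^ (1 / (1 - 1 / lam))) / (Fintype.card β).factorial) ^ (1 - 1 / lam) ≤ B) :
    ∑ c : α → Equiv.Perm β, ∑ r : β → Equiv.Perm α,
      (if Lat c r then (∏ a, w (c a)) * ∏ b, u (r b) else 0)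
      ≤ (m.factorial * A) ^ Fintype.card β * ((Fintype.card β).factorial * B) ^ m
        * Real.exp (m * Fintype.card β * (-1 + (3 + Real.log L) / L) + L ^ 4 * m * m) := by
  have hL2 : (2 : ℝ) ≤ L := by exact_mod_cast hL
  have hl1 : 1 < lam := by
    rw [← Real.exp_lt_exp, hlam]
    have := Real.exp_one_lt_d9
    nlinarith
  have hA0 : 0 ≤ A := le_trans (Real.rpow_nonneg (div_nonneg (Finset.sum_nonneg fun σ _ =>
    Real.rpow_nonneg (u0 σ) _) (Nat.cast_nonneg _)) _) hu
  have hc : Fintype.card α = m := by rw [Fintype.card_congr e, Fintype.card_fin]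
  have c1 := bl_col (fun a => (e a : ℕ)) hl1 hlam w w0 hB hw
  have c2 := bl_col (fun a => m - (e a : ℕ)) hl1 hlam w w0 hB hw
  rw [hc] at c1 c2
  set Q := (m.factorial * A) ^ Fintype.card β * Real.exp (m * Fintype.card β
        * (-1 + (3 + Real.log L) / L)) with hQ
  have hQ0 : 0 ≤ Q := by positivity
  have s1 : ∀ c : α → Equiv.Perm β, ∑ r : β → Equiv.Perm α,
      (if Lat c r then (∏ a, w (c a)) * ∏ b, u (r b) else 0)
      ≤ Q / 2 * ((∏ a, w (c a)) * Real.exp (2 * ∑ a, ∑ s,
          if ∃ a', (e a' : ℕ) < e a ∧ c a' s = c a s then 1 else 0)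
        + (∏ a, w (c a)) * Real.exp (2 * ∑ a, ∑ s,
          if ∃ a', m - (e a' : ℕ) < m - e a ∧ c a' s = c a s then 1 else 0)) := by
    intro c
    have w1 : 0 ≤ ∏ a, w (c a) := Finset.prod_nonneg fun a _ => w0 _
    have e1 : ∑ r : β → Equiv.Perm α, (if Lat c r then (∏ a, w (c a)) * ∏ b, u (r b) else 0)
        = (∏ a, w (c a)) * ∑ r : β → Equiv.Perm α, (if Lat c r then ∏ b, u (r b) else 0) := by
      rw [Finset.mul_sum]
      exact Finset.sum_congr rfl fun r _ => by split_ifs <;> simp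
    rw [e1]
    refine (mul_le_mul_of_nonneg_left (bl_fix e c hL hlam hm u u0 hu) w1).trans ?_
    rw [Real.exp_add, ← mul_assoc (_ ^ _), ← hQ]
    set X1 : ℝ := ∑ a, ∑ s, if ∃ a', (e a' : ℕ) < e a ∧ c a' s = c a s then 1 else 0 with hX1
    set X2 : ℝ := ∑ a, ∑ s, if ∃ a', m - (e a' : ℕ) < m - e a ∧ c a' s = c a s then 1 else 0
      with hX2
    have hX : (∑ a, ∑ s, if ∃ a', a' ≠ a ∧ c a' s = c a s then (1 : ℝ) else 0) ≤ X1 + X2 := by
      rw [hX1, hX2, ← Finset.sum_add_distrib]
      refine Finset.sum_le_sum fun a _ => ?_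
      rw [← Finset.sum_add_distrib]
      refine Finset.sum_le_sum fun s _ => ?_
      split_ifs with h1 h2 h3 h3
      all_goals try norm_num
      obtain ⟨a', ha, hs⟩ := h1
      have : (e a' : ℕ) ≠ e a := fun h => ha (e.injective (Fin.ext h))
      have b1 := (e a').2
      rcases Nat.lt_or_gt_of_ne this with h | h
      · exact h2 ⟨a', h, hs⟩
      · exact h3 ⟨a', by omega, hs⟩
    have hE := Real.exp_le_exp.mpr hX
    rw [Real.exp_add] at hE
    rw [two_mul X1, two_mul X2, Real.exp_add, Real.exp_add]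
    have := mul_nonneg (mul_nonneg w1 hQ0) (sq_nonneg (Real.exp X1 - Real.exp X2))
    nlinarith [mul_le_mul_of_nonneg_left hE (mul_nonneg w1 hQ0)]
  refine (Finset.sum_le_sum fun c _ => s1 c).trans ?_
  rw [← Finset.mul_sum, Finset.sum_add_distrib]
  refine (mul_le_mul_of_nonneg_left (add_le_add c1 c2) (by positivity)).trans (le_of_eq ?_)
  rw [hQ, mul_pow _ (Real.exp _), ← Real.exp_nat_mul, Real.exp_add]
  ring_nf

end Vale.Agent.P162
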