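import Mathlib

/-! Elementary finite tools: resampling, sequential products, Gibbs inequality, factorials. -/

set_option linter.unusedSectionVars false

namespace Vale.Agent.P162

open Finset

section
variable {I Y : Type} [Fintype I] [DecidableEq I] [Fintype Y]

lemma resample {R : Type} [CommSemiring R] (i : I) (F : (I → Y) → R) :
    (Fintype.card Y : R) * ∑ r, F r = ∑ r : I → Y, ∑ y, F (Function.update r i y) := by
  have inv : Function.Involutive
      (fun p : (I → Y) × Y => (Function.update p.1 i p.2, p.1 i)) := by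
    intro p; simp
  have := Equiv.sum_comp inv.toPerm (fun p : (I → Y) × Y => F p.1)
  rw [Fintype.sum_prod_type, Fintype.sum_prod_type] at this
  simp only [Function.Involutive.coe_toPerm, Finset.sum_const, Finset.card_univ, nsmul_eq_mul] at this
  rw [this, Finset.mul_sum]

/-- sequential product bound -/
lemma rank_bound [Nonempty Y] (rk : I → ℕ) (f : I → (I → Y) → ℝ) (h0 : ∀ i r, 0 ≤ f i r)
    (hdep : ∀ i j r y, j ≠ i → rk i ≤ rk j → f i (Function.update r j y) = f i r)
    (hsum : ∀ i r, ∑ y, f i (Function.update r i y) ≤ 1) :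
    ∑ r, ∏ i, f i r ≤ 1 := by
  have hY : (0 : ℝ) < Fintype.card Y := by exact_mod_cast Fintype.card_pos
  have key : ∀ s : Finset I, (Fintype.card Y : ℝ) ^ s.card * ∑ r, ∏ i ∈ s, f i r
      ≤ (Fintype.card Y : ℝ) ^ Fintype.card I := by
    intro s
    induction s using Finset.induction_on_max_value rk with
    | empty => simp
    | insert i s hi hmax ih =>
      refine le_trans ?_ ih
      rw [Finset.card_insert_of_notMem hi, pow_succ, mul_assoc]
      refine mul_le_mul_of_nonneg_left ?_ (by positivity)
      rw [resample i]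
      refine Finset.sum_le_sum fun r _ => ?_
      have : ∀ y, ∏ j ∈ insert i s, f j (Function.update r i y)
          = f i (Function.update r i y) * ∏ j ∈ s, f j r := by
        intro y
        rw [Finset.prod_insert hi]
        congr 1
        refine Finset.prod_congr rfl fun j hj => hdep j i r y ?_ (hmax j hj)
        rintro rfl; exact hi hj
      simp_rw [this]
      rw [← Finset.sum_mul]
      exact mul_le_of_le_one_left (Finset.prod_nonneg fun j _ => h0 j r) (hsum i r)
  have := key Finset.univ
  rw [Finset.card_univ] at this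
  exact (mul_le_iff_le_one_right (by positivity)).mp this

end

/-- Gibbs inequality -/
lemma gibbs {Ω : Type} [Fintype Ω] (μ ρ : Ω → ℝ) (h0 : ∀ ω, 0 ≤ μ ω) (h1 : ∑ ω, μ ω = 1)
    (r0 : ∀ ω, 0 ≤ ρ ω) (r1 : ∑ ω, ρ ω ≤ 1) (hp : ∀ ω, 0 < μ ω → 0 < ρ ω) :
    ∑ ω, μ ω * (Real.log (ρ ω) - Real.log (μ ω)) ≤ 0 := by
  have : ∑ ω, μ ω * (Real.log (ρ ω) - Real.log (μ ω)) ≤ ∑ ω, (ρ ω - μ ω) := by
    refine Finset.sum_le_sum fun ω _ => ?_
    rcases (h0 ω).eq_or_lt with h | h
    · rw [← h]; simpa using r0 ω
    · rw [← Real.log_div (hp ω h).ne' h.ne']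
      have := Real.log_le_sub_one_of_pos (div_pos (hp ω h) h)
      calc _ ≤ μ ω * (ρ ω / μ ω - 1) := mul_le_mul_of_nonneg_left this h.le
        _ = _ := by field_simp
  rw [Finset.sum_sub_distrib, h1] at this
  linarith

lemma log_fact_le (n : ℕ) (hn : 1 ≤ n) :
    Real.log (n.factorial : ℝ) ≤ 1 + Real.log n + n * Real.log n - n := by
  induction n, hn using Nat.le_induction with
  | base => simp
  | succ n hn ih =>
    have hn0 : (0 : ℝ) < n := by exact_mod_cast hn
    rw [Nat.factorial_succ]
    push_cast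
    rw [Real.log_mul (by positivity) (by positivity)]
    have h := Real.one_sub_inv_le_log_of_pos (show (0 : ℝ) < (n + 1) / n by positivity)
    rw [Real.log_div (by positivity) hn0.ne'] at h
    have h2 : ((n : ℝ) + 1) * (1 - (((n : ℝ) + 1) / n)⁻¹) = 1 := by field_simp; ring
    have h3 := mul_le_mul_of_nonneg_left h (show (0 : ℝ) ≤ n + 1 by positivity)
    rw [h2] at h3
    nlinarith

lemma le_log_fact (n : ℕ) : n * Real.log n - n ≤ Real.log (n.factorial : ℝ) := by
  rcases Nat.eq_zero_or_pos n with rfl | hn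
  · simp
  have hn0 : (0 : ℝ) < n := by exact_mod_cast hn
  have h := Real.pow_div_factorial_le_exp (n : ℝ) hn0.le n
  have h2 := Real.log_le_log (by positivity) h
  rw [Real.log_div (by positivity) (by positivity), Real.log_pow, Real.log_exp] at h2
  linarith

section
variable {β : Type} [Fintype β] [DecidableEq β]

lemma perm_count (F : β → Finset β) (m : ℕ) (hF : ∀ s, (F s).card ≤ m) (S : Finset β) :
    (univ.filter fun σ : Equiv.Perm β => ∀ s ∈ S, σ s ∈ F s).card
      ≤ m ^ S.card * (Fintype.card β - S.card).factorial := by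
  induction S using Finset.induction_on with
  | empty => simp [Fintype.card_perm]
  | insert t S ht ih =>
    have hlt : S.card < Fintype.card β := by
      have := Finset.card_le_univ (insert t S)
      rw [Finset.card_insert_of_notMem ht] at this; omega
    have inj : ((univ.filter fun σ : Equiv.Perm β => ∀ s ∈ insert t S, σ s ∈ F s) ×ˢ Sᶜ).card
        ≤ ((univ.filter fun σ : Equiv.Perm β => ∀ s ∈ S, σ s ∈ F s) ×ˢ F t).card := by
      refine Finset.card_le_card_of_injOn (fun p => (p.1 * Equiv.swap t p.2, p.1 t)) ?_ ?_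
      · rintro ⟨σ, u⟩ hp
        simp only [coe_product, coe_filter, mem_univ, true_and, Set.mem_prod, Set.mem_ofPred_eq,
          mem_coe, mem_compl] at hp ⊢
        refine ⟨fun s hs => ?_, hp.1 t (Finset.mem_insert_self _ _)⟩
        rw [Equiv.Perm.mul_apply, Equiv.swap_apply_of_ne_of_ne]
        · exact hp.1 s (Finset.mem_insert_of_mem hs)
        · rintro rfl; exact ht hs
        · rintro rfl; exact hp.2 hs
      · rintro ⟨σ, u⟩ _ ⟨σ', u'⟩ _ h
        simp only [Prod.mk.injEq] at h
        have h1 : (σ * Equiv.swap t u) u = (σ * Equiv.swap t u) u' := by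
          conv_rhs => rw [h.1]
          simp [h.2]
        have h2 : u = u' := (σ * Equiv.swap t u).injective h1
        subst h2
        simp [mul_right_cancel h.1]
    rw [Finset.card_product, Finset.card_product, Finset.card_compl] at inj
    rw [Finset.card_insert_of_notMem ht]
    obtain ⟨k, hk⟩ : ∃ k, Fintype.card β - S.card = k + 1 := ⟨_, (Nat.succ_pred_eq_of_pos
      (Nat.sub_pos_of_lt hlt)).symm⟩
    have hk' : Fintype.card β - (S.card + 1) = k := by omega
    rw [hk] at inj ih
    rw [hk']
    rw [Nat.factorial_succ] at ih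
    have := inj.trans (Nat.mul_le_mul ih (hF t))
    refine Nat.le_of_mul_le_mul_right (this.trans (le_of_eq ?_)) (Nat.succ_pos k)
    ring

lemma perm_moment (F : β → Finset β) (m : ℕ) (hF : ∀ s, (F s).card ≤ m) {Λ : ℝ} (hΛ : 0 ≤ Λ) :
    ∑ σ : Equiv.Perm β, Λ ^ (univ.filter fun s => σ s ∈ F s).card
      ≤ (Fintype.card β).factorial * Real.exp (Λ * m) := by
  have h1 : ∀ σ : Equiv.Perm β, Λ ^ (univ.filter fun s => σ s ∈ F s).card
      ≤ ∑ S : Finset β, if ∀ s ∈ S, σ s ∈ F s then Λ ^ S.card else 0 := by
    intro σ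
    have := Finset.single_le_sum (f := fun S : Finset β => if ∀ s ∈ S, σ s ∈ F s then Λ ^ S.card
      else 0) (fun S _ => by split_ifs <;> positivity)
      (Finset.mem_univ (univ.filter fun s => σ s ∈ F s))
    rwa [if_pos (by simp)] at this
  refine (Finset.sum_le_sum fun σ _ => h1 σ).trans ?_
  rw [Finset.sum_comm]
  have h2 : ∀ S : Finset β, (∑ σ : Equiv.Perm β, if ∀ s ∈ S, σ s ∈ F s then Λ ^ S.card else 0)
      ≤ (Λ * m) ^ S.card * (Fintype.card β - S.card).factorial := by
    intro S
    rw [← Finset.sum_filter, Finset.sum_const, nsmul_eq_mul, mul_pow]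
    have : (((univ.filter fun σ : Equiv.Perm β => ∀ s ∈ S, σ s ∈ F s).card : ℕ) : ℝ)
        ≤ (m : ℝ) ^ S.card * (Fintype.card β - S.card).factorial := by
      exact_mod_cast perm_count F m hF S
    calc _ ≤ ((m : ℝ) ^ S.card * (Fintype.card β - S.card).factorial) * Λ ^ S.card := by gcongr
      _ = _ := by ring
  refine (Finset.sum_le_sum fun S _ => h2 S).trans ?_
  rw [← Finset.powerset_univ, Finset.sum_powerset_apply_card
    (fun j => (Λ * m) ^ j * ((Fintype.card β - j).factorial : ℝ)), Finset.card_univ]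
  refine le_trans (le_of_eq ?_) (mul_le_mul_of_nonneg_left
    (Real.sum_le_exp_of_nonneg (show 0 ≤ Λ * m by positivity) (Fintype.card β + 1)) (by positivity))
  rw [Finset.mul_sum]
  refine Finset.sum_congr rfl fun j hj => ?_
  have hj' : j ≤ Fintype.card β := by simpa [Nat.lt_succ_iff] using hj
  rw [← Nat.choose_mul_factorial_mul_factorial hj', nsmul_eq_mul]
  push_cast
  field_simp

end

end Vale.Agent.P162
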