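import Vale.Agent.P162.Basic

/-! Cylinder events and a random colouring lemma. -/

set_option linter.unusedSectionVars false

namespace Vale.Agent.P162

open Finset

lemma resample_ind {I Y R : Type} [Fintype I] [DecidableEq I] [Fintype Y] [CommSemiring R] (p : I)
    (F : (I → Y) → R) (hF : ∀ r y, F (Function.update r p y) = F r) (φ : Y → R) :
    (Fintype.card Y : R) * ∑ r, F r * φ (r p) = (∑ r, F r) * ∑ y, φ y := by
  rw [resample p, Finset.sum_mul]
  refine Finset.sum_congr rfl fun r _ => ?_
  simp_rw [hF, Function.update_self]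
  rw [Finset.mul_sum]

variable {I τ V : Type} [Fintype I] [DecidableEq I] [Fintype τ] [DecidableEq τ]
  [Fintype V] [DecidableEq V]

lemma cylinder (D : (I → Bool) → Prop) [DecidablePred D] (f : I → Bool) (N : Finset I)
    (hD : ∀ j ∈ N, ∀ ω b, D (Function.update ω j b) ↔ D ω) :
    (univ.filter fun ω => D ω ∧ ∀ j ∈ N, ω j = f j).card * 2 ^ N.card
      = (univ.filter D).card := by
  induction N using Finset.induction_on with
  | empty => simp
  | insert j N hj ih =>
    rw [← ih fun k hk => hD k (Finset.mem_insert_of_mem hk), Finset.card_insert_of_notMem hj,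
      pow_succ', ← mul_assoc]
    congr 1
    have := resample_ind (R := ℕ) j (fun ω => if D ω ∧ ∀ k ∈ N, ω k = f k then 1 else 0)
      (fun ω b => if_congr (and_congr (hD j (Finset.mem_insert_self _ _) ω b)
        (forall₂_congr fun k hk => by
          rw [Function.update_of_ne (by rintro rfl; exact hj hk)])) rfl rfl)
      (fun b => if b = f j then 1 else 0)
    simp only [Fintype.card_bool, Nat.cast_ofNat, Finset.sum_ite_eq', Finset.mem_univ, if_true,
      mul_one] at this
    rw [Finset.card_filter, Finset.card_filter, ← this, mul_comm]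
    congr 1
    refine Finset.sum_congr rfl fun ω _ => ?_
    simp only [Finset.forall_mem_insert]
    by_cases h1 : ω j = f j <;> simp [h1]

lemma sys_bound [Nonempty V] (C : (I → Bool) → τ → V) (J : τ → V → Finset I)
    (hC : ∀ ω ω' t, C ω' t = C ω t ↔ ∀ j ∈ J t (C ω t), ω' j = ω j) (T Bl : Finset τ)
    (good : (τ → V) → Finset V) (hg : ∀ c c', (∀ s ∈ Bl, c s = c' s) → good c = good c')
    (G f : ℕ) (hG : ∀ c, (good c).card ≤ G) :
    (univ.filter fun ω => (∀ t ∈ T, C ω t ∈ good (C ω)) ∧
      f ≤ (T.biUnion (fun t => J t (C ω t)) \ Bl.biUnion (fun s => J s (C ω s))).card).card * 2 ^ f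
      ≤ G ^ T.card * Fintype.card (I → Bool) := by
  classical
  set v0 := Classical.arbitrary V
  set A := univ.filter fun ω => (∀ t ∈ T, C ω t ∈ good (C ω)) ∧
      f ≤ (T.biUnion (fun t => J t (C ω t)) \ Bl.biUnion (fun s => J s (C ω s))).card with hA
  set rs : Finset τ → (I → Bool) → τ → V := fun U ω s => if s ∈ U then C ω s else v0 with hrs
  have rsi : ∀ U ω ω', rs U ω = rs U ω' ↔ ∀ s ∈ U, C ω s = C ω' s := by
    intro U ω ω'
    refine ⟨fun h s hs => by simpa [hrs, hs] using congrFun h s, fun h => funext fun s => ?_⟩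
    simp only [hrs]; split_ifs with hs
    exacts [h s hs, rfl]
  rw [Finset.card_eq_sum_card_fiberwise (f := rs Bl) (s := A) (t := univ) (by simp),
    ← Finset.card_univ, Finset.card_eq_sum_card_fiberwise (f := rs Bl) (s := univ) (t := univ)
      (by simp), Finset.sum_mul, Finset.mul_sum]
  refine Finset.sum_le_sum fun cB _ => ?_
  rw [Finset.card_eq_sum_card_fiberwise (f := rs T) (s := A.filter fun ω => rs Bl ω = cB)
    (t := Fintype.piFinset fun t => if t ∈ T then good cB else {v0}), Finset.sum_mul]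
  · refine (Finset.sum_le_card_nsmul _ _ (univ.filter fun ω => rs Bl ω = cB).card
      fun cT _ => ?_).trans (Nat.mul_le_mul_right _ ?_)
    · rcases ((A.filter fun ω => rs Bl ω = cB).filter fun ω => rs T ω = cT).eq_empty_or_nonempty
        with h | ⟨ω0, h0⟩
      · rw [h]; simp
      simp only [hA, Finset.mem_filter, Finset.mem_univ, true_and] at h0
      obtain ⟨⟨⟨-, h1⟩, h2⟩, h3⟩ := h0
      set N := T.biUnion (fun t => J t (C ω0 t)) \ Bl.biUnion (fun s => J s (C ω0 s)) with hN
      rw [← cylinder (fun ω => rs Bl ω = cB) ω0 N]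
      · refine Nat.mul_le_mul (Finset.card_le_card fun ω hω => ?_)
          (Nat.pow_le_pow_right (by norm_num) h1)
        simp only [Finset.mem_filter, Finset.mem_univ, true_and] at hω ⊢
        refine ⟨hω.1.2, fun j hj => ?_⟩
        obtain ⟨t, ht, hj⟩ := Finset.mem_biUnion.mp (Finset.mem_sdiff.mp hj).1
        exact (hC ω0 ω t).mp ((rsi T ω ω0).mp (hω.2.trans h3.symm) t ht) j hj
      · intro j hj ω b
        rw [← h2, rsi, rsi]
        refine forall₂_congr fun s hs => ?_
        rw [hC, hC]
        refine forall₂_congr fun k hk => ?_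
        rw [Function.update_of_ne]
        rintro rfl
        exact (Finset.mem_sdiff.mp hj).2 (Finset.mem_biUnion.mpr ⟨s, hs, hk⟩)
    · rw [Fintype.card_piFinset, ← Finset.prod_const, ← Finset.prod_ite_mem_eq T (fun _ => G)]
      refine Finset.prod_le_prod' fun t _ => ?_
      split_ifs
      exacts [hG _, by simp]
  · intro ω hω
    simp only [hA, Finset.coe_filter, Finset.mem_filter, Finset.mem_univ, true_and,
      Set.mem_ofPred_eq] at hω
    simp only [Finset.mem_coe, Fintype.mem_piFinset, hrs]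
    intro t
    split_ifs with ht
    · rw [← hω.2, hg (rs Bl ω) (C ω) (fun s hs => by simp [hrs, hs])]
      exact hω.1.1 t ht
    · simp

lemma colouring (J : τ → Finset I) (D Q r : ℕ) (hQ : 2 ≤ Q) (hr : 4 * Q + 4 * D ≤ r * Q)
    (hJ : ∀ t, (J t).card = D) (b : τ → τ) (hb : ∀ t, b t ≠ t)
    (h3 : ∀ t s s' j, j ∈ J t → j ∈ J s → j ∈ J s' → s ≠ t → s' ≠ t → s = s')
    (h2 : ∀ t, (J t ∩ J (b t)).card ≤ 2) :
    ∃ T Bl : Finset τ, (∀ t ∈ T, b t ∈ Bl) ∧ Fintype.card τ ≤ 2 * Q ^ 2 * T.card ∧
      (D - r) * T.card ≤ (T.biUnion J \ Bl.biUnion J).card := by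
  classical
  set c0 : Fin Q := ⟨0, by omega⟩
  set c1 : Fin Q := ⟨1, by omega⟩
  have c01 : c0 ≠ c1 := by simp [c0, c1]
  have hQ0 : (0 : ℝ) < Q := by exact_mod_cast (by omega : 0 < Q)
  have hr0 : (0 : ℝ) < r := by
    rcases Nat.eq_zero_or_pos r with rfl | h
    · omega
    · exact_mod_cast h
  set N : ℝ := (Fintype.card (τ → Fin Q) : ℝ) with hN
  set χ : τ → (τ → Fin Q) → ℝ := fun t col =>
    (if col t = c0 then 1 else 0) * (if col (b t) = c1 then 1 else 0) with hχ
  set bad : τ → (τ → Fin Q) → Finset I := fun t col =>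
    (J t).filter fun j => ∃ s, s ≠ t ∧ j ∈ J s ∧ (col s = c0 ∨ col s = c1) with hbad
  have χ0 : ∀ t col, 0 ≤ χ t col := fun t col => by simp only [hχ]; split_ifs <;> norm_num
  have e1 : ∀ t, Q ^ 2 * ∑ col, χ t col = N := by
    intro t
    have a1 := resample_ind (R := ℝ) (b t) (fun col : τ → Fin Q => if col t = c0 then 1 else 0)
      (fun col y => by rw [Function.update_of_ne (hb t).symm]) (fun y => if y = c1 then 1 else 0)
    have a2 := resample_ind (R := ℝ) t (fun col : τ → Fin Q => 1) (fun col y => rfl)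
      (fun y => if y = c0 then 1 else 0)
    simp only [Fintype.card_fin, Finset.sum_ite_eq', Finset.mem_univ, if_true, mul_one, one_mul,
      Finset.sum_const, Finset.card_univ, nsmul_eq_mul] at a1 a2
    rw [sq, mul_assoc, a1, a2]
  have e2 : ∀ t, Q * ∑ col, χ t col * (bad t col).card ≤ (2 * Q + 2 * D) * ∑ col, χ t col := by
    intro t
    set P := J t \ J (b t) with hP
    set p : I → τ := fun j => if h : ∃ s, s ≠ t ∧ j ∈ J s then h.choose else b t with hp
    set ψ : Fin Q → ℝ := fun y => (if y = c0 then 1 else 0) + (if y = c1 then 1 else 0) with hψ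
    have ψ0 : ∀ y, 0 ≤ ψ y := fun y => by simp only [hψ]; split_ifs <;> norm_num
    have a1 : ∀ col, ((bad t col).card : ℝ) ≤ 2 + ∑ j ∈ P, if p j ≠ b t then ψ (col (p j)) else 0 := by
      intro col
      rw [← Finset.card_inter_add_card_sdiff (bad t col) (J (b t))]
      push_cast
      refine add_le_add ?_ ?_
      · exact_mod_cast (Finset.card_le_card (Finset.inter_subset_inter_right
          (Finset.filter_subset _ _))).trans (h2 t)
      · rw [Finset.card_eq_sum_ones]
        push_cast
        refine (Finset.sum_le_sum fun j hj => ?_).trans (Finset.sum_le_sum_of_subset_of_nonneg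
          (Finset.sdiff_subset_sdiff (Finset.filter_subset _ _) le_rfl)
          fun j _ _ => by split_ifs; exacts [ψ0 _, le_rfl])
        obtain ⟨hj1, hj2⟩ := Finset.mem_sdiff.mp hj
        obtain ⟨hj3, s, hs1, hs2, hs3⟩ := Finset.mem_filter.mp hj1
        have ex : ∃ s, s ≠ t ∧ j ∈ J s := ⟨s, hs1, hs2⟩
        have : p j = s := by
          simp only [hp, dif_pos ex]
          exact h3 t _ _ j hj3 ex.choose_spec.2 hs2 ex.choose_spec.1 hs1
        rw [this, if_pos (by rintro rfl; exact hj2 hs2)]
        rcases hs3 with h | h <;> simp [hψ, h, c01, c01.symm]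
    have a2 : ∀ j, Q * ∑ col, χ t col * (if p j ≠ b t then ψ (col (p j)) else 0)
        ≤ 2 * ∑ col, χ t col := by
      intro j
      by_cases h : p j ≠ b t
      · have hpt : p j ≠ t := by
          simp only [hp] at h ⊢
          split_ifs at h ⊢ with ex
          exacts [ex.choose_spec.1, hb t]
        have := resample_ind (R := ℝ) (p j) (χ t) (fun col y => by
          simp only [hχ]; rw [Function.update_of_ne hpt.symm, Function.update_of_ne h.symm]) ψ
        simp only [if_pos h]
        rw [Fintype.card_fin] at this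
        rw [this]
        simp only [hψ, Finset.sum_add_distrib, Finset.sum_ite_eq', Finset.mem_univ, if_true]
        linarith
      · simp only [if_neg h, mul_zero, Finset.sum_const_zero]
        exact mul_nonneg zero_le_two (Finset.sum_nonneg fun col _ => χ0 t col)
    have a3 := Finset.sum_le_sum (s := univ) fun col _ => mul_le_mul_of_nonneg_left (a1 col) (χ0 t col)
    refine (mul_le_mul_of_nonneg_left a3 hQ0.le).trans ?_
    simp_rw [mul_add, Finset.mul_sum _ _ (χ t _)]
    rw [Finset.sum_add_distrib, Finset.sum_comm, mul_add, Finset.mul_sum _ _ (Q : ℝ),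
      Finset.mul_sum P, ← Finset.mul_sum, ← Finset.sum_mul]
    have a4 := Finset.sum_le_card_nsmul P _ _ fun j _ => a2 j
    have a5 : (P.card : ℝ) ≤ D := by
      rw [← hJ t]; exact_mod_cast Finset.card_le_card Finset.sdiff_subset
    have a6 : 0 ≤ ∑ col, χ t col := Finset.sum_nonneg fun col _ => χ0 t col
    rw [nsmul_eq_mul] at a4
    nlinarith [mul_le_mul_of_nonneg_right a5 a6]
  have e3 : ∑ col : τ → Fin Q, (Fintype.card τ : ℝ) * r / (2 * Q ^ 2)
      ≤ ∑ col : τ → Fin Q, ∑ t, χ t col * (r - (bad t col).card) := by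
    rw [Finset.sum_comm, Finset.sum_const, Finset.card_univ, nsmul_eq_mul, ← hN]
    have : N * (Fintype.card τ * r / (2 * Q ^ 2)) = ∑ t : τ, N * r / (2 * Q ^ 2) := by
      rw [Finset.sum_const, Finset.card_univ, nsmul_eq_mul]; ring
    rw [this]
    refine Finset.sum_le_sum fun t _ => ?_
    simp_rw [mul_sub]
    rw [Finset.sum_sub_distrib, ← Finset.sum_mul, ← e1 t]
    have a6 : 0 ≤ ∑ col, χ t col := Finset.sum_nonneg fun col _ => χ0 t col
    have a7 : (4 * Q + 4 * D : ℝ) ≤ r * Q := by exact_mod_cast hr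
    have a8 := e2 t
    generalize ∑ col, χ t col = X at a6 a8 ⊢
    generalize ∑ col, χ t col * (bad t col).card = Z at a8 ⊢
    have : (Q : ℝ) ^ 2 * X * r / (2 * Q ^ 2) = X * r / 2 := by field_simp
    rw [this]
    apply le_of_mul_le_mul_left _ hQ0
    nlinarith [mul_le_mul_of_nonneg_right a7 a6]
  obtain ⟨col, -, hcol⟩ := Finset.exists_le_of_sum_le ⟨fun _ => c0, Finset.mem_univ _⟩ e3
  set T := univ.filter fun t => col t = c0 ∧ col (b t) = c1 with hT
  have e4 : ∑ t, χ t col * (r - (bad t col).card) = r * T.card - ∑ t ∈ T, ((bad t col).card : ℝ) := by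
    rw [mul_comm, ← nsmul_eq_mul, ← Finset.sum_const, ← Finset.sum_sub_distrib, hT,
      Finset.sum_filter]
    refine Finset.sum_congr rfl fun t _ => ?_
    simp only [hχ]
    by_cases h1 : col t = c0 <;> by_cases h2 : col (b t) = c1 <;> simp [h1, h2]
  rw [e4] at hcol
  have e5 : 0 ≤ ∑ t ∈ T, ((bad t col).card : ℝ) := Finset.sum_nonneg fun _ _ => Nat.cast_nonneg _
  refine ⟨T, univ.filter fun s => col s = c1, fun t ht => by simp [(Finset.mem_filter.mp ht).2.2],
    ?_, ?_⟩
  · rw [div_le_iff₀ (by positivity)] at hcol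
    have : (Fintype.card τ : ℝ) * r ≤ (2 * Q ^ 2 * T.card) * r := by
      nlinarith [mul_nonneg e5 (show (0 : ℝ) ≤ 2 * Q ^ 2 by positivity)]
    exact_mod_cast le_of_mul_le_mul_right this hr0
  · have e6 : ∑ t ∈ T, (bad t col).card ≤ r * T.card := by
      have : (0 : ℝ) ≤ Fintype.card τ * r / (2 * Q ^ 2) := by positivity
      have h : ∑ t ∈ T, ((bad t col).card : ℝ) ≤ r * T.card := by linarith
      exact_mod_cast h
    have e7 : ∑ t ∈ T, (J t \ bad t col).card
        ≤ (T.biUnion J \ (univ.filter fun s => col s = c1).biUnion J).card := by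
      rw [← Finset.card_biUnion]
      · refine Finset.card_le_card fun j hj => ?_
        obtain ⟨t, ht, hj⟩ := Finset.mem_biUnion.mp hj
        obtain ⟨hj1, hj2⟩ := Finset.mem_sdiff.mp hj
        refine Finset.mem_sdiff.mpr ⟨Finset.mem_biUnion.mpr ⟨t, ht, hj1⟩, fun h => hj2 ?_⟩
        obtain ⟨s, hs, hj3⟩ := Finset.mem_biUnion.mp h
        have hs1 := (Finset.mem_filter.mp hs).2
        refine Finset.mem_filter.mpr ⟨hj1, s, ?_, hj3, Or.inr hs1⟩
        rintro rfl
        exact c01 ((Finset.mem_filter.mp ht).2.1.symm.trans hs1)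
      · intro t ht s hs hts
        refine Finset.disjoint_left.mpr fun j hj1 hj2 => (Finset.mem_sdiff.mp hj1).2 ?_
        exact Finset.mem_filter.mpr ⟨(Finset.mem_sdiff.mp hj1).1, s, Ne.symm hts,
          (Finset.mem_sdiff.mp hj2).1, Or.inl (Finset.mem_filter.mp hs).2.1⟩
    have e8 : ∑ t ∈ T, (J t \ bad t col).card + ∑ t ∈ T, (bad t col).card = D * T.card := by
      rw [← Finset.sum_add_distrib, mul_comm, ← smul_eq_mul, ← Finset.sum_const]
      refine Finset.sum_congr rfl fun t _ => ?_
      rw [Finset.card_sdiff_add_card_eq_card (Finset.filter_subset _ _), hJ]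
    rw [Nat.sub_mul]
    omega

end Vale.Agent.P162
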