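import Vale.Agent.P162.Spec

/-! Convolution algebra of a finite group, laws of random elements, Hausdorff-Young. -/

set_option linter.unusedSectionVars false

namespace Vale.Agent.P162

open Finset Matrix Complex

variable {G H : Type} [Group G] [Fintype G] [DecidableEq G] [Group H] [Fintype H] [DecidableEq H]

noncomputable def conv (a b : G → ℂ) (g : G) : ℂ := ∑ h, a h * b (h⁻¹ * g)

noncomputable def cst (a : G → ℂ) (g : G) : ℂ := star (a g⁻¹)

def mat (a : G → ℂ) : Matrix G G ℂ := Matrix.of fun g h => a (g * h⁻¹)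

lemma mat_conv (a b : G → ℂ) : mat (conv a b) = mat a * mat b := by
  ext g h
  simp only [mat, conv, Matrix.mul_apply, Matrix.of_apply]
  rw [← Equiv.sum_comp ((Equiv.inv G).trans (Equiv.mulLeft g))]
  refine Finset.sum_congr rfl fun y _ => ?_
  simp [mul_assoc]

lemma mat_cst (a : G → ℂ) : mat (cst a) = (mat a)ᴴ := by
  ext g h; simp [mat, cst, conjTranspose_apply]

lemma trace_mat (a : G → ℂ) : (mat a).trace = Fintype.card G * a 1 := by
  simp [Matrix.trace, mat]

lemma mat_inj {a b : G → ℂ} (h : mat a = mat b) : a = b := by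
  funext g
  have := congrFun (congrFun h g) 1
  simpa [mat] using this

lemma mat_mulVec (a v : G → ℂ) : mat a *ᵥ v = conv a v := by
  funext g
  simp only [mat, conv, mulVec, dotProduct, Matrix.of_apply]
  symm
  rw [← Equiv.sum_comp ((Equiv.inv G).trans (Equiv.mulLeft g))]
  refine Finset.sum_congr rfl fun y _ => ?_
  simp [mul_assoc]

lemma conv_assoc (a b c : G → ℂ) : conv (conv a b) c = conv a (conv b c) :=
  mat_inj (by simp only [mat_conv, Matrix.mul_assoc])

noncomputable def push (ι : H →* G) (a : H → ℂ) (g : G) : ℂ := ∑ r, if ι r = g then a r else 0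

lemma sum_push (ι : H →* G) (a : H → ℂ) (Φ : G → ℂ) :
    ∑ g, push ι a g * Φ g = ∑ r, a r * Φ (ι r) := by
  unfold push
  simp_rw [Finset.sum_mul]
  rw [Finset.sum_comm]
  refine Finset.sum_congr rfl fun r _ => ?_
  simp

lemma push_conv (ι : H →* G) (a b : H → ℂ) : push ι (conv a b) = conv (push ι a) (push ι b) := by
  funext g
  unfold conv
  rw [sum_push]
  unfold push
  simp_rw [Finset.mul_sum]
  have : ∀ r, (if ι r = g then ∑ h, a h * b (h⁻¹ * r) else 0)
      = ∑ h, if ι r = g then a h * b (h⁻¹ * r) else 0 := by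
    intro r; split_ifs <;> simp
  simp_rw [this]
  rw [Finset.sum_comm]
  refine Finset.sum_congr rfl fun h _ => ?_
  rw [← Equiv.sum_comp (Equiv.mulLeft h)]
  refine Finset.sum_congr rfl fun r _ => ?_
  simp [eq_inv_mul_iff_mul_eq]

lemma push_cst (ι : H →* G) (a : H → ℂ) : push ι (cst a) = cst (push ι a) := by
  funext g
  unfold push cst
  rw [star_sum, ← Equiv.sum_comp (Equiv.inv H)]
  refine Finset.sum_congr rfl fun r _ => ?_
  simp only [Equiv.inv_apply, map_inv, inv_inv, inv_eq_iff_eq_inv]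
  split_ifs <;> simp

noncomputable def tens (β : Type) [Fintype β] (a : H → ℂ) (r : β → H) : ℂ := ∏ b, a (r b)

variable {β : Type} [Fintype β] [DecidableEq β]

lemma tens_conv (a b : H → ℂ) : tens β (conv a b) = conv (tens β a) (tens β b) := by
  funext r
  unfold tens conv
  rw [Finset.prod_univ_sum, Fintype.piFinset_univ]
  refine Finset.sum_congr rfl fun h _ => ?_
  rw [← Finset.prod_mul_distrib]; rfl

lemma tens_cst (a : H → ℂ) : tens β (cst a) = cst (tens β a) := by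
  funext r
  unfold tens cst
  rw [star_prod]; rfl

/-- kernel of a complex power -/
noncomputable def pw (a : G → ℂ) (z : ℂ) (g : G) : ℂ := spw (mat a) z g 1

lemma mat_pw {a : G → ℂ} (ha : (mat a).IsHermitian) (z : ℂ) : mat (pw a z) = spw (mat a) z := by
  ext g h
  set T : Matrix G G ℂ := Matrix.of fun x y => if x = y * h then 1 else 0 with hT
  have e : mat a * T = T * mat a := by
    ext x y
    simp only [Matrix.mul_apply, hT, Matrix.of_apply, mat, mul_ite, mul_one, mul_zero, Finset.sum_ite_eq',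
      Finset.mem_univ, if_true, ite_mul, one_mul, zero_mul]
    rw [Finset.sum_eq_single (x * h⁻¹)]
    · simp [mul_assoc]
    · intro w _ hw
      rw [if_neg]
      intro h2; apply hw; rw [h2]; simp
    · simp
  have := congrFun (congrFun (fc_intertwine ha ha T e (fun x => cp x z)) g) 1
  simp only [Matrix.mul_apply, hT, Matrix.of_apply, mul_ite, mul_one, mul_zero, Finset.sum_ite_eq',
      Finset.mem_univ, if_true, ite_mul, one_mul, zero_mul] at this
  rw [Finset.sum_eq_single (g * h⁻¹)] at this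
  · simp only [inv_mul_cancel_right, if_true] at this
    simp only [mat, pw, spw, Matrix.of_apply]
    exact this.symm
  · intro w _ hw
    rw [if_neg]
    intro h2; apply hw; rw [h2]; simp
  · simp

lemma semi_lift {a : H → ℂ} (ha : (mat a).IsHermitian) (ι : (β → H) →* G) :
    Semi (fun z => mat (push ι (tens β (pw a z)))) := by
  refine ⟨fun z w => ?_, fun z => ?_, fun i j => ?_⟩
  · rw [← mat_conv, ← push_conv, ← tens_conv]
    congr 3
    apply mat_inj
    rw [mat_conv, mat_pw ha, mat_pw ha, mat_pw ha, spw_mul]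
  · rw [← mat_cst, ← push_cst, ← tens_cst]
    congr 3
    apply mat_inj
    rw [mat_cst, mat_pw ha, mat_pw ha, spw_star]
  · simp only [mat, push, tens, pw, Matrix.of_apply]
    refine Good.sum _ fun r _ => ?_
    split_ifs
    · exact Good.prod _ fun b _ => good_spw _ _ _
    · exact Good.const _

lemma pw_one {a : G → ℂ} (ha : (mat a).IsHermitian) (h0 : ∀ i, 0 ≤ ev (mat a) i) :
    pw a 1 = a := mat_inj (by rw [mat_pw ha, spw_one ha h0])

lemma spw_diag {a : G → ℂ} (ha : (mat a).IsHermitian) (k : ℝ) (g : G) :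
    (Fintype.card G : ℝ) * ∑ γ, rp (ev (mat a) γ) k * ‖eU (mat a) g γ‖ ^ 2 = trp (mat a) k := by
  have e1 : spw (mat a) k g g = pw a k 1 := by rw [← mat_pw ha]; simp [mat]
  have e2 := trace_spw (mat a) k
  rw [← mat_pw ha, trace_mat, ← e1, spw_apply] at e2
  have e3 : ∑ γ, eU (mat a) g γ * cp (ev (mat a) γ) k * star (eU (mat a) g γ)
      = ((∑ γ, rp (ev (mat a) γ) k * ‖eU (mat a) g γ‖ ^ 2 : ℝ) : ℂ) := by
    push_cast
    refine Finset.sum_congr rfl fun γ _ => ?_
    rw [cp_ofReal, ← Complex.mul_conj', Complex.star_def]; ring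
  rw [e3] at e2
  exact_mod_cast e2

lemma pw_sup {a : G → ℂ} (ha : (mat a).IsHermitian) (z : ℂ) (g : G) :
    (Fintype.card G : ℝ) * ‖pw a z g‖ ≤ trp (mat a) z.re := by
  have h1 := spw_diag ha z.re g
  have h2 := spw_diag ha z.re 1
  have : ‖pw a z g‖ ≤ (∑ γ, rp (ev (mat a) γ) z.re * ‖eU (mat a) g γ‖ ^ 2
      + ∑ γ, rp (ev (mat a) γ) z.re * ‖eU (mat a) 1 γ‖ ^ 2) / 2 := by
    unfold pw
    rw [spw_apply, ← Finset.sum_add_distrib, Finset.sum_div]
    refine (norm_sum_le _ _).trans (Finset.sum_le_sum fun γ _ => ?_)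
    rw [norm_mul, norm_mul, norm_cp, norm_star]
    have := rp_nonneg (ev (mat a) γ) z.re
    nlinarith [mul_nonneg this (sq_nonneg (‖eU (mat a) g γ‖ - ‖eU (mat a) 1 γ‖))]
  have hc : (0 : ℝ) ≤ Fintype.card G := Nat.cast_nonneg _
  nlinarith [mul_le_mul_of_nonneg_left this hc]

lemma pw_two {a : G → ℂ} (ha : (mat a).IsHermitian) (z : ℂ) :
    (Fintype.card G : ℝ) * ∑ g, ‖pw a z g‖ ^ 2 = trp (mat a) (2 * z.re) := by
  have e1 : ((spw (mat a) z)ᴴ * spw (mat a) z) 1 1 = ((∑ g, ‖pw a z g‖ ^ 2 : ℝ) : ℂ) := by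
    rw [Matrix.mul_apply]
    push_cast
    refine Finset.sum_congr rfl fun g _ => ?_
    rw [conjTranspose_apply, Complex.star_def, Complex.conj_mul']; rfl
  have e0 : star z + z = ((2 * z.re : ℝ) : ℂ) := by
    apply Complex.ext <;> simp; ring
  rw [spw_star, spw_mul, e0] at e1
  have e2 := trace_spw (mat a) (2 * z.re)
  rw [← mat_pw ha, trace_mat] at e2
  unfold pw at e2
  rw [e1] at e2
  exact_mod_cast e2

/-- Hausdorff-Young inequality for the kernels of powers. -/
theorem hy {a : G → ℂ} (ha : (mat a).IsHermitian) {k θ N : ℝ} (h0 : 0 < θ) (h1 : θ ≤ 1)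
    (hN1 : 1 ≤ N) (hN : trp (mat a) k ≤ N) :
    ((∑ g, ((Fintype.card G * ‖pw a ((k * (1 - θ / 2) : ℝ) : ℂ) g‖) ^ 2) ^ (1 / θ))
      / Fintype.card G) ^ θ ≤ N ^ 2 := by
  have hc : (0 : ℝ) < Fintype.card G := by exact_mod_cast Fintype.card_pos
  set φ : G → ℂ := fun g => (Fintype.card G : ℝ) * pw a ((k * (1 - θ / 2) : ℝ) : ℂ) g with hφ
  set c : G → ℝ := fun g => ‖φ g‖ with hcdef
  have hc0 : ∀ g, 0 ≤ c g := fun g => norm_nonneg _
  set P := 2 / θ with hP
  have hP0 : 0 < P := by positivity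
  set S := (∑ g, rp (c g) P) / Fintype.card G with hS
  have hS0 : 0 ≤ S := div_nonneg (Finset.sum_nonneg fun g _ => rp_nonneg _ _) hc.le
  have hSeq : (∑ g, ((Fintype.card G * ‖pw a ((k * (1 - θ / 2) : ℝ) : ℂ) g‖) ^ 2) ^ (1 / θ))
      / Fintype.card G = S := by
    rw [hS]; congr 1
    refine Finset.sum_congr rfl fun g _ => ?_
    have : (Fintype.card G : ℝ) * ‖pw a ((k * (1 - θ / 2) : ℝ) : ℂ) g‖ = c g := by
      simp [hcdef, hφ]
    rw [this, rp_eq_rpow (hc0 g) hP0.ne', ← Real.rpow_natCast, ← Real.rpow_mul (hc0 g), hP]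
    congr 1; push_cast; ring
  rw [hSeq]
  set F : ℂ → ℂ := fun z => ∑ g, pw a ((k : ℝ) + (-k / 2 : ℝ) * z) g
    * (star (φ g) * ((c g)⁻¹ : ℝ) * cp (c g) ((P : ℝ) + (-P / 2 : ℝ) * z)) with hF
  have gF : Good F := Good.sum _ fun g _ => ((good_spw _ _ _).affine _ _).mul
    ((Good.const _).mul ((good_cp _).affine _ _))
  have hsgn : ∀ g, ‖star (φ g) * ((c g)⁻¹ : ℝ)‖ ≤ 1 := by
    intro g
    rw [norm_mul, norm_star, Complex.norm_real, Real.norm_of_nonneg (inv_nonneg.mpr (hc0 g))]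
    exact mul_inv_le_one
  have hFb : ∀ z, ‖F z‖ ≤ ∑ g, ‖pw a ((k : ℝ) + (-k / 2 : ℝ) * z) g‖
      * rp (c g) (P - P / 2 * z.re) := by
    intro z
    refine (norm_sum_le _ _).trans (Finset.sum_le_sum fun g _ => ?_)
    rw [norm_mul, norm_mul, norm_cp]
    refine mul_le_mul_of_nonneg_left ?_ (norm_nonneg _)
    have : ((P : ℝ) + (-P / 2 : ℝ) * z : ℂ).re = P - P / 2 * z.re := by simp; ring
    rw [this]
    exact mul_le_of_le_one_left (rp_nonneg _ _) (hsgn g)
  have b0 : ∀ z : ℂ, z.re = 0 → ‖F z‖ ≤ N * S := by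
    intro z hz
    refine (hFb z).trans ?_
    rw [hS, mul_div_assoc', Finset.mul_sum, Finset.sum_div]
    refine Finset.sum_le_sum fun g _ => ?_
    have := pw_sup ha ((k : ℝ) + (-k / 2 : ℝ) * z) g
    have e : ((k : ℝ) + (-k / 2 : ℝ) * z : ℂ).re = k := by simp [hz]
    rw [e] at this
    rw [hz, mul_zero, sub_zero, le_div_iff₀ hc]
    nlinarith [rp_nonneg (c g) P, mul_le_mul_of_nonneg_right (this.trans hN) (rp_nonneg (c g) P)]
  have hNS : 0 ≤ N * S := mul_nonneg (by linarith) hS0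
  have b1 : ∀ z : ℂ, z.re = 1 → ‖F z‖ ≤ (N * S) ^ (1 / 2 : ℝ) := by
    intro z hz
    refine (hFb z).trans ?_
    rw [← Real.sqrt_eq_rpow]
    apply Real.le_sqrt_of_sq_le
    refine (Finset.sum_mul_sq_le_sq_mul_sq _ _ _).trans ?_
    have := pw_two ha ((k : ℝ) + (-k / 2 : ℝ) * z)
    have e : 2 * ((k : ℝ) + (-k / 2 : ℝ) * z : ℂ).re = k := by simp [hz]; ring
    rw [e] at this
    have e2 : ∑ g, rp (c g) (P - P / 2 * z.re) ^ 2 = S * Fintype.card G := by
      rw [hS, div_mul_cancel₀ _ hc.ne']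
      refine Finset.sum_congr rfl fun g _ => ?_
      rw [sq, ← rp_add, hz]; congr 1; ring
    rw [e2]
    nlinarith [mul_le_mul_of_nonneg_right (this.le.trans hN) hS0]
  have key := gF.three_lines h0.le h1 b0 b1
  have hFt : F (θ : ℂ) = (S : ℝ) := by
    have e1 : ((k : ℝ) : ℂ) + (-k / 2 : ℝ) * (θ : ℂ) = ((k * (1 - θ / 2) : ℝ) : ℂ) := by
      push_cast; ring
    have e2 : ((P : ℝ) : ℂ) + (-P / 2 : ℝ) * (θ : ℂ) = ((P - 1 : ℝ) : ℂ) := by
      have : (θ : ℂ) ≠ 0 := by exact_mod_cast h0.ne'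
      rw [hP]; push_cast; field_simp; ring
    simp only [hF, e1, e2]
    rw [hS, Finset.sum_div, Complex.ofReal_sum]
    refine Finset.sum_congr rfl fun g _ => ?_
    have e3 : pw a ((k * (1 - θ / 2) : ℝ) : ℂ) g = φ g / (Fintype.card G : ℝ) := by
      have : ((Fintype.card G : ℝ) : ℂ) ≠ 0 := by exact_mod_cast hc.ne'
      rw [hφ]; field_simp
    rw [e3, cp_ofReal]
    have e4 : φ g * star (φ g) = ((c g ^ 2 : ℝ) : ℂ) := by
      rw [Complex.star_def, Complex.mul_conj']; simp [hcdef]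
    have e5 : c g ^ 2 * (c g)⁻¹ * rp (c g) (P - 1) = rp (c g) P := by
      have : c g ^ 2 * (c g)⁻¹ = rp (c g) 1 := by
        rw [rp_one (hc0 g)]
        by_cases h : c g = 0
        · simp [h]
        · field_simp
      rw [this, ← rp_add]; congr 1; ring
    rw [← e5]
    calc _ = (φ g * star (φ g)) * (((c g)⁻¹ : ℝ) : ℂ) * ((rp (c g) (P - 1) : ℝ) : ℂ)
          / (Fintype.card G : ℝ) := by ring
      _ = _ := by rw [e4]; push_cast; ring
  rw [hFt, Complex.norm_real, Real.norm_of_nonneg hS0, ← Real.rpow_mul hNS] at key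
  rcases hS0.eq_or_lt with h | hSp
  · rw [← h, Real.zero_rpow h0.ne']; positivity
  have hN0 : 0 < N := by linarith
  rw [← Real.rpow_add (mul_pos hN0 hSp), Real.mul_rpow hN0.le hS0] at key
  have e6 : S = S ^ (θ / 2) * S ^ (1 - θ + 1 / 2 * θ) := by
    rw [← Real.rpow_add hSp]
    have : θ / 2 + (1 - θ + 1 / 2 * θ) = 1 := by ring
    rw [this, Real.rpow_one]
  nth_rewrite 1 [e6] at key
  have e7 := le_of_mul_le_mul_right key (Real.rpow_pos_of_pos hSp _)
  have e8 : N ^ (1 - θ + 1 / 2 * θ) ≤ N := by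
    have := Real.rpow_le_rpow_of_exponent_le hN1 (show 1 - θ + 1 / 2 * θ ≤ 1 by linarith)
    rwa [Real.rpow_one] at this
  have e9 : S ^ θ = (S ^ (θ / 2)) ^ 2 := by
    rw [← Real.rpow_natCast, ← Real.rpow_mul hS0]; congr 1; push_cast; ring
  rw [e9]
  exact pow_le_pow_left₀ (Real.rpow_nonneg hS0 _) (e7.trans e8) 2

/-- law of a random element -/
noncomputable def law {Ω : Type} [Fintype Ω] (F : Ω → G) (g : G) : ℂ :=
  (∑ ω, if F ω = g then 1 else 0) / Fintype.card Ω

variable {Ω Ω' : Type} [Fintype Ω] [Fintype Ω']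

lemma sum_law (F : Ω → G) (Φ : G → ℂ) :
    ∑ g, law F g * Φ g = (∑ ω, Φ (F ω)) / Fintype.card Ω := by
  unfold law
  simp_rw [div_mul_eq_mul_div, Finset.sum_mul]
  rw [← Finset.sum_div, Finset.sum_comm]
  congr 1
  refine Finset.sum_congr rfl fun ω _ => ?_
  simp

lemma conv_law (F : Ω → G) (v : G → ℂ) (g : G) :
    conv (law F) v g = (∑ ω, v ((F ω)⁻¹ * g)) / Fintype.card Ω :=
  sum_law F (fun h => v (h⁻¹ * g))

lemma law_mul (F : Ω → G) (F' : Ω' → G) :
    conv (law F) (law F') = law (fun p : Ω × Ω' => F p.1 * F' p.2) := by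
  funext g
  rw [conv_law]
  unfold law
  rw [← Finset.sum_div, div_div, Fintype.sum_prod_type, Fintype.card_prod]
  push_cast
  rw [mul_comm]
  congr 1
  refine Finset.sum_congr rfl fun ω _ => Finset.sum_congr rfl fun ω' _ => ?_
  simp [eq_inv_mul_iff_mul_eq]

lemma law_equiv (e : Ω ≃ Ω') (F : Ω' → G) : law (fun ω => F (e ω)) = law F := by
  funext g
  unfold law
  rw [Fintype.card_congr e, Equiv.sum_comp e (fun ω => if F ω = g then (1 : ℂ) else 0)]

lemma cst_law (F : Ω → G) : cst (law F) = law (fun ω => (F ω)⁻¹) := by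
  funext g
  unfold cst law
  simp [inv_eq_iff_eq_inv, apply_ite]

lemma push_law (ι : H →* G) (F : Ω → H) : push ι (law F) = law (fun ω => ι (F ω)) := by
  funext g
  have := sum_law F (fun r => if ι r = g then 1 else 0)
  simp only [mul_ite, mul_one, mul_zero] at this
  exact this

lemma tens_law [DecidableEq Ω] (F : Ω → H) :
    tens β (law F) = law (fun (ω : β → Ω) b => F (ω b)) := by
  funext r
  unfold tens law
  rw [Finset.prod_div_distrib, Finset.prod_univ_sum, Fintype.piFinset_univ, Finset.prod_const,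
    Finset.card_univ, Fintype.card_fun]
  push_cast
  congr 1
  refine Finset.sum_congr rfl fun ω _ => ?_
  rw [Finset.prod_ite_zero]
  simp [funext_iff]

lemma fro {n : Type} [Fintype n] [DecidableEq n] (M N : Matrix n n ℂ) :
    ‖(Mᴴ * N).trace‖ ^ 2 ≤ ‖(Mᴴ * M).trace‖ * ‖(Nᴴ * N).trace‖ := by
  have q : ∀ M N : Matrix n n ℂ, (Mᴴ * N).trace
      = star (fun p : n × n => M p.2 p.1) ⬝ᵥ (fun p : n × n => N p.2 p.1) := by
    intro M N
    simp [Matrix.trace, dotProduct, Matrix.mul_apply, Fintype.sum_prod_type]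
  rw [q, q, q, dot_self, dot_self, Complex.norm_real, Complex.norm_real,
    Real.norm_of_nonneg (nsq_nonneg _), Real.norm_of_nonneg (nsq_nonneg _)]
  exact dot_cs _ _

/-- Schatten-Hoelder for squares -/
lemma trp_sq {n : Type} [Fintype n] [DecidableEq n] (X : Matrix n n ℂ) {k : ℝ} (hk : 2 ≤ k) :
    trp ((X * X) * (X * X)ᴴ) k ≤ trp (X * Xᴴ) (2 * k) := by
  have hb := isHermitian_mul_conjTranspose_self X
  have ha := isHermitian_conjTranspose_mul_self X
  set b := spw (X * Xᴴ) with hbdef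
  set a := spw (Xᴴ * X) with hadef
  have sb : Semi b := semi_spw _
  have sa : Semi a := semi_spw _
  have b1 : b 1 = X * Xᴴ := spw_one hb (ev_nonneg' X)
  have a1 : a 1 = Xᴴ * X := spw_one ha (ev_nonneg X)
  have hh : star (1 / 2 : ℂ) = 1 / 2 := by simp
  have e1 : (X * X) * (X * X)ᴴ = (X * b (1 / 2)) * (X * b (1 / 2))ᴴ := by
    rw [conjTranspose_mul, conjTranspose_mul, sb.star, hh, Matrix.mul_assoc X (b _),
      ← Matrix.mul_assoc (b _), sb.mul]
    norm_num [b1, Matrix.mul_assoc]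
  have e2 : (X * b (1 / 2))ᴴ * (X * b (1 / 2)) = b (1 / 2) * a 1 * b (1 / 2) := by
    rw [conjTranspose_mul, sb.star, hh, a1]; simp only [Matrix.mul_assoc]
  rw [e1, trp_comm, e2]
  refine (alt sa sb hk).trans ?_
  have hs : star ((k / 2 : ℝ) : ℂ) = ((k / 2 : ℝ) : ℂ) := Complex.conj_ofReal _
  have hx : (a (k / 2 : ℝ))ᴴ = a (k / 2 : ℝ) := by rw [sa.star, hs]
  have hy : (b (k / 2 : ℝ))ᴴ = b (k / 2 : ℝ) := by rw [sb.star, hs]
  set x := a (k / 2 : ℝ)
  set y := b (k / 2 : ℝ)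
  have f1 := fro (y * x) (x * y)
  have f2 := fro (x * x) (y * y)
  simp only [conjTranspose_mul, hx, hy] at f1 f2
  have t1 : (x * y * (y * x)).trace = (x * x * (y * y)).trace := by
    rw [← Matrix.mul_assoc, Matrix.trace_mul_comm]; simp only [Matrix.mul_assoc]
  have t2 : (y * x * (x * y)).trace = (x * x * (y * y)).trace := by
    rw [Matrix.mul_assoc, Matrix.trace_mul_comm]; simp only [Matrix.mul_assoc]
  have t3 : (x * x * (x * x)).trace = (trp (X * Xᴴ) (2 * k) : ℝ) := by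
    rw [sa.mul, sa.mul, trp_comm, ← trace_spw]; congr 2; push_cast; ring
  have t4 : (y * y * (y * y)).trace = (trp (X * Xᴴ) (2 * k) : ℝ) := by
    rw [sb.mul, sb.mul, ← trace_spw]; congr 2; push_cast; ring
  rw [t1, t2, ← Matrix.mul_assoc] at f1
  rw [t3, t4, Complex.norm_real, Real.norm_of_nonneg (trp_nonneg _ _)] at f2
  refine le_of_pow_le_pow_left₀ two_ne_zero (trp_nonneg _ _) ?_
  rw [sq (trp _ _)]
  exact f1.trans (by rw [← sq]; exact f2)

lemma trp_one {n : Type} [Fintype n] [DecidableEq n] (X : Matrix n n ℂ) :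
    ((trp (X * Xᴴ) 1 : ℝ) : ℂ) = (X * Xᴴ).trace := by
  rw [← trace_spw]
  have := spw_one (isHermitian_mul_conjTranspose_self X) (ev_nonneg' X)
  push_cast
  rw [this]

lemma trp_sq_one {n : Type} [Fintype n] [DecidableEq n] (X : Matrix n n ℂ) :
    trp ((X * X) * (X * X)ᴴ) 1 ≤ trp (X * Xᴴ) 2 := by
  have hb := isHermitian_mul_conjTranspose_self X
  have ha := isHermitian_conjTranspose_mul_self X
  have f := fro (Xᴴ * X) (X * Xᴴ)
  rw [ha.eq, hb.eq] at f
  have t1 : (Xᴴ * X * (X * Xᴴ)).trace = (trp ((X * X) * (X * X)ᴴ) 1 : ℝ) := by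
    rw [trp_one, conjTranspose_mul, Matrix.mul_assoc, Matrix.trace_mul_comm]
    simp only [Matrix.mul_assoc]
  have t2 : (Xᴴ * X * (Xᴴ * X)).trace = (trp (X * Xᴴ) 2 : ℝ) := by
    rw [trp_comm, ← trace_spw]
    conv_lhs => rw [← spw_one ha (ev_nonneg X), spw_mul]
    norm_num
  have t3 : (X * Xᴴ * (X * Xᴴ)).trace = (trp (X * Xᴴ) 2 : ℝ) := by
    rw [← trace_spw]
    conv_lhs => rw [← spw_one hb (ev_nonneg' X), spw_mul]
    norm_num
  rw [t1, t2, t3, Complex.norm_real, Complex.norm_real, Real.norm_of_nonneg (trp_nonneg _ _),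
    Real.norm_of_nonneg (trp_nonneg _ _)] at f
  refine le_of_pow_le_pow_left₀ two_ne_zero (trp_nonneg _ _) ?_
  rw [sq (trp (X * Xᴴ) 2)]
  exact f

/-- Schatten-Hoelder for dyadic powers -/
lemma trp_pow {n : Type} [Fintype n] [DecidableEq n] (j : ℕ) (X : Matrix n n ℂ) :
    trp (X ^ (2 ^ j) * (X ^ (2 ^ j))ᴴ) 1 ≤ trp (X * Xᴴ) (2 ^ j) := by
  have key : ∀ (j : ℕ) (X : Matrix n n ℂ) (k : ℝ), 2 ≤ k →
      trp (X ^ (2 ^ j) * (X ^ (2 ^ j))ᴴ) k ≤ trp (X * Xᴴ) (2 ^ j * k) := by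
    intro j
    induction j with
    | zero => intro X k _; simp
    | succ j ih =>
      intro X k hk
      have e : X ^ (2 ^ (j + 1)) = X ^ (2 ^ j) * X ^ (2 ^ j) := by rw [← pow_add]; congr 1; ring
      rw [e]
      refine (trp_sq _ hk).trans ((ih X (2 * k) (by linarith)).trans (le_of_eq ?_))
      congr 1; ring
  cases j with
  | zero => simp
  | succ j =>
    have e : X ^ (2 ^ (j + 1)) = X ^ (2 ^ j) * X ^ (2 ^ j) := by rw [← pow_add]; congr 1; ring
    rw [e]
    refine (trp_sq_one _).trans ((key j X 2 le_rfl).trans (le_of_eq ?_))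
    rw [pow_succ]

end Vale.Agent.P162
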