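import Vale.Agent.P162.Grid

/-! The butterfly network on the hypercube. -/

set_option linter.unusedSectionVars false

namespace Vale.Agent.P162

open Finset Matrix

abbrev Pos (d : ℕ) := Fin d → Bool

abbrev Coins (d : ℕ) := Fin d → Pos d → Bool

variable {d : ℕ}

def layF (l : Fin d) (c : Pos d → Bool) (x : Pos d) : Pos d :=
  Function.update x l (xor (x l) (c (Function.update x l false)))

lemma layF_invol (l : Fin d) (c : Pos d → Bool) : Function.Involutive (layF l c) := by
  intro x; simp [layF]

def lay (l : Fin d) (c : Pos d → Bool) : Equiv.Perm (Pos d) := (layF_invol l c).toPerm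

def bf (ω : Coins d) : ℕ → Equiv.Perm (Pos d)
  | 0 => 1
  | k + 1 => (if h : k < d then lay ⟨k, h⟩ (ω ⟨k, h⟩) else 1) * bf ω k

def bfly (ω : Coins d) : Equiv.Perm (Pos d) := bf ω d

def sw (x y : Pos d) (l : Fin d) : Pos d :=
  fun j => if j < l then y j else if j = l then false else x j

lemma bf_iff (ω : Coins d) (x : Pos d) (k : ℕ) (hk : k ≤ d) (y : Pos d) :
    bf ω k x = y ↔ (∀ l : Fin d, l.val < k → ω l (sw x y l) = xor (x l) (y l))
      ∧ ∀ l : Fin d, k ≤ l.val → y l = x l := by
  induction k generalizing y with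
  | zero => simp [bf, funext_iff, eq_comm]
  | succ k ih =>
    have hkd : k < d := hk
    set l : Fin d := ⟨k, hkd⟩ with hl
    have e1 : bf ω (k + 1) x = y ↔ bf ω k x = layF l (ω l) y := by
      simp only [bf, dif_pos hkd, Equiv.Perm.mul_apply, lay, Function.Involutive.coe_toPerm]
      exact (layF_invol l (ω l)).eq_iff
    have e2 : ∀ j : Fin d, j ≠ l → layF l (ω l) y j = y j := fun j hj => by simp [layF, hj]
    have e3 : ∀ j : Fin d, j.val ≤ k → sw x (layF l (ω l) y) j = sw x y j := by
      intro j hj
      funext i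
      simp only [sw]
      split_ifs with h
      · exact e2 i (by intro h2; rw [h2] at h; exact absurd h (not_lt.mpr hj))
      · rfl
      · rfl
    have e4 : (∀ j : Fin d, k + 1 ≤ j.val → y j = x j) →
        Function.update y l false = sw x y l := by
      intro h
      funext i
      simp only [sw]
      split_ifs with h1 h2
      · exact Function.update_of_ne h1.ne _ _
      · rw [h2]; simp
      · rw [Function.update_of_ne h2]
        exact h i (lt_of_le_of_ne (not_lt.mp h1) (Ne.symm h2))
    rw [e1, ih hkd.le]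
    constructor
    · rintro ⟨h1, h2⟩
      have h3 : ∀ j : Fin d, k + 1 ≤ j.val → y j = x j := fun j hj => by
        rw [← h2 j (by omega), e2 j (by rintro rfl; simp [hl] at hj)]
      refine ⟨fun j hj => ?_, h3⟩
      by_cases hjl : j = l
      · have := h2 l le_rfl
        simp only [layF, Function.update_self, e4 h3] at this
        rw [hjl, ← this]; simp [Bool.xor_comm]
      · have : j.val < k := lt_of_le_of_ne (by omega) fun h => hjl (Fin.ext h)
        rw [← e3 j this.le, h1 j this, e2 j hjl]
    · rintro ⟨h1, h2⟩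
      refine ⟨fun j hj => ?_, fun j hj => ?_⟩
      · rw [e3 j hj.le, h1 j (by omega), e2 j (by rintro rfl; simp [hl] at hj)]
      · by_cases hjl : j = l
        · rw [hjl]
          simp only [layF, Function.update_self, e4 h2, h1 l (by simp [hl])]
          cases x l <;> cases y l <;> rfl
        · rw [e2 j hjl]
          exact h2 j (lt_of_le_of_ne hj fun h => hjl (Fin.ext h.symm))

lemma bfly_iff (ω : Coins d) (x y : Pos d) :
    bfly ω x = y ↔ ∀ l : Fin d, ω l (sw x y l) = xor (x l) (y l) := by
  rw [bfly, bf_iff ω x d le_rfl]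
  exact ⟨fun h l => h.1 l l.2, fun h => ⟨fun l _ => h l, fun l hl => absurd l.2 (by omega)⟩⟩

noncomputable def KK (d : ℕ) : Equiv.Perm (Pos d) → ℂ := law (bfly (d := d))

def splitP (d1 d2 : ℕ) : Pos (d1 + d2) ≃ Pos d1 × Pos d2 := (Fin.appendEquiv d1 d2).symm

def splitC (d1 d2 : ℕ) : (Pos d1 → Coins d2) × (Pos d2 → Coins d1) ≃ Coins (d1 + d2) where
  toFun p := fun l x => Fin.addCases (motive := fun _ => Bool)
    (fun l1 => p.2 (splitP d1 d2 x).2 l1 (splitP d1 d2 x).1)
    (fun l2 => p.1 (splitP d1 d2 x).1 l2 (splitP d1 d2 x).2) l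
  invFun ω := (fun a l2 b => ω (Fin.natAdd d1 l2) ((splitP d1 d2).symm (a, b)),
    fun b l1 a => ω (Fin.castAdd d2 l1) ((splitP d1 d2).symm (a, b)))
  left_inv p := by simp
  right_inv ω := by
    funext l x
    induction l using Fin.addCases <;> simp

lemma sw_left {d1 d2 : ℕ} (a a' : Pos d1) (b b' : Pos d2) (l : Fin d1) :
    sw (Fin.append a b) (Fin.append a' b') (Fin.castAdd d2 l) = Fin.append (sw a a' l) b := by
  funext j
  induction j using Fin.addCases with
  | left j =>
    simp only [sw, Fin.lt_def, Fin.ext_iff, Fin.append_left, Fin.val_castAdd]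
  | right j =>
    have := l.2
    simp only [sw, Fin.lt_def, Fin.ext_iff, Fin.append_right, Fin.val_natAdd, Fin.val_castAdd]
    rw [if_neg (by omega), if_neg (by omega)]

lemma sw_right {d1 d2 : ℕ} (a a' : Pos d1) (b b' : Pos d2) (l : Fin d2) :
    sw (Fin.append a b) (Fin.append a' b') (Fin.natAdd d1 l) = Fin.append a' (sw b b' l) := by
  funext j
  induction j using Fin.addCases with
  | left j =>
    have := j.2
    simp only [sw, Fin.lt_def, Fin.ext_iff, Fin.append_left, Fin.val_natAdd, Fin.val_castAdd]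
    rw [if_pos (by omega)]
  | right j =>
    simp only [sw, Fin.lt_def, Fin.ext_iff, Fin.append_right, Fin.val_natAdd, Nat.add_lt_add_iff_left,
      Nat.add_left_cancel_iff]

lemma bfly_split (d1 d2 : ℕ) (p : (Pos d1 → Coins d2) × (Pos d2 → Coins d1)) :
    bfly (splitC d1 d2 p) = colH (splitP d1 d2) (fun a => bfly (p.1 a))
      * rowH (splitP d1 d2) (fun b => bfly (p.2 b)) := by
  refine Equiv.ext fun x => ?_
  obtain ⟨⟨a, b⟩, rfl⟩ := (splitP d1 d2).symm.surjective x
  rw [Equiv.Perm.mul_apply, rowH_apply, colH_apply, bfly_iff]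
  have s : ∀ a b, (splitP d1 d2).symm (a, b) = Fin.append a b := fun a b => rfl
  have s2 : ∀ a b, splitP d1 d2 (Fin.append a b) = (a, b) := fun a b =>
    (splitP d1 d2).apply_symm_apply (a, b)
  intro l
  rw [s, s]
  induction l using Fin.addCases with
  | left l =>
    rw [sw_left]
    simp only [splitC, Equiv.coe_fn_mk, Fin.addCases_left, s2, Fin.append_left]
    exact (bfly_iff _ _ _).mp rfl l
  | right l =>
    rw [sw_right]
    simp only [splitC, Equiv.coe_fn_mk, Fin.addCases_right, s2, Fin.append_right]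
    exact (bfly_iff _ _ _).mp rfl l

lemma KK_split (d1 d2 : ℕ) : KK (d1 + d2) = conv (push (colH (splitP d1 d2)) (tens (Pos d1) (KK d2)))
    (push (rowH (splitP d1 d2)) (tens (Pos d2) (KK d1))) := by
  unfold KK
  rw [tens_law, tens_law, push_law, push_law, law_mul, ← law_equiv (splitC d1 d2)]
  congr 1
  funext p
  exact bfly_split d1 d2 p

end Vale.Agent.P162
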