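import Mathlib

/-! The Thorp shuffle: definitions (positions are numbered from `0`). -/

namespace Vale.Agent.P162

open Finset

/-- `g` is the permutation of positions made by one Thorp shuffle with coins `c`: the cards in
positions `i` and `n/2 + i` go to positions `2i` and `2i+1`, in the order chosen by coin `i`. -/
def IsThorp (n : ℕ) (c : Fin (n / 2) → Bool) (g : Equiv.Perm (Fin n)) : Prop :=
  ∀ (i : Fin (n / 2)) (p : Fin n),
    (p.val = i.val → (g p).val = 2 * i.val + (if c i = true then 1 else 0)) ∧
    (p.val = n / 2 + i.val → (g p).val = 2 * i.val + (if c i = true then 0 else 1))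

open Classical in
/-- the law `q_n` of one Thorp shuffle: `n/2` independent fair coins -/
noncomputable def q (n : ℕ) (g : Equiv.Perm (Fin n)) : ℝ :=
  ((univ.filter fun c : Fin (n / 2) → Bool => IsThorp n c g).card : ℝ) / 2 ^ (n / 2)

/-- the convolution power `q_n^{*t}` -/
noncomputable def qpow (n : ℕ) : ℕ → Equiv.Perm (Fin n) → ℝ
  | 0 => fun g => if g = 1 then 1 else 0
  | t + 1 => fun g => ∑ h, q n h * qpow n t (h⁻¹ * g)

/-- total variation distance from the uniform law after `t` shuffles -/
noncomputable def tv (n t : ℕ) : ℝ :=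
  (1 / 2) * ∑ g : Equiv.Perm (Fin n), |qpow n t g - 1 / (n.factorial : ℝ)|

/-- the mixing time -/
noncomputable def tmix (n : ℕ) : ℕ := sInf {t | tv n t ≤ 1 / 4}

end Vale.Agent.P162
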