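import Vale.Agent.P162.Conv
import Vale.Agent.P162.BL

/-! The recursion step on a grid. -/

set_option linter.unusedSectionVars false

namespace Vale.Agent.P162

open Finset Matrix

variable {α β Γ : Type} [Fintype α] [DecidableEq α] [Fintype β] [DecidableEq β]
  [Fintype Γ] [DecidableEq Γ] {m : ℕ}

def rowH (φ : Γ ≃ α × β) : (β → Equiv.Perm α) →* Equiv.Perm Γ where
  toFun r := φ.symm.permCongr (Equiv.prodCongrLeft r)
  map_one' := by ext x; simp [Equiv.prodCongrLeft]
  map_mul' r s := by ext x; simp [Equiv.prodCongrLeft]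

def colH (φ : Γ ≃ α × β) : (α → Equiv.Perm β) →* Equiv.Perm Γ where
  toFun c := φ.symm.permCongr (Equiv.prodCongrRight c)
  map_one' := by ext x; simp [Equiv.prodCongrRight]
  map_mul' r s := by ext x; simp [Equiv.prodCongrRight]

lemma rowH_apply (φ : Γ ≃ α × β) (r : β → Equiv.Perm α) (a : α) (b : β) :
    rowH φ r (φ.symm (a, b)) = φ.symm (r b a, b) := by
  simp [rowH, Equiv.prodCongrLeft]

lemma colH_apply (φ : Γ ≃ α × β) (c : α → Equiv.Perm β) (a : α) (b : β) :
    colH φ c (φ.symm (a, b)) = φ.symm (a, c a b) := by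
  simp [colH, Equiv.prodCongrRight]

lemma rc_inj (φ : Γ ≃ α × β) : Function.Injective
    fun p : (α → Equiv.Perm β) × (β → Equiv.Perm α) => rowH φ p.2 * colH φ p.1 := by
  rintro ⟨c, r⟩ ⟨c', r'⟩ h
  have h1 : ∀ a s, r (c a s) a = r' (c' a s) a ∧ c a s = c' a s := by
    intro a s
    have := congrArg (fun g : Equiv.Perm Γ => g (φ.symm (a, s))) h
    simpa [rowH_apply, colH_apply] using this
  have hc : c = c' := funext fun a => Equiv.ext fun s => (h1 a s).2
  subst hc
  have hr : r = r' := funext fun b => Equiv.ext fun a => by simpa using (h1 a ((c a)⁻¹ b)).1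
  rw [hr]

lemma rc_lat (φ : Γ ≃ α × β) {c c' : α → Equiv.Perm β} {r r' : β → Equiv.Perm α}
    (h : rowH φ r' * colH φ c' = (rowH φ r * colH φ c)⁻¹) : Lat c r := by
  have h2 : rowH φ r * colH φ c = colH φ c'⁻¹ * rowH φ r'⁻¹ := by
    rw [map_inv, map_inv, ← _root_.mul_inv_rev, h, inv_inv]
  intro s a a' ha
  have h1 : ∀ a, r (c a s) a = r'⁻¹ s a := by
    intro a
    have := congrArg (fun g : Equiv.Perm Γ => g (φ.symm (a, s))) h2
    simp only [Equiv.Perm.mul_apply, rowH_apply, colH_apply, EmbeddingLike.apply_eq_iff_eq,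
      Prod.mk.injEq] at this
    exact this.1
  simp only [h1] at ha
  exact (r'⁻¹ s).injective ha

open Classical in
lemma trace_rc (φ : Γ ≃ α × β) (x : (α → Equiv.Perm β) → ℂ) (y : (β → Equiv.Perm α) → ℂ) :
    ‖(mat (push (colH φ) x) * mat (push (rowH φ) y) * mat (push (colH φ) x)
      * mat (push (rowH φ) y)).trace‖
      ≤ (Fintype.card Γ).factorial * ∑ c, ∑ r, if Lat c r then ‖x c‖ ^ 2 * ‖y r‖ ^ 2 else 0 := by
  set Z := conv (push (rowH φ) y) (push (colH φ) x) with hZ
  have e1 : (mat (push (colH φ) x) * mat (push (rowH φ) y) * mat (push (colH φ) x)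
      * mat (push (rowH φ) y)).trace = (mat (conv Z Z)).trace := by
    rw [Matrix.trace_mul_comm, mat_conv, hZ, mat_conv]; simp only [Matrix.mul_assoc]
  have e2 : ∀ g, Z g = ∑ p : (α → Equiv.Perm β) × (β → Equiv.Perm α),
      if rowH φ p.2 * colH φ p.1 = g then x p.1 * y p.2 else 0 := by
    intro g
    rw [hZ, conv, sum_push, Fintype.sum_prod_type_right]
    refine Finset.sum_congr rfl fun r _ => ?_
    rw [push, Finset.mul_sum]
    refine Finset.sum_congr rfl fun c _ => ?_
    simp [eq_inv_mul_iff_mul_eq, mul_comm]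
  have e3 : ∀ p : (α → Equiv.Perm β) × (β → Equiv.Perm α),
      Z (rowH φ p.2 * colH φ p.1) = x p.1 * y p.2 := by
    intro p
    rw [e2, Finset.sum_eq_single p, if_pos rfl]
    · intro p' _ hp; exact if_neg fun h => hp (rc_inj φ h)
    · simp
  have e4 : ∀ g, Z g ≠ 0 → ∃ p : (α → Equiv.Perm β) × (β → Equiv.Perm α),
      rowH φ p.2 * colH φ p.1 = g := by
    intro g hg
    by_contra hc
    exact hg (by rw [e2]; exact Finset.sum_eq_zero fun p _ => if_neg fun h => hc ⟨p, h⟩)
  rw [e1, trace_mat, norm_mul, Fintype.card_perm, Complex.norm_natCast]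
  refine mul_le_mul_of_nonneg_left ?_ (Nat.cast_nonneg _)
  set F : Equiv.Perm Γ → ℝ := fun h => if Z h⁻¹ ≠ 0 then ‖Z h‖ ^ 2 else 0 with hF
  have e5 : ‖conv Z Z 1‖ ≤ ∑ h, F h := by
    have : ∑ h, F h = ∑ h, (F h + F h⁻¹) / 2 := by
      rw [← Finset.sum_div, Finset.sum_add_distrib,
        Equiv.sum_comp (Equiv.inv (Equiv.Perm Γ)) F |>.symm.symm.trans rfl |> fun
          (h : ∑ i, F i⁻¹ = ∑ i, F i) => h]
      ring
    rw [this]
    refine (norm_sum_le _ _).trans (Finset.sum_le_sum fun h _ => ?_)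
    simp only [hF, mul_one, inv_inv, norm_mul]
    by_cases h1 : Z h = 0
    · simp [h1]
    by_cases h2 : Z h⁻¹ = 0
    · simp [h2]
    rw [if_pos h1, if_pos h2]
    nlinarith [sq_nonneg (‖Z h‖ - ‖Z h⁻¹‖)]
  refine e5.trans ?_
  rw [← Fintype.sum_of_injective _ (rc_inj φ) (fun p => F (rowH φ p.2 * colH φ p.1)) F
    (fun g hg => ?_) (fun _ => rfl), Fintype.sum_prod_type]
  · refine Finset.sum_le_sum fun c _ => Finset.sum_le_sum fun r _ => ?_
    simp only [hF]
    by_cases h : Z (rowH φ r * colH φ c)⁻¹ = 0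
    · rw [if_neg (not_not.mpr h)]; split_ifs <;> positivity
    · obtain ⟨p, hp⟩ := e4 _ h
      rw [if_pos h, if_pos (rc_lat φ hp), e3 (c, r), norm_mul, mul_pow]
  · have : Z g = 0 := by_contra fun h => hg (e4 g h)
    simp [hF, this]

theorem grid_step (φ : Γ ≃ α × β) (e : α ≃ Fin m) [Nonempty β] {L : ℕ} {lam k N : ℝ} (hL : 2 ≤ L)
    (hlam : Real.exp lam = L ^ 2) (hm : L ^ 8 ≤ m) (hk : 2 ≤ k) (hN : 1 ≤ N)
    (kR : Equiv.Perm α → ℂ) (kC : Equiv.Perm β → ℂ)
    (hR : trp (mat kR * (mat kR)ᴴ) k ≤ N) (hC : trp (mat kC * (mat kC)ᴴ) k ≤ N) :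
    trp (mat (conv (push (colH φ) (tens α kC)) (push (rowH φ) (tens β kR)))
      * (mat (conv (push (colH φ) (tens α kC)) (push (rowH φ) (tens β kR))))ᴴ) (k * (1 + 1 / lam))
      ≤ (N ^ 2) ^ (m + Fintype.card β) * Real.exp (1 + Real.log (Fintype.card Γ)
        + Fintype.card Γ * ((3 + Real.log L) / L) + L ^ 4 * m * m) := by
  classical
  have hL2 : (2 : ℝ) ≤ L := by exact_mod_cast hL
  have hl1 : 1 < lam := by
    rw [← Real.exp_lt_exp, hlam]
    have := Real.exp_one_lt_d9
    nlinarith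
  have hli : 0 < 1 / lam := by positivity
  have hth0 : 0 < 1 - 1 / lam := by rw [sub_pos, div_lt_one (by linarith)]; exact hl1
  have hc : Fintype.card α = m := by rw [Fintype.card_congr e, Fintype.card_fin]
  set aR := conv kR (cst kR) with haR
  set aC := conv (cst kC) kC with haC
  have mR : mat aR = mat kR * (mat kR)ᴴ := by rw [haR, mat_conv, mat_cst]
  have mC : mat aC = (mat kC)ᴴ * mat kC := by rw [haC, mat_conv, mat_cst]
  have hermR : (mat aR).IsHermitian := by rw [mR]; exact isHermitian_mul_conjTranspose_self _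
  have hermC : (mat aC).IsHermitian := by rw [mC]; exact isHermitian_conjTranspose_mul_self _
  have sb := semi_lift hermR (rowH φ)
  have sa := semi_lift hermC (colH φ)
  have pR : pw aR 1 = aR := pw_one hermR (by rw [mR]; exact ev_nonneg' _)
  have pC : pw aC 1 = aC := pw_one hermC (by rw [mC]; exact ev_nonneg _)
  set KR := mat (push (rowH φ) (tens β kR)) with hKR
  set KC := mat (push (colH φ) (tens α kC)) with hKC
  set b := fun z => mat (push (rowH φ) (tens β (pw aR z))) with hb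
  set a := fun z => mat (push (colH φ) (tens α (pw aC z))) with ha
  have b1 : b 1 = KR * KRᴴ := by
    simp only [hb]
    rw [pR, haR, tens_conv, push_conv, mat_conv, tens_cst, push_cst, mat_cst]
  have a1 : a 1 = KCᴴ * KC := by
    simp only [ha]
    rw [pC, haC, tens_conv, push_conv, mat_conv, tens_cst, push_cst, mat_cst]
  have hh : star (1 / 2 : ℂ) = 1 / 2 := by simp
  have e1 : (KC * KR) * (KC * KR)ᴴ = (KC * b (1 / 2)) * (KC * b (1 / 2))ᴴ := by
    rw [conjTranspose_mul, conjTranspose_mul, sb.star, hh, Matrix.mul_assoc KC (b _),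
      ← Matrix.mul_assoc (b _), sb.mul]
    norm_num [b1, Matrix.mul_assoc]
  have e2 : (KC * b (1 / 2))ᴴ * (KC * b (1 / 2)) = b (1 / 2) * a 1 * b (1 / 2) := by
    rw [conjTranspose_mul, sb.star, hh, a1]; simp only [Matrix.mul_assoc]
  rw [mat_conv, e1, trp_comm, e2]
  refine (alt sa sb (by nlinarith)).trans ?_
  have ek : k * (1 + 1 / lam) / 2 = k * (1 - (1 - 1 / lam) / 2) := by ring
  rw [ek]
  refine (trace_rc φ _ _).trans ?_
  have hyR := hy hermR hth0 (by linarith) hN (by rw [mR]; exact hR)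
  have hyC := hy hermC hth0 (by linarith) hN (by rw [mC, ← trp_comm]; exact hC)
  rw [Fintype.card_perm] at hyR hyC
  rw [hc] at hyR
  have key := bl e hL hlam hm _ (fun σ => sq_nonneg _) hyR _ (fun σ => sq_nonneg _)
    (by positivity) hyC
  set M := Fintype.card β with hM
  have hM0 : 0 < M := Fintype.card_pos
  have hm0 : 0 < m := lt_of_lt_of_le (by positivity) hm
  have hn : Fintype.card Γ = m * M := by rw [Fintype.card_congr φ, Fintype.card_prod, hc]
  set P : ℝ := (m.factorial : ℝ) ^ M * (M.factorial : ℝ) ^ m with hP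
  have hP0 : 0 < P := by positivity
  set z : ℂ := ((k * (1 - (1 - 1 / lam) / 2) : ℝ) : ℂ)
  have e3 : (∑ c, ∑ r, if Lat c r then ‖tens α (pw aC z) c‖ ^ 2 * ‖tens β (pw aR z) r‖ ^ 2 else 0)
      = (∑ c : α → Equiv.Perm β, ∑ r : β → Equiv.Perm α, if Lat c r then
        (∏ a, ((M.factorial : ℝ) * ‖pw aC z (c a)‖) ^ 2)
          * ∏ b, ((m.factorial : ℝ) * ‖pw aR z (r b)‖) ^ 2 else 0) / P ^ 2 := by
    rw [Finset.sum_div]
    refine Finset.sum_congr rfl fun c _ => ?_
    rw [Finset.sum_div]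
    refine Finset.sum_congr rfl fun r _ => ?_
    split_ifs
    · simp only [tens, norm_prod, Finset.prod_pow, Finset.prod_mul_distrib, Finset.prod_const,
        Finset.card_univ, hc, ← hM, hP]
      field_simp
    · simp
  rw [e3]
  have e4 : ((m * M).factorial : ℝ) ≤ P * Real.exp (1 + Real.log (m * M : ℕ) + (m * M : ℕ)) := by
    have f1 := log_fact_le (m * M) (Nat.mul_pos hm0 hM0)
    have f2 := le_log_fact m
    have f3 := le_log_fact M
    rw [← Real.exp_log hP0, ← Real.exp_add, ← Real.exp_log (show (0 : ℝ) < (m * M).factorial by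
      positivity), Real.exp_le_exp, hP, Real.log_mul (by positivity) (by positivity),
      Real.log_pow, Real.log_pow]
    have f4 : Real.log ((m * M : ℕ) : ℝ) = Real.log m + Real.log M := by
      push_cast; exact Real.log_mul (by positivity) (by positivity)
    have g2 := mul_le_mul_of_nonneg_left f2 (Nat.cast_nonneg M : (0 : ℝ) ≤ M)
    have g3 := mul_le_mul_of_nonneg_left f3 (Nat.cast_nonneg m : (0 : ℝ) ≤ m)
    rw [f4] at f1 ⊢
    push_cast at f1 ⊢
    nlinarith
  rw [hn]
  refine (mul_le_mul e4 (div_le_div_of_nonneg_right key (by positivity)) (div_nonneg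
    (Finset.sum_nonneg fun c _ => Finset.sum_nonneg fun r _ => by split_ifs <;> positivity)
    (by positivity)) (by positivity)).trans (le_of_eq ?_)
  have e5 : 1 + Real.log (m * M : ℕ) + (m * M : ℕ) * ((3 + Real.log L) / L) + (L : ℝ) ^ 4 * m * m
      = (1 + Real.log (m * M : ℕ) + (m * M : ℕ))
        + (m * M * (-1 + (3 + Real.log L) / L) + L ^ 4 * m * m) := by
    push_cast; ring
  rw [e5, Real.exp_add _ (_ + _), mul_pow, mul_pow, hP, pow_add]
  field_simp

end Vale.Agent.P162
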