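import Vale.Agent.P162.Conv

/-! Juntas on the symmetric group, and multiplicities of eigenvalues. -/

set_option linter.unusedSectionVars false

namespace Vale.Agent.P162

open Finset Matrix

section lin
variable {n : Type} [Fintype n] [DecidableEq n]

lemma orth_decomp (U : Submodule ℂ (n → ℂ)) (v : n → ℂ) :
    ∃ w, v - w ∈ U ∧ ∀ u ∈ U, star u ⬝ᵥ w = 0 := by
  obtain ⟨y, hy, z, hz, h⟩ := (U.map (WithLp.linearEquiv 2 ℂ (n → ℂ)).symm.toLinearMap
    : Submodule ℂ (EuclideanSpace ℂ n)).exists_add_mem_mem_orthogonal (WithLp.toLp 2 v)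
  obtain ⟨y', hy', rfl⟩ := hy
  refine ⟨z.ofLp, ?_, fun u hu => ?_⟩
  · have : v = y' + z.ofLp := congrArg WithLp.ofLp h
    rw [this]; simpa using hy'
  · have := hz (WithLp.toLp 2 u) ⟨u, hu, rfl⟩
    rw [EuclideanSpace.inner_eq_star_dotProduct, dotProduct_comm] at this
    exact this

lemma eigen_orth {B : Matrix n n ℂ} (hB : B.IsHermitian) (U : Submodule ℂ (n → ℂ))
    (hU : ∀ u ∈ U, B *ᵥ u ∈ U) {v : n → ℂ} {lam : ℂ} (hv : B *ᵥ v = lam • v) (hn : v ∉ U) :
    ∃ w, w ≠ 0 ∧ B *ᵥ w = lam • w ∧ v - w ∈ U ∧ ∀ u ∈ U, star u ⬝ᵥ w = 0 := by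
  obtain ⟨w, h1, h2⟩ := orth_decomp U v
  refine ⟨w, ?_, ?_, h1, h2⟩
  · rintro rfl; exact hn (by simpa using h1)
  · have m1 : B *ᵥ w - lam • w ∈ U := by
      have : B *ᵥ w - lam • w = lam • (v - w) - B *ᵥ (v - w) := by
        rw [mulVec_sub, hv, smul_sub]; abel
      rw [this]; exact U.sub_mem (U.smul_mem _ h1) (hU _ h1)
    have m2 : star (B *ᵥ w - lam • w) ⬝ᵥ (B *ᵥ w - lam • w) = 0 := by
      rw [dotProduct_sub, dotProduct_smul, h2 _ m1, ← hB.eq, ← dot_mulVec, hB.eq, h2 _ (hU _ m1)]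
      simp
    rw [dot_self] at m2
    exact sub_eq_zero.mp (nsq_eq_zero (by exact_mod_cast m2))

lemma evec_expand (B : Matrix n n ℂ) (v : n → ℂ) :
    v = ∑ γ, (star (evec B γ) ⬝ᵥ v) • evec B γ := by
  have : v = eU B *ᵥ ((eU B)ᴴ *ᵥ v) := by rw [mulVec_mulVec, eU_mul_star, one_mulVec]
  conv_lhs => rw [this]
  funext j
  simp only [mulVec, dotProduct, Finset.sum_apply, Pi.smul_apply, smul_eq_mul, evec,
    conjTranspose_apply, Pi.star_apply]
  exact Finset.sum_congr rfl fun γ _ => mul_comm _ _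

lemma mult_le {B : Matrix n n ℂ} (hB : B.IsHermitian) (W : Submodule ℂ (n → ℂ)) {lam : ℝ}
    (hW : ∀ w ∈ W, B *ᵥ w = (lam : ℂ) • w) (k : ℝ) :
    Module.finrank ℂ W * rp lam k ≤ trp B k := by
  classical
  set s := univ.filter fun γ => ev B γ = lam with hs
  have h1 : W ≤ Submodule.span ℂ ((s.image (evec B) : Finset (n → ℂ)) : Set (n → ℂ)) := by
    intro w hw
    rw [evec_expand B w]
    refine Submodule.sum_mem _ fun γ _ => ?_
    by_cases h : ev B γ = lam
    · exact Submodule.smul_mem _ _ (Submodule.subset_span (by simp [hs]; exact ⟨γ, h, rfl⟩))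
    · have e : star (B *ᵥ evec B γ) ⬝ᵥ w = star (evec B γ) ⬝ᵥ (B *ᵥ w) := by
        rw [dot_mulVec, hB.eq]
      rw [mulVec_evec hB, hW w hw, star_smul, smul_dotProduct, dotProduct_smul] at e
      have : star (evec B γ) ⬝ᵥ w = 0 := by
        by_contra hc
        simp only [smul_eq_mul, Complex.star_def, Complex.conj_ofReal] at e
        exact h (by exact_mod_cast mul_right_cancel₀ hc e)
      rw [this, zero_smul]; exact Submodule.zero_mem _
  have h2 : Module.finrank ℂ W ≤ s.card :=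
    (Submodule.finrank_mono h1).trans ((finrank_span_finset_le_card _).trans Finset.card_image_le)
  calc _ ≤ (s.card : ℝ) * rp lam k :=
        mul_le_mul_of_nonneg_right (by exact_mod_cast h2) (rp_nonneg _ _)
    _ = ∑ γ ∈ s, rp (ev B γ) k := by
        rw [Finset.sum_congr rfl (g := fun _ => rp lam k) fun γ hγ => by
          rw [(Finset.mem_filter.mp hγ).2]]
        simp
    _ ≤ _ := Finset.sum_le_sum_of_subset_of_nonneg (Finset.subset_univ _) fun _ _ _ => rp_nonneg _ _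

lemma evec_count (B : Matrix n n ℂ) (U : Submodule ℂ (n → ℂ)) (s : Finset n)
    (hs : ∀ γ ∈ s, evec B γ ∈ U) : s.card ≤ Module.finrank ℂ U := by
  have li : LinearIndependent ℂ (fun γ : s => (⟨evec B γ, hs γ γ.2⟩ : U)) := by
    rw [Fintype.linearIndependent_iff]
    intro g hg i
    have h1 : ∑ j : s, g j • evec B j = 0 := by
      have := congrArg Subtype.val hg
      simpa using this
    have h2 := congrArg (fun v => star (evec B i) ⬝ᵥ v) h1
    simp only [dotProduct_sum, dotProduct_smul, dot_evec, dotProduct_zero] at h2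
    rw [Finset.sum_eq_single i] at h2
    · simpa using h2
    · intro j _ hj
      rw [if_neg (fun h => hj (Subtype.ext h).symm)]; simp
    · simp
  simpa using li.fintype_card_le_finrank

end lin

variable {ι : Type} [Fintype ι] [DecidableEq ι]

def ind {i : ℕ} (a x : Fin i → ι) (π : Equiv.Perm ι) : ℂ := if ∀ t, π (a t) = x t then 1 else 0

def JJ (ι : Type) [Fintype ι] [DecidableEq ι] (i : ℕ) : Submodule ℂ (Equiv.Perm ι → ℂ) :=
  Submodule.span ℂ (Set.range fun p : (Fin i → ι) × (Fin i → ι) => ind p.1 p.2)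

lemma ind_mem {i : ℕ} (a x : Fin i → ι) : ind a x ∈ JJ ι i := Submodule.subset_span ⟨(a, x), rfl⟩

lemma finrank_JJ (i : ℕ) : Module.finrank ℂ (JJ ι i) ≤ Fintype.card ι ^ (2 * i) := by
  refine (finrank_range_le_card _).trans (le_of_eq ?_)
  simp [two_mul, pow_add]

lemma JJ_left (i : ℕ) (b : Equiv.Perm ι → ℂ) : ∀ u ∈ JJ ι i, mat b *ᵥ u ∈ JJ ι i := by
  intro u hu
  induction hu using Submodule.span_induction with
  | mem u hu =>
    obtain ⟨⟨a, x⟩, rfl⟩ := hu
    have : mat b *ᵥ ind a x = ∑ h, b h • ind a (fun t => h (x t)) := by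
      rw [mat_mulVec]
      funext π
      simp only [conv, Finset.sum_apply, Pi.smul_apply, smul_eq_mul, ind, Equiv.Perm.mul_apply,
        Equiv.Perm.inv_eq_iff_eq]
    rw [this]
    exact Submodule.sum_mem _ fun h _ => Submodule.smul_mem _ _ (ind_mem _ _)
  | zero => simp
  | add u v _ _ hu hv => rw [mulVec_add]; exact Submodule.add_mem _ hu hv
  | smul c u _ hu => rw [mulVec_smul]; exact Submodule.smul_mem _ _ hu

/-- right translation -/
def RR (g : Equiv.Perm ι) : (Equiv.Perm ι → ℂ) →ₗ[ℂ] (Equiv.Perm ι → ℂ) where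
  toFun v π := v (π * g)
  map_add' _ _ := rfl
  map_smul' _ _ := rfl

lemma RR_apply (g : Equiv.Perm ι) (v : Equiv.Perm ι → ℂ) (π : Equiv.Perm ι) :
    RR g v π = v (π * g) := rfl

lemma RR_mul (g h : Equiv.Perm ι) (v : Equiv.Perm ι → ℂ) : RR g (RR h v) = RR (g * h) v := by
  funext π; simp [RR_apply, mul_assoc]

lemma RR_one (v : Equiv.Perm ι → ℂ) : RR 1 v = v := by funext π; simp [RR_apply]

lemma JJ_right (i : ℕ) (g : Equiv.Perm ι) : ∀ u ∈ JJ ι i, RR g u ∈ JJ ι i := by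
  intro u hu
  induction hu using Submodule.span_induction with
  | mem u hu =>
    obtain ⟨⟨a, x⟩, rfl⟩ := hu
    exact ind_mem (fun t => g (a t)) x
  | zero => simp
  | add u v _ _ hu hv => rw [map_add]; exact Submodule.add_mem _ hu hv
  | smul c u _ hu => rw [map_smul]; exact Submodule.smul_mem _ _ hu

lemma mem_JJ {i : ℕ} (a : Fin i → ι) (v : Equiv.Perm ι → ℂ)
    (hv : ∀ π π' : Equiv.Perm ι, (∀ t, π (a t) = π' (a t)) → v π = v π') : v ∈ JJ ι i := by
  classical
  have : v = ∑ x : Fin i → ι, (if h : ∃ π : Equiv.Perm ι, ∀ t, π (a t) = x t then v h.choose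
      else 0) • ind a x := by
    funext π
    rw [Finset.sum_apply, Finset.sum_eq_single (fun t => π (a t))]
    · have h : ∃ π' : Equiv.Perm ι, ∀ t, π' (a t) = π (a t) := ⟨π, fun _ => rfl⟩
      simp only [Pi.smul_apply, dif_pos h, ind, implies_true, if_true, smul_eq_mul, mul_one]
      exact (hv _ _ h.choose_spec).symm
    · intro x _ hx
      simp only [Pi.smul_apply, ind, smul_eq_mul]
      rw [if_neg (fun h => hx (funext h).symm), mul_zero]
    · simp
  rw [this]
  exact Submodule.sum_mem _ fun x _ => Submodule.smul_mem _ _ (ind_mem _ _)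

lemma mem_JJ_of_swaps [Nonempty ι] {i : ℕ} (T : Finset ι) (hT : T.card ≤ i) (v : Equiv.Perm ι → ℂ)
    (hv : ∀ x y, x ∉ T → y ∉ T → RR (Equiv.swap x y) v = v) : v ∈ JJ ι i := by
  have key : ∀ (k : ℕ) (g : Equiv.Perm ι), g.support.card = k → (∀ t ∈ T, g t = t) →
      RR g v = v := by
    intro k
    induction k using Nat.strong_induction_on with
    | _ k ih =>
      intro g hk hg
      by_cases h1 : g = 1
      · rw [h1, RR_one]
      obtain ⟨x, hx⟩ : ∃ x, g x ≠ x := by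
        by_contra hc
        exact h1 (Equiv.ext fun x => by simpa using not_exists.mp hc x)
      have hxT : x ∉ T := fun h => hx (hg x h)
      have hgT : g x ∉ T := fun h => hx (g.injective (hg _ h))
      have := ih _ (hk ▸ Equiv.Perm.card_support_swap_mul hx) _ rfl (fun t ht => by
        rw [Equiv.Perm.mul_apply, hg t ht, Equiv.swap_apply_of_ne_of_ne]
        · rintro rfl; exact hxT ht
        · rintro rfl; exact hgT ht)
      rw [← Equiv.swap_mul_self_mul x (g x) g, ← RR_mul, this, hv _ _ hxT hgT]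
  obtain ⟨a, ha⟩ : ∃ a : Fin i → ι, ∀ t ∈ T, ∃ j, a j = t := by
    have e := T.equivFin
    refine ⟨fun j => if h : j.val < T.card then (e.symm ⟨j, h⟩ : ι) else Classical.arbitrary ι,
      fun t ht => ⟨⟨e ⟨t, ht⟩, lt_of_lt_of_le (e ⟨t, ht⟩).2 hT⟩, by simp⟩⟩
  refine mem_JJ a v fun π π' h => ?_
  have := congrFun (key _ (π⁻¹ * π') rfl fun t ht => by
    obtain ⟨j, rfl⟩ := ha t ht
    rw [Equiv.Perm.mul_apply, ← h j]; simp) π
  simpa [RR_apply] using this.symm

theorem doubling (m : ι → ι) (hm : ∀ x, m (m x) = x) (hm' : ∀ x, m x ≠ x) (a : ℕ) :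
    ∀ (Y : Finset ι) (W : Submodule ℂ (Equiv.Perm ι → ℂ)), (∀ x ∈ Y, m x ∈ Y) →
      (∀ x ∈ Y, ∀ y ∈ Y, ∀ w ∈ W, RR (Equiv.swap x y) w ∈ W) →
      (∃ v ∈ W, v ≠ 0 ∧ ∀ x ∈ Y, RR (Equiv.swap x (m x)) v = v) →
      (∀ T : Finset ι, T.card ≤ 4 * a → ∀ w ∈ W,
        (∀ x ∈ Y, ∀ y ∈ Y, x ∉ T → y ∉ T → RR (Equiv.swap x y) w = w) → w = 0) →
      2 ^ a ≤ Module.finrank ℂ W := by
  induction a with
  | zero =>
    rintro Y W - - ⟨v, hv, h0, -⟩ -
    have : Nontrivial W := ⟨⟨⟨v, hv⟩, 0, fun h => h0 (congrArg Subtype.val h)⟩⟩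
    exact Module.finrank_pos
  | succ a ih =>
    rintro Y W hY hW ⟨v, hv, h0, hvm⟩ hT
    obtain ⟨x, hx, y, hy, hxy⟩ : ∃ x ∈ Y, ∃ y ∈ Y, RR (Equiv.swap x y) v ≠ v := by
      by_contra hc
      push Not at hc
      exact h0 (hT ∅ (by simp) v hv fun x hx y hy _ _ => hc x hx y hy)
    have n1 : x ≠ y := by rintro rfl; exact hxy (by rw [Equiv.swap_self]; exact RR_one v)
    have n2 : m x ≠ y := by rintro rfl; exact hxy (hvm x hx)
    set s := Equiv.swap x y with hs
    have ss : ∀ w, RR s (RR s w) = w := fun w => by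
      rw [RR_mul, hs, Equiv.swap_mul_self, RR_one]
    set Y' := Y \ {x, m x, y, m y} with hY'
    have memY : ∀ z, z ∈ Y' ↔ z ∈ Y ∧ z ≠ x ∧ z ≠ m x ∧ z ≠ y ∧ z ≠ m y := by
      intro z; simp [hY', not_or]
    have comm : ∀ z ∈ Y', ∀ z' ∈ Y', ∀ w, RR s (RR (Equiv.swap z z') w)
        = RR (Equiv.swap z z') (RR s w) := by
      intro z hz z' hz' w
      rw [memY] at hz hz'
      rw [RR_mul, RR_mul, Equiv.mul_swap_eq_swap_mul, hs,
        Equiv.swap_apply_of_ne_of_ne hz.2.1 hz.2.2.2.1,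
        Equiv.swap_apply_of_ne_of_ne hz'.2.1 hz'.2.2.2.1]
    have hY2 : ∀ z ∈ Y', m z ∈ Y' := by
      intro z hz
      rw [memY] at hz ⊢
      refine ⟨hY z hz.1, ?_, ?_, ?_, ?_⟩
      · intro h; exact hz.2.2.1 (by rw [← h, hm])
      · intro h; exact hz.2.1 (by rw [← hm z, h, hm])
      · intro h; exact hz.2.2.2.2 (by rw [← h, hm])
      · intro h; exact hz.2.2.2.1 (by rw [← hm z, h, hm])
    have step : ∀ ε : ℂ, ε * ε = 1 → v + ε • RR s v ≠ 0 →
        2 ^ a ≤ Module.finrank ℂ ↥(W ⊓ Module.End.eigenspace (RR s) ε) := by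
      intro ε hε hne
      refine ih Y' _ hY2 ?_ ⟨v + ε • RR s v, ⟨?_, ?_⟩, hne, ?_⟩ ?_
      · rintro z hz z' hz' w ⟨hw1, hw2⟩
        refine ⟨hW z ((memY z).mp hz).1 z' ((memY z').mp hz').1 w hw1, ?_⟩
        rw [SetLike.mem_coe, Module.End.mem_eigenspace_iff] at hw2 ⊢
        rw [comm z hz z' hz', hw2, map_smul]
      · exact W.add_mem hv (W.smul_mem _ (hW x hx y hy v hv))
      · rw [SetLike.mem_coe, Module.End.mem_eigenspace_iff, map_add, map_smul, ss, smul_add,
          smul_smul, hε, one_smul, add_comm]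
      · intro z hz
        rw [map_add, map_smul, ← comm z hz _ (hY2 z hz), hvm z ((memY z).mp hz).1]
      · rintro T hTc w ⟨hw1, -⟩ hw
        refine hT (T ∪ {x, m x, y, m y}) ?_ w hw1 fun z hz z' hz' h1 h2 => ?_
        · refine (Finset.card_union_le _ _).trans ?_
          have : ({x, m x, y, m y} : Finset ι).card ≤ 4 := Finset.card_le_four
          omega
        · rw [Finset.mem_union, not_or] at h1 h2
          exact hw z (Finset.mem_sdiff.mpr ⟨hz, h1.2⟩) z' (Finset.mem_sdiff.mpr ⟨hz', h2.2⟩)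
            h1.1 h2.1
    have p1 := step 1 (by ring) (by
      intro h
      rw [one_smul] at h
      have h1 : RR s v = -v := (neg_eq_of_add_eq_zero_right h).symm
      have h2 : RR (Equiv.swap y (m x)) v = v := by
        have : Equiv.swap y (m x) = s * Equiv.swap x (m x) * s := by
          rw [Equiv.mul_swap_eq_swap_mul s x (m x), mul_assoc, hs, Equiv.swap_mul_self, mul_one,
            Equiv.swap_apply_left, Equiv.swap_apply_of_ne_of_ne (hm' x) n2]
        rw [this, ← RR_mul, ← RR_mul, h1, map_neg, hvm x hx, map_neg, h1, neg_neg]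
      have h3 : s = Equiv.swap x (m x) * Equiv.swap y (m x) * Equiv.swap x (m x) := by
        rw [Equiv.mul_swap_eq_swap_mul _ y (m x), mul_assoc, Equiv.swap_mul_self, mul_one,
          Equiv.swap_apply_right, Equiv.swap_apply_of_ne_of_ne n1.symm n2.symm, Equiv.swap_comm]
      apply hxy
      rw [h3, ← RR_mul, ← RR_mul, hvm x hx, h2, hvm x hx])
    have p2 := step (-1) (by ring) (by
      intro h
      rw [neg_one_smul, ← sub_eq_add_neg, sub_eq_zero] at h
      exact hxy h.symm)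
    have dj : Disjoint (W ⊓ Module.End.eigenspace (RR s) 1) (W ⊓ Module.End.eigenspace (RR s) (-1)) := by
      rw [Submodule.disjoint_def]
      rintro w ⟨-, h1⟩ ⟨-, h2⟩
      rw [SetLike.mem_coe, Module.End.mem_eigenspace_iff] at h1 h2
      rw [h1, one_smul, neg_one_smul] at h2
      exact self_eq_neg.mp h2
    have f1 := Submodule.finrank_sup_add_finrank_inf_eq (W ⊓ Module.End.eigenspace (RR s) 1)
      (W ⊓ Module.End.eigenspace (RR s) (-1))
    rw [dj.eq_bot, finrank_bot] at f1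
    have f2 := Submodule.finrank_mono (sup_le inf_le_left inf_le_left :
      (W ⊓ Module.End.eigenspace (RR s) 1) ⊔ (W ⊓ Module.End.eigenspace (RR s) (-1)) ≤ W)
    rw [pow_succ]; omega

theorem high_mult [Nonempty ι] (m : ι → ι) (hm : ∀ x, m (m x) = x) (hm' : ∀ x, m x ≠ x) (a : ℕ)
    {b : Equiv.Perm ι → ℂ} (hb : (mat b).IsHermitian) {lam : ℝ}
    (hl : ∀ v, mat b *ᵥ v = (lam : ℂ) • v → ∀ x π, v (Equiv.swap x (m x) * π) = v π)
    {v : Equiv.Perm ι → ℂ} (hv : mat b *ᵥ v = (lam : ℂ) • v) (hn : v ∉ JJ ι (4 * a)) (k : ℝ) :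
    2 ^ a * rp lam k ≤ trp (mat b) k := by
  classical
  obtain ⟨w, w0, w1, -, w2⟩ := eigen_orth hb _ (JJ_left (4 * a) b) hv hn
  set W : Submodule ℂ (Equiv.Perm ι → ℂ) :=
    { carrier := {w | mat b *ᵥ w = (lam : ℂ) • w ∧ ∀ u ∈ JJ ι (4 * a), star u ⬝ᵥ w = 0}
      add_mem' := by
        rintro w w' ⟨h1, h2⟩ ⟨h3, h4⟩
        exact ⟨by rw [mulVec_add, h1, h3, smul_add],
          fun u hu => by rw [dotProduct_add, h2 u hu, h4 u hu, add_zero]⟩
      zero_mem' := ⟨by simp, by simp⟩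
      smul_mem' := by
        rintro c w ⟨h1, h2⟩
        exact ⟨by rw [mulVec_smul, h1, smul_comm],
          fun u hu => by rw [dotProduct_smul, h2 u hu, smul_zero]⟩ } with hW
  have WR : ∀ g, ∀ w ∈ W, RR g w ∈ W := by
    rintro g w ⟨h1, h2⟩
    refine ⟨?_, fun u hu => ?_⟩
    · rw [← map_smul, ← h1, mat_mulVec, mat_mulVec]
      funext π
      simp [conv, RR_apply, mul_assoc]
    · rw [← h2 _ (JJ_right _ g⁻¹ u hu), dotProduct, dotProduct,
        ← Equiv.sum_comp (Equiv.mulRight g⁻¹)]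
      simp [RR_apply]
  obtain ⟨g0, hg0⟩ : ∃ g0, w g0 ≠ 0 := Function.ne_iff.mp w0
  set P : Equiv.Perm ι → Prop := fun h => ∀ π, w (g0 * h * g0⁻¹ * π) = w π with hP
  have dbl := doubling (fun x => g0⁻¹ (m (g0 x))) (by simp [hm])
    (fun x h => hm' (g0 x) (Equiv.Perm.inv_eq_iff_eq.mp h)) a univ W (by simp)
    (fun x _ y _ => WR _) ⟨∑ h ∈ univ.filter P, RR h w,
      W.sum_mem fun h _ => WR h w ⟨w1, w2⟩, ?_, fun x _ => ?_⟩ ?_
  · refine le_trans (mul_le_mul_of_nonneg_right ?_ (rp_nonneg _ _))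
      (mult_le hb W (fun w hw => hw.1) k)
    exact_mod_cast dbl
  · intro h
    have := congrFun h g0
    rw [Finset.sum_apply, Finset.sum_congr rfl (g := fun _ => w g0) (fun h hh => by
      rw [RR_apply, ← (Finset.mem_filter.mp hh).2 g0]; simp)] at this
    simp only [Finset.sum_const, nsmul_eq_mul, Pi.zero_apply, mul_eq_zero, hg0, or_false,
      Nat.cast_eq_zero, Finset.card_eq_zero] at this
    have h1 : (1 : Equiv.Perm ι) ∈ univ.filter P := by simp [hP]
    rw [this] at h1; simp at h1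
  · set s := Equiv.swap x (g0⁻¹ (m (g0 x))) with hs
    have Ps : P s := fun π => by
      rw [hs, ← Equiv.swap_apply_apply]; simpa using hl w w1 (g0 x) π
    have Pm : ∀ h, P (s * h) ↔ P h := by
      intro h
      refine forall_congr' fun π => ?_
      rw [← Ps (g0 * h * g0⁻¹ * π)]
      simp [mul_assoc]
    rw [map_sum]
    simp_rw [RR_mul]
    rw [Finset.sum_filter, Finset.sum_filter, ← Equiv.sum_comp (Equiv.mulLeft s)
      (fun h => if P h then RR h w else 0)]
    exact Finset.sum_congr rfl fun h _ => if_congr (Pm h).symm rfl rfl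
  · rintro T hT u ⟨-, hu⟩ h
    have := hu u (mem_JJ_of_swaps T hT u fun x y hx hy => h x (mem_univ _) y (mem_univ _) hx hy)
    rw [dot_self] at this
    exact nsq_eq_zero (by exact_mod_cast this)

end Vale.Agent.P162
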