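import Vale.Agent.P162.Share
import Vale.Agent.P162.Junta

/-! Eigenvalues carried by juntas of low degree. -/

set_option linter.unusedSectionVars false

namespace Vale.Agent.P162

open Finset Matrix

variable {d : ℕ}

lemma unif (F : Pos d → ℂ) (hF : ∑ w, F w = 0) (y : Pos d) :
    ∑ c : Coins d, F ((bfly c)⁻¹ y) = 0 := by
  have e1 : ∀ c : Coins d, F ((bfly c)⁻¹ y)
      = ∑ w, F w * ∏ l, if c l (sw w y l) = xor (w l) (y l) then 1 else 0 := by
    intro c
    simp_rw [Finset.prod_ite_zero, Finset.prod_const_one, Finset.mem_univ, forall_true_left,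
      ← bfly_iff, ← Equiv.Perm.eq_inv_iff_eq]
    simp
  have e2 : ∀ (p : Pos d) (b : Bool), (∑ f : Pos d → Bool, if f p = b then (1 : ℂ) else 0)
      = Fintype.card (Pos d → Bool) / 2 := by
    intro p b
    have := resample_ind (R := ℂ) p (fun _ : Pos d → Bool => 1) (fun _ _ => rfl)
      (fun y => if y = b then 1 else 0)
    simp only [Fintype.card_bool, Nat.cast_ofNat, one_mul, Finset.sum_ite_eq', Finset.mem_univ,
      if_true, mul_one, Finset.sum_const, Finset.card_univ, nsmul_eq_mul] at this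
    rw [← this]; ring
  simp_rw [e1]
  rw [Finset.sum_comm]
  simp_rw [← Finset.mul_sum]
  have e3 : ∀ w : Pos d, (∑ c : Coins d, ∏ l, if c l (sw w y l) = xor (w l) (y l) then (1 : ℂ) else 0)
      = (Fintype.card (Pos d → Bool) / 2) ^ d := by
    intro w
    rw [← Fintype.piFinset_univ, ← Finset.prod_univ_sum (fun _ => univ)
      (fun l (f : Pos d → Bool) => if f (sw w y l) = xor (w l) (y l) then (1 : ℂ) else 0)]
    simp only [e2, Finset.prod_const, Finset.card_univ, Fintype.card_fin]
  simp_rw [e3]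
  rw [← Finset.sum_mul, hF, zero_mul]

open Classical in
lemma cov_bound {τ : Type} [Fintype τ] [DecidableEq τ] (g : (τ → Pos d) → ℂ)
    (top : ∀ z t, ∑ w, g (Function.update z t w) = 0) {M : ℝ} (hM : ∀ z, ‖g z‖ ≤ M)
    (y : τ → Pos d) :
    ‖∑ ω : Option τ → Coins d, g (fun t => (bfly (ω none))⁻¹ (y t))‖
      ≤ M * ∑ S : Finset τ, ((univ.filter fun ω : Option τ → Coins d =>
        AllSh (fun t => (bfly (ω (if t ∈ S then none else some t)))⁻¹ (y t)) y).card : ℝ) := by
  set zS : Finset τ → (Option τ → Coins d) → τ → Pos d := fun S ω t =>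
    (bfly (ω (if t ∈ S then none else some t)))⁻¹ (y t) with hzS
  set a : (τ → Pos d) → (Option τ → Coins d) → Option τ → τ → ℂ := fun z ω k t =>
    if bfly (ω k) (z t) = y t then 1 else 0 with ha
  have e1 : ∀ z ω, ∏ t, (a z ω none t - a z ω (some t) t)
      = ∑ S : Finset τ, (-1) ^ Sᶜ.card * if z = zS S ω then 1 else 0 := by
    intro z ω
    simp_rw [sub_eq_add_neg]
    rw [Fintype.prod_add]
    refine Finset.sum_congr rfl fun S _ => ?_
    rw [Finset.prod_neg, mul_left_comm]
    congr 1
    have : (if z = zS S ω then (1 : ℂ) else 0)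
        = ∏ t, a z ω (if t ∈ S then none else some t) t := by
      simp only [ha, hzS, Finset.prod_ite_zero, Finset.prod_const_one, Finset.mem_univ,
        forall_true_left, funext_iff, Equiv.Perm.eq_inv_iff_eq]
    rw [this, ← Finset.prod_mul_prod_compl S]
    congr 1
    · exact Finset.prod_congr rfl fun t ht => by rw [if_pos ht]
    · exact Finset.prod_congr rfl fun t ht => by rw [if_neg (Finset.mem_compl.mp ht)]
  have e2 : ∀ z, ¬ AllSh z y → ∑ ω, ∏ t, (a z ω none t - a z ω (some t) t) = 0 := by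
    intro z hz
    unfold AllSh at hz
    push Not at hz
    obtain ⟨t0, ht0⟩ := hz
    set ψ : (Option τ → Coins d) → Option τ → Coins d := fun ω k l p =>
      if p = sw (z t0) (y t0) l then ω (Equiv.swap none (some t0) k) l p else ω k l p with hψ
    have inv : Function.Involutive ψ := by
      intro ω; funext k l p
      simp only [hψ]; split_ifs <;> simp
    have c1 : ∀ ω k, a z (ψ ω) k t0 = a z ω (Equiv.swap none (some t0) k) t0 := by
      intro ω k; simp [ha, hψ, bfly_iff]
    have c2 : ∀ ω k t, t ≠ t0 → a z (ψ ω) k t = a z ω k t := by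
      intro ω k t ht
      simp only [ha, hψ, bfly_iff, if_neg (ht0 t ht _).symm]
    have c3 : ∀ ω, ∏ t, (a z (ψ ω) none t - a z (ψ ω) (some t) t)
        = - ∏ t, (a z ω none t - a z ω (some t) t) := by
      intro ω
      rw [← Finset.mul_prod_erase _ _ (Finset.mem_univ t0),
        ← Finset.mul_prod_erase _ _ (Finset.mem_univ t0), c1, c1, Equiv.swap_apply_left,
        Equiv.swap_apply_right, ← neg_mul, neg_sub]
      congr 1
      refine Finset.prod_congr rfl fun t ht => ?_
      rw [c2 _ _ _ (Finset.ne_of_mem_erase ht), c2 _ _ _ (Finset.ne_of_mem_erase ht)]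
    have := Equiv.sum_comp inv.toPerm (fun ω => ∏ t, (a z ω none t - a z ω (some t) t))
    simp only [Function.Involutive.coe_toPerm, c3, Finset.sum_neg_distrib] at this
    exact self_eq_neg.mp this.symm
  have e3 : ∀ S : Finset τ, S ≠ univ → ∑ ω, g (zS S ω) = 0 := by
    intro S hS
    obtain ⟨t0, ht0⟩ : ∃ t0, t0 ∉ S := by
      by_contra hc; push Not at hc; exact hS (Finset.eq_univ_iff_forall.mpr hc)
    have := resample (R := ℂ) (some t0) (fun ω : Option τ → Coins d => g (zS S ω))
    have c1 : ∀ ω c, zS S (Function.update ω (some t0) c)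
        = Function.update (zS S ω) t0 ((bfly c)⁻¹ (y t0)) := by
      intro ω c
      funext t
      by_cases ht : t = t0
      · subst ht; simp [hzS, ht0]
      · rw [Function.update_of_ne ht]
        simp only [hzS]
        rw [Function.update_of_ne]
        split_ifs <;> simp [ht]
    simp_rw [c1, unif _ (top _ t0)] at this
    simpa using this
  have e4 : ∀ F : (τ → Pos d) → ℂ, ∑ z, F z * ∑ ω, ∏ t, (a z ω none t - a z ω (some t) t)
      = ∑ S : Finset τ, (-1) ^ Sᶜ.card * ∑ ω, F (zS S ω) := by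
    intro F
    simp_rw [e1, Finset.mul_sum]
    rw [Finset.sum_comm]
    conv_rhs => rw [Finset.sum_comm]
    refine Finset.sum_congr rfl fun ω _ => ?_
    rw [Finset.sum_comm]
    refine Finset.sum_congr rfl fun S _ => ?_
    simp [mul_comm]
  have e5 : ∑ ω : Option τ → Coins d, g (fun t => (bfly (ω none))⁻¹ (y t))
      = ∑ S : Finset τ, (-1) ^ Sᶜ.card * ∑ ω, (if AllSh (zS S ω) y then g (zS S ω) else 0) := by
    rw [← e4 (fun z => if AllSh z y then g z else 0)]
    have := e4 g
    rw [Finset.sum_eq_single univ (fun S _ hS => by rw [e3 S hS, mul_zero]) (by simp)] at this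
    simp only [hzS, Finset.compl_univ, Finset.card_empty, pow_zero, one_mul, Finset.mem_univ,
      if_true] at this
    rw [← this]
    refine Finset.sum_congr rfl fun z _ => ?_
    split_ifs with h
    · rfl
    · rw [e2 z h]; simp
  rw [e5, Finset.mul_sum]
  refine (norm_sum_le _ _).trans (Finset.sum_le_sum fun S _ => ?_)
  rw [norm_mul, norm_pow, norm_neg, norm_one, one_pow, one_mul, Finset.card_filter]
  push_cast
  rw [Finset.mul_sum]
  refine (norm_sum_le _ _).trans (Finset.sum_le_sum fun ω _ => ?_)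
  split_ifs
  · simpa using hM _
  · simp

noncomputable def BB (d : ℕ) : Equiv.Perm (Pos d) → ℂ := conv (cst (KK d)) (KK d)

lemma mat_BB : mat (BB d) = (mat (KK d))ᴴ * mat (KK d) := by rw [BB, mat_conv, mat_cst]

lemma BB_herm : (mat (BB d)).IsHermitian := by
  rw [mat_BB]; exact isHermitian_conjTranspose_mul_self _

lemma BB_apply (v : Equiv.Perm (Pos d) → ℂ) (π : Equiv.Perm (Pos d)) :
    (mat (BB d) *ᵥ v) π = (∑ c : Coins d, ∑ c' : Coins d, v ((bfly c')⁻¹ * (bfly c * π)))
      / (Fintype.card (Coins d)) ^ 2 := by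
  rw [mat_mulVec, BB, conv_assoc, KK, cst_law, conv_law]
  simp_rw [conv_law, inv_inv]
  rw [← Finset.sum_div, div_div, sq]

theorem low_eigen (j Q r : ℕ) (hQ : 2 ≤ Q) (hr : 4 * Q + 8 * d ≤ r * Q) {θ : ℝ} (h0 : 0 ≤ θ)
    (h1 : θ ≤ 1) (hθ : ((j + 1 : ℕ) * d * 2 ^ (d + 1) : ℝ) ≤ θ ^ (2 * Q ^ 2) * 2 ^ (2 * d - r))
    {v : Equiv.Perm (Pos d) → ℂ} {lam : ℝ} (hv : mat (BB d) *ᵥ v = (lam : ℂ) • v)
    (hJ : v ∈ JJ (Pos d) (j + 1)) (hn : v ∉ JJ (Pos d) j) : lam ≤ (8 * θ) ^ (j + 1) := by
  classical
  obtain ⟨w, w0, w1, w2, w3⟩ := eigen_orth BB_herm _ (JJ_left j (BB d)) hv hn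
  have mono : ∀ (a x : Fin j → Pos d), ind a x ∈ JJ (Pos d) (j + 1) := fun a x =>
    mem_JJ (Fin.cons (fun _ => false) a) _ fun π π' h => by
      have : ∀ t, π (a t) = π' (a t) := fun t => by simpa using h t.succ
      simp [ind, this]
  have wJ : w ∈ JJ (Pos d) (j + 1) := by
    have : JJ (Pos d) j ≤ JJ (Pos d) (j + 1) := Submodule.span_le.mpr (by
      rintro _ ⟨p, rfl⟩; exact mono _ _)
    simpa using Submodule.sub_mem _ hJ (this w2)
  obtain ⟨a, x0, hx0⟩ : ∃ a x : Fin (j + 1) → Pos d, star (ind a x) ⬝ᵥ w ≠ 0 := by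
    by_contra hc
    push Not at hc
    have : ∀ u ∈ JJ (Pos d) (j + 1), star u ⬝ᵥ w = 0 := by
      intro u hu
      induction hu using Submodule.span_induction with
      | mem u hu => obtain ⟨p, rfl⟩ := hu; exact hc _ _
      | zero => simp
      | add u v _ _ hu hv => rw [star_add, add_dotProduct, hu, hv, add_zero]
      | smul c u _ hu => rw [star_smul, smul_dotProduct, hu, smul_zero]
    have h := this w wJ
    rw [dot_self] at h
    exact w0 (nsq_eq_zero (by exact_mod_cast h))
  set g : (Fin (j + 1) → Pos d) → ℂ := fun x => star (ind a x) ⬝ᵥ w with hg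
  have top : ∀ z t, ∑ u, g (Function.update z t u) = 0 := by
    intro z t
    simp only [hg]
    rw [← sum_dotProduct, ← star_sum]
    refine w3 _ (mem_JJ (fun s => a (t.succAbove s)) _ fun π π' h => ?_)
    have : ∀ π : Equiv.Perm (Pos d), (∑ u, ind a (Function.update z t u)) π
        = if ∀ s, π (a (t.succAbove s)) = z (t.succAbove s) then 1 else 0 := by
      intro π
      simp only [Finset.sum_apply, ind, Fin.forall_iff_succAbove t, Function.update_self,
        Function.update_of_ne (Fin.succAbove_ne t _)]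
      split_ifs with h
      · simp [h]
      · simp [h]
    rw [this, this]
    simp [h]
  have ainj : Function.Injective a := by
    intro s t hst
    by_contra hne
    refine hx0 (w3 _ (mem_JJ (fun s => a (t.succAbove s)) _ fun π π' h => ?_))
    obtain ⟨s', rfl⟩ := Fin.exists_succAbove_eq hne
    have : ∀ u, π (a u) = π' (a u) := (Fin.forall_iff_succAbove t).mpr ⟨hst ▸ h s', h⟩
    simp [ind, this]
  obtain ⟨x, -, hx⟩ := Finset.exists_max_image univ (fun x => ‖g x‖) ⟨x0, Finset.mem_univ _⟩
  have hM : 0 < ‖g x‖ := lt_of_lt_of_le (norm_pos_iff.mpr hx0) (hx x0 (Finset.mem_univ _))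
  have xinj : Function.Injective x := by
    obtain ⟨π, -, hπ⟩ := Finset.exists_ne_zero_of_sum_ne_zero (norm_pos_iff.mp hM)
    have : ∀ t, π (a t) = x t := by
      by_contra hc; simp [ind, hc] at hπ
    intro s t h
    exact ainj (π.injective (by rw [this, this, h]))
  set n : ℝ := (Fintype.card (Coins d) : ℝ) with hn'
  have hn0 : 0 < n := by rw [hn']; exact_mod_cast Fintype.card_pos
  have e1 : (lam : ℂ) * g x = (∑ c : Coins d, ∑ c' : Coins d,
      g (fun t => (bfly c')⁻¹ (bfly c (x t)))) / (n : ℂ) ^ 2 := by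
    have : (lam : ℂ) * g x = star (ind a x) ⬝ᵥ (mat (BB d) *ᵥ w) := by
      rw [w1, dotProduct_smul]; rfl
    rw [this, dotProduct]
    simp_rw [BB_apply, mul_div_assoc', Finset.mul_sum]
    rw [← Finset.sum_div, Finset.sum_comm]
    congr 1
    refine Finset.sum_congr rfl fun c _ => ?_
    rw [Finset.sum_comm]
    refine Finset.sum_congr rfl fun c' _ => ?_
    simp only [hg, dotProduct]
    conv_rhs => rw [← Equiv.sum_comp (Equiv.mulLeft ((bfly c')⁻¹ * bfly c))]
    refine Finset.sum_congr rfl fun π _ => ?_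
    simp [ind, mul_assoc]
  set n2 : ℝ := (Fintype.card (Option (Fin (j + 1)) → Coins d) : ℝ) with hn2
  have hn20 : 0 < n2 := by rw [hn2]; exact_mod_cast Fintype.card_pos
  have e2 : ∀ y : Fin (j + 1) → Pos d, n2 * ‖∑ c' : Coins d, g (fun t => (bfly c')⁻¹ (y t))‖
      = n * ‖∑ ω : Option (Fin (j + 1)) → Coins d, g (fun t => (bfly (ω none))⁻¹ (y t))‖ := by
    intro y
    have := resample_ind (R := ℂ) none (fun _ : Option (Fin (j + 1)) → Coins d => 1) (fun _ _ => rfl)
      (fun c' => g (fun t => (bfly c')⁻¹ (y t)))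
    simp only [one_mul, Finset.sum_const, Finset.card_univ, nsmul_eq_mul, mul_one] at this
    have h2 := congrArg norm this
    rw [norm_mul, norm_mul, Complex.norm_natCast, Complex.norm_natCast] at h2
    exact h2.symm
  have e3 : ∀ S : Finset (Fin (j + 1)), ∑ c : Coins d,
      ((univ.filter fun ω : Option (Fin (j + 1)) → Coins d => AllSh (fun t =>
        (bfly (ω (if t ∈ S then none else some t)))⁻¹ (bfly c (x t))) (fun t => bfly c (x t))).card : ℝ)
      ≤ (4 * θ) ^ (j + 1) * (n * n2) := by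
    intro S
    have := share_bound (κ := Option (Option (Fin (j + 1)))) none
      (fun t => some (if t ∈ S then none else some t)) (by simp) x xinj Q r hQ hr h0 h1
      (by simpa using hθ)
    rw [Fintype.card_fin, Fintype.card_congr Equiv.piOptionEquivProd, Fintype.card_prod,
      Finset.card_filter, ← Equiv.sum_comp Equiv.piOptionEquivProd.symm, Fintype.sum_prod_type] at this
    push_cast at this
    simp_rw [Finset.card_filter]
    push_cast
    exact this
  have e4 : n2 * (lam * ‖g x‖ * n ^ 2) ≤ n * (‖g x‖ * (2 ^ (j + 1) * ((4 * θ) ^ (j + 1) * (n * n2)))) := by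
    have a1 : lam * ‖g x‖ * n ^ 2 ≤ ∑ c : Coins d, ‖∑ c' : Coins d,
        g (fun t => (bfly c')⁻¹ (bfly c (x t)))‖ := by
      refine le_trans ?_ (norm_sum_le _ _)
      have h := congrArg norm e1
      rw [norm_mul, norm_div, norm_pow, Complex.norm_real, Complex.norm_real,
        Real.norm_of_nonneg hn0.le, eq_div_iff (by positivity)] at h
      rw [← h]
      gcongr
      exact le_abs_self _
    refine (mul_le_mul_of_nonneg_left a1 hn20.le).trans ?_
    rw [Finset.mul_sum]
    simp_rw [e2]
    rw [← Finset.mul_sum]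
    refine mul_le_mul_of_nonneg_left ?_ hn0.le
    refine (Finset.sum_le_sum fun c _ => cov_bound g top (fun z => hx z (Finset.mem_univ _)) _).trans ?_
    rw [← Finset.mul_sum, Finset.sum_comm]
    refine mul_le_mul_of_nonneg_left ((Finset.sum_le_card_nsmul _ _ _ fun S _ => e3 S).trans
      (le_of_eq ?_)) hM.le
    simp
  have e5 : (8 * θ) ^ (j + 1) = 2 ^ (j + 1) * (4 * θ) ^ (j + 1) := by
    rw [← mul_pow]; congr 1; ring
  rw [e5]
  refine le_of_mul_le_mul_right ?_ (show 0 < n2 * ‖g x‖ * n ^ 2 by positivity)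
  nlinarith

end Vale.Agent.P162
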