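import Vale.Agent.P162.Split

/-! The recursion on the dimension. -/

set_option linter.unusedSectionVars false

namespace Vale.Agent.P162

open Finset Matrix

noncomputable def NN (d : ℕ) (k : ℝ) : ℝ := trp (mat (BB d)) k

lemma NN_eq (d : ℕ) (k : ℝ) : NN d k = trp (mat (KK d) * (mat (KK d))ᴴ) k := by
  rw [NN, mat_BB, trp_comm]

lemma sq_le_two_pow (t : ℕ) (ht : 30 ≤ t) : 84000 * t ^ 2 ≤ 2 ^ t := by
  induction t, ht using Nat.le_induction with
  | base => norm_num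
  | succ t ht ih => rw [pow_succ 2]; nlinarith

lemma grid_NN (d1 d2 t : ℕ) (ht : 1 ≤ t) (h1 : 16 * t ≤ d1) (h2 : 2 * d1 ≤ d2)
    (h3 : d1 + d2 ≤ 96 * t) {k : ℝ} (hk : 2 ≤ k) (n1 : NN d1 k ≤ 5 / 4) (n2 : NN d2 k ≤ 5 / 4) :
    NN (d1 + d2) (k * (1 + 48 / (d1 + d2 : ℕ)))
      ≤ 2 ^ (2 * (2 ^ (d1 + d2 - 2 * t) * (7 + 98 * t))) := by
  have ht0 : (1 : ℝ) ≤ t := by exact_mod_cast ht
  have l2 := Real.log_two_gt_d9
  have l3 := Real.log_two_lt_d9
  have e : Pos d1 ≃ Fin (2 ^ d1) := Fintype.equivFinOfCardEq (by simp)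
  have key := grid_step (splitP d1 d2) e (L := 2 ^ (2 * t)) (lam := 4 * t * Real.log 2) (k := k)
    (N := 5 / 4) (by
      calc 2 = 2 ^ 1 := rfl
        _ ≤ _ := Nat.pow_le_pow_right (by norm_num) (by omega))
    (by
      rw [show 4 * (t : ℝ) * Real.log 2 = ((4 * t : ℕ) : ℝ) * Real.log 2 by push_cast; ring,
        Real.exp_nat_mul, Real.exp_log (by norm_num)]
      push_cast
      rw [← pow_mul]; congr 1; ring)
    (by rw [← pow_mul]; exact Nat.pow_le_pow_right (by norm_num) (by omega)) hk (by norm_num)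
    (KK d1) (KK d2) (by rw [← NN_eq]; exact n1) (by rw [← NN_eq]; exact n2)
  rw [← KK_split, ← NN_eq] at key
  have hd0 : (0 : ℝ) < (d1 + d2 : ℕ) := by exact_mod_cast (by omega : 0 < d1 + d2)
  have hd1 : ((d1 + d2 : ℕ) : ℝ) ≤ 96 * t := by exact_mod_cast h3
  have mono : k * (1 + 1 / (4 * t * Real.log 2)) ≤ k * (1 + 48 / (d1 + d2 : ℕ)) := by
    refine mul_le_mul_of_nonneg_left (add_le_add le_rfl ?_) (by linarith)
    rw [div_le_div_iff₀ (by positivity) hd0]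
    nlinarith
  refine (trp_BB_anti mono).trans (key.trans ?_)
  set u : ℕ := 2 ^ (d1 + d2 - 2 * t) with hu
  have u1 : (1 : ℝ) ≤ u := by exact_mod_cast Nat.one_le_two_pow
  have u2 : ((2 ^ d1 : ℕ) : ℝ) ≤ u := by
    exact_mod_cast Nat.pow_le_pow_right (by norm_num) (by omega)
  have u3 : ((2 ^ d2 : ℕ) : ℝ) ≤ u := by
    exact_mod_cast Nat.pow_le_pow_right (by norm_num) (by omega)
  have u4 : ((2 ^ (2 * t) : ℕ) : ℝ) ^ 4 * (2 ^ d1 : ℕ) * (2 ^ d1 : ℕ) ≤ u := by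
    have : (2 ^ (2 * t)) ^ 4 * 2 ^ d1 * 2 ^ d1 ≤ u := by
      rw [← pow_mul, ← pow_add, ← pow_add]
      exact Nat.pow_le_pow_right (by norm_num) (by omega)
    exact_mod_cast this
  have c1 : Fintype.card (Pos d2) = 2 ^ d2 := by simp
  have c2 : Fintype.card (Pos (d1 + d2)) = u * 2 ^ (2 * t) := by
    rw [hu, ← pow_add, Nat.sub_add_cancel (by omega)]; simp
  have c3 : Real.log (Fintype.card (Pos (d1 + d2))) ≤ 96 * t := by
    rw [show Fintype.card (Pos (d1 + d2)) = 2 ^ (d1 + d2) by simp, Nat.cast_pow, Real.log_pow]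
    push_cast at hd1 hd0 ⊢
    nlinarith
  have c4 : (Fintype.card (Pos (d1 + d2)) : ℝ) * ((3 + Real.log (2 ^ (2 * t) : ℕ)) / (2 ^ (2 * t) : ℕ))
      ≤ u * (3 + 2 * t) := by
    rw [c2, Nat.cast_mul, mul_assoc, mul_div_cancel₀ _ (by positivity), Nat.cast_pow 2 (2 * t),
      Real.log_pow]
    refine mul_le_mul_of_nonneg_left ?_ (by linarith)
    push_cast
    nlinarith
  have c5 : (((5 : ℝ) / 4) ^ 2) ^ (2 ^ d1 + Fintype.card (Pos d2)) ≤ Real.exp (2 * u) := by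
    have : ((5 : ℝ) / 4) ^ 2 ≤ Real.exp 1 := by have := Real.add_one_le_exp 1; linarith
    refine (pow_le_pow_left₀ (by positivity) this _).trans ?_
    rw [← Real.exp_nat_mul, Real.exp_le_exp, c1, Nat.cast_add]
    linarith
  refine (mul_le_mul_of_nonneg_right c5 (Real.exp_pos _).le).trans ?_
  rw [← Real.exp_add, ← Real.exp_log (show (0 : ℝ) < 2 by norm_num), ← Real.exp_nat_mul,
    Real.exp_log (show (0 : ℝ) < 2 by norm_num), Real.exp_le_exp]
  have c6 : ((2 * (u * (7 + 98 * t)) : ℕ) : ℝ) = 2 * (u * (7 + 98 * t)) := by push_cast; ring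
  rw [c6]
  have c7 : (0 : ℝ) ≤ u * (7 + 98 * t) := by positivity
  nlinarith [mul_le_mul_of_nonneg_right u1 (show (0 : ℝ) ≤ 96 * t by positivity)]

lemma rec_step (d1 d2 Q s w K0 : ℕ) (hQ : 2 ≤ Q) (hw : 2 * Q ^ 2 * s ≤ w) (h30 : 30 ≤ w)
    (hr : 4 * Q + 8 * (d1 + d2) ≤ 2 * w * Q) (hK : 2 * (d1 + d2) + 4 + 3 * K0 ≤ s * K0)
    (h1 : 64 * w ≤ d1) (h2 : 2 * d1 ≤ d2) (h3 : d1 + d2 ≤ 384 * w) {k : ℝ} (hk : 2 ≤ k)
    (hk0 : K0 ≤ k) (n1 : NN d1 k ≤ 5 / 4) (n2 : NN d2 k ≤ 5 / 4) :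
    NN (d1 + d2) (k * Real.exp (49 / (d1 + d2 : ℕ))) ≤ 5 / 4 := by
  have g := grid_NN d1 d2 (4 * w) (by omega) (by omega) h2 (by omega) hk n1 n2
  set d := d1 + d2 with hd
  have hd0 : (0 : ℝ) < d := by exact_mod_cast (by omega : 0 < d)
  set k1 := k * (1 + 48 / (d : ℝ)) with hk1
  have hkk : k ≤ k1 := le_mul_of_one_le_right (by linarith) (by
    have : 0 ≤ 48 / (d : ℝ) := by positivity
    linarith)
  have mono : k1 + k1 / d ≤ k * Real.exp (49 / (d : ℝ)) := by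
    have a1 := Real.add_one_le_exp (48 / (d : ℝ))
    have a2 := Real.add_one_le_exp (1 / (d : ℝ))
    have a3 : k1 + k1 / d = k * ((48 / d + 1) * (1 / d + 1)) := by rw [hk1]; ring
    rw [a3, show 49 / (d : ℝ) = 48 / d + 1 / d by ring, Real.exp_add]
    gcongr
  refine (trp_BB_anti mono).trans ?_
  have q1 := sq_le_two_pow w h30
  have q2 := sq_le_two_pow (4 * w) (by omega)
  refine split_spec (by omega) (2 ^ (d - 4 * w - 2)) d K0 (by omega) (η := 8 * (1 / 2) ^ s)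
    (hk0.trans hkk) (one_le_pow₀ (by norm_num)) g ?_ (by positivity) ?_ ?_
  · rw [show (8 : ℝ) = 2 ^ 3 by norm_num, ← pow_add, ← pow_mul, ← pow_add]
    refine pow_le_pow_right₀ (by norm_num) ?_
    set u : ℕ := 2 ^ (d - 2 * (4 * w)) with hu
    have u1 : 1 ≤ u := Nat.one_le_two_pow
    have a1 : 4 * 2 ^ (d - 4 * w - 2) = u * 2 ^ (4 * w) := by
      rw [hu, ← pow_add, show 4 = 2 ^ 2 by rfl, ← pow_add]; congr 1; omega
    have a2 : 4 * (2 * (7 + 98 * (4 * w)) + (3 + 2 * (7 + 98 * (4 * w))) * d)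
        ≤ 84000 * (4 * w) ^ 2 := by
      have : (3 + 2 * (7 + 98 * (4 * w))) * d ≤ (3 + 2 * (7 + 98 * (4 * w))) * (384 * w) :=
        Nat.mul_le_mul_left _ h3
      nlinarith
    have a3 := Nat.mul_le_mul_left u (a2.trans q2)
    have a4 : 3 * d ≤ u * (3 * d) := Nat.le_mul_of_pos_left _ u1
    nlinarith
  · rw [mul_pow, ← pow_mul, show (8 : ℝ) = 2 ^ 3 by norm_num, show (4 : ℝ) = 2 ^ 2 by norm_num,
      _root_.one_div_pow, ← pow_mul, ← pow_mul, ← mul_assoc, ← pow_add, mul_one_div,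
      div_le_div_iff₀ (by positivity) (by norm_num), show (16 : ℝ) = 2 ^ 4 by norm_num, ← pow_add,
      one_mul]
    exact pow_le_pow_right₀ (by norm_num) (by omega)
  · intro j hj v lam hv hJ hn
    refine low_eigen j Q (2 * w) hQ hr (by positivity) (pow_le_one₀ (by norm_num) (by norm_num))
      ?_ hv hJ hn
    rw [← pow_mul, _root_.one_div_pow, one_div_mul_eq_div, le_div_iff₀ (by positivity)]
    have a1 : j + 1 ≤ 2 ^ (d - 4 * w) := by
      have : 4 * 2 ^ (d - 4 * w - 2) = 2 ^ (d - 4 * w) := by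
        rw [show 4 = 2 ^ 2 by rfl, ← pow_add]; congr 1; omega
      omega
    have a2 : d * 2 ≤ 2 ^ w := by nlinarith
    have a3 : 2 ^ (s * (2 * Q ^ 2)) ≤ 2 ^ w := Nat.pow_le_pow_right (by norm_num) (by linarith)
    have a4 : (j + 1) * d * 2 ^ (d + 1) * 2 ^ (s * (2 * Q ^ 2)) ≤ 2 ^ (2 * d - 2 * w) := by
      calc _ = (j + 1) * (d * 2) * 2 ^ d * 2 ^ (s * (2 * Q ^ 2)) := by rw [pow_succ]; ring
        _ ≤ 2 ^ (d - 4 * w) * 2 ^ w * 2 ^ d * 2 ^ w := by gcongr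
        _ = _ := by rw [← pow_add, ← pow_add, ← pow_add]; congr 1; omega
    exact_mod_cast a4

theorem NN_bound : ∃ K : ℝ, ∀ d, 1 ≤ d → NN d K ≤ 5 / 4 := by
  obtain ⟨d0, K0, hd0, step⟩ : ∃ d0 K0 : ℕ, 3 ≤ d0 ∧ ∀ d, d0 ≤ d → ∀ k : ℝ, 2 ≤ k → K0 ≤ k →
      NN (d / 3) k ≤ 5 / 4 → NN (d - d / 3) k ≤ 5 / 4 → NN d (k * Real.exp (49 / d)) ≤ 5 / 4 := by
    refine ⟨192 * 33554432 * 7, 33554432 * 4000, by norm_num, fun d hd k hk hk0 n1 n2 => ?_⟩
    obtain ⟨s, hs⟩ : ∃ s, s = d / (192 * 33554432) := ⟨_, rfl⟩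
    have := rec_step (d / 3) (d - d / 3) 4096 s (33554432 * s) (33554432 * 4000) (by norm_num)
      (by norm_num) (by omega) (by omega) (by omega) (by omega) (by omega) (by omega) hk hk0 n1 n2
    rwa [show d / 3 + (d - d / 3) = d by omega] at this
  choose kb hkb using base_case
  set K1 : ℝ := 2 + K0 + ∑ d ∈ range d0, |kb d| with hK1
  have s0 : 0 ≤ ∑ d ∈ range d0, |kb d| := Finset.sum_nonneg fun _ _ => abs_nonneg _
  have k0 : (0 : ℝ) ≤ K0 := Nat.cast_nonneg _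
  have ge1 : ∀ d : ℕ, 1 ≤ d → K1 ≤ K1 * Real.exp (196 - 196 / d) := by
    intro d hd
    have : (1 : ℝ) ≤ d := by exact_mod_cast hd
    refine le_mul_of_one_le_right (by linarith) (Real.one_le_exp ?_)
    rw [sub_nonneg]; exact div_le_self (by norm_num) this
  have key : ∀ d : ℕ, 1 ≤ d → NN d (K1 * Real.exp (196 - 196 / d)) ≤ 5 / 4 := by
    intro d
    induction d using Nat.strong_induction_on with
    | _ d ih =>
      intro hd
      rcases Nat.lt_or_ge d d0 with h | h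
      · refine (trp_BB_anti (le_trans ?_ (ge1 d hd))).trans (hkb d)
        have := Finset.single_le_sum (f := fun d => |kb d|) (fun _ _ => abs_nonneg _)
          (Finset.mem_range.mpr h)
        linarith [le_abs_self (kb d)]
      · have i1 := ih (d / 3) (by omega) (by omega)
        have i2 := ih (d - d / 3) (by omega) (by omega)
        have g2 := ge1 (d - d / 3) (by omega)
        have p1 : (0 : ℝ) < (d / 3 : ℕ) := by exact_mod_cast (by omega : 0 < d / 3)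
        have p2 : ((d / 3 : ℕ) : ℝ) ≤ (d - d / 3 : ℕ) := by exact_mod_cast (by omega)
        have p3 : ((d - d / 3 : ℕ) : ℝ) ≤ 4 * (d / 3 : ℕ) := by exact_mod_cast (by omega)
        have p4 : (d : ℝ) = (d / 3 : ℕ) + (d - d / 3 : ℕ) := by exact_mod_cast (by omega)
        refine (trp_BB_anti ?_).trans (step d h _ (by linarith) (by linarith)
          ((trp_BB_anti ?_).trans i1) i2)
        · rw [mul_assoc, ← Real.exp_add]
          refine mul_le_mul_of_nonneg_left (Real.exp_le_exp.mpr ?_) (by linarith)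
          generalize ((d / 3 : ℕ) : ℝ) = x at *
          generalize ((d - d / 3 : ℕ) : ℝ) = y at *
          have : 196 / (d : ℝ) + 49 / d ≤ 196 / y := by
            rw [← add_div, div_le_div_iff₀ (by linarith) (by linarith), p4]; linarith
          linarith
        · refine mul_le_mul_of_nonneg_left (Real.exp_le_exp.mpr ?_) (by linarith)
          have := div_le_div_of_nonneg_left (show (0 : ℝ) ≤ 196 by norm_num) p1 p2
          linarith
  refine ⟨K1 * Real.exp 196, fun d hd => (trp_BB_anti ?_).trans (key d hd)⟩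
  refine mul_le_mul_of_nonneg_left (Real.exp_le_exp.mpr ?_) (by linarith)
  have : (0 : ℝ) ≤ 196 / d := by positivity
  linarith

end Vale.Agent.P162
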