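import Vale.Agent.P162.Basic

/-! Sequential conditional probabilities of a random permutation. -/

set_option linter.unusedSectionVars false

namespace Vale.Agent.P162

open Finset

lemma sum_inj_le {Ω Ω' : Type} [Fintype Ω] [Fintype Ω'] (ι : Ω → Ω') (hι : Function.Injective ι)
    (g : Ω' → ℝ) (hg : ∀ x, 0 ≤ g x) : ∑ ω, g (ι ω) ≤ ∑ x, g x := by
  classical
  rw [← Finset.sum_image (s := univ) (g := ι) (f := g) (fun a _ b _ h => hι h)]
  exact Finset.sum_le_sum_of_subset_of_nonneg (Finset.subset_univ _) fun x _ _ => hg x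

variable {α : Type} [Fintype α] [DecidableEq α] {m : ℕ}

lemma card_lt (e : α ≃ Fin m) (i : Fin m) : (univ.filter fun a => (e a : ℕ) < i).card = i := by
  rw [← Fin.card_Iio i]
  refine Finset.card_bij (fun a _ => e a) ?_ ?_ ?_
  · intro a ha; simpa using ha
  · intro a _ b _ h; exact e.injective h
  · intro b hb; exact ⟨e.symm b, by simpa using hb, by simp⟩

lemma prod_sub (e : α ≃ Fin m) : ∏ a, ((m : ℝ) - (e a : ℕ)) = m.factorial := by
  rw [Equiv.prod_comp e (fun i => (m : ℝ) - (i : ℕ)), ← Equiv.prod_comp Fin.revPerm,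
    ← Finset.prod_range_add_one_eq_factorial, Finset.prod_range]
  push_cast
  refine Finset.prod_congr rfl fun i _ => ?_
  have := i.2
  simp only [Fin.revPerm_apply, Fin.val_rev]
  rw [Nat.cast_sub (by omega)]; push_cast; ring

noncomputable def mass (ν : Equiv.Perm α → ℝ) (e : α ≃ Fin m) (j : ℕ) (φ : α → α) : ℝ :=
  ∑ σ : Equiv.Perm α, if ∀ a, (e a : ℕ) < j → σ a = φ a then ν σ else 0

noncomputable def cq (ν : Equiv.Perm α → ℝ) (e : α ≃ Fin m) (a : α) (φ : α → α) (y : α) : ℝ :=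
  mass ν e (e a + 1) (Function.update φ a y) / mass ν e (e a) φ

variable {ν : Equiv.Perm α → ℝ} (e : α ≃ Fin m)

lemma mass_nonneg (h0 : ∀ σ, 0 ≤ ν σ) (j : ℕ) (φ : α → α) : 0 ≤ mass ν e j φ :=
  Finset.sum_nonneg fun σ _ => by split_ifs; exacts [h0 σ, le_rfl]

lemma mass_congr {j : ℕ} {φ ψ : α → α} (h : ∀ a, (e a : ℕ) < j → φ a = ψ a) :
    mass ν e j φ = mass ν e j ψ := by
  refine Finset.sum_congr rfl fun σ _ => if_congr ?_ rfl rfl
  exact forall_congr' fun a => forall_congr' fun ha => by rw [h a ha]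

lemma agree_succ (σ : Equiv.Perm α) (a : α) (φ : α → α) (y : α) :
    (∀ b, (e b : ℕ) < e a + 1 → σ b = Function.update φ a y b)
      ↔ (∀ b, (e b : ℕ) < e a → σ b = φ b) ∧ σ a = y := by
  constructor
  · intro h
    refine ⟨fun b hb => ?_, by simpa using h a (by omega)⟩
    have : b ≠ a := by rintro rfl; omega
    simpa [this] using h b (by omega)
  · rintro ⟨h1, h2⟩ b hb
    by_cases hba : b = a
    · subst hba; simpa using h2
    · have : (e b : ℕ) ≠ e a := fun h => hba (e.injective (Fin.ext h))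
      simpa [hba] using h1 b (by omega)

lemma sum_mass (a : α) (φ : α → α) :
    ∑ y, mass ν e (e a + 1) (Function.update φ a y) = mass ν e (e a) φ := by
  unfold mass
  rw [Finset.sum_comm]
  refine Finset.sum_congr rfl fun σ _ => ?_
  simp_rw [agree_succ]
  by_cases h : ∀ b, (e b : ℕ) < e a → σ b = φ b
  · rw [if_pos h, Finset.sum_eq_single (σ a), if_pos ⟨h, rfl⟩]
    · intro y _ hy; exact if_neg fun h => hy h.2.symm
    · simp
  · rw [if_neg h]; exact Finset.sum_eq_zero fun y _ => if_neg fun h' => h h'.1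

lemma cq_nonneg (h0 : ∀ σ, 0 ≤ ν σ) (a : α) (φ : α → α) (y : α) : 0 ≤ cq ν e a φ y :=
  div_nonneg (mass_nonneg e h0 _ _) (mass_nonneg e h0 _ _)

lemma cq_sum_le (a : α) (φ : α → α) : ∑ y, cq ν e a φ y ≤ 1 := by
  unfold cq
  rw [← Finset.sum_div, sum_mass]
  exact div_self_le_one _

lemma cq_congr (a : α) {φ ψ : α → α} (h : ∀ b, (e b : ℕ) < e a → φ b = ψ b) (y : α) :
    cq ν e a φ y = cq ν e a ψ y := by
  unfold cq
  rw [mass_congr e h]
  congr 1
  refine mass_congr e fun b hb => ?_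
  by_cases hba : b = a
  · subst hba; simp
  · have : (e b : ℕ) ≠ e a := fun h => hba (e.injective (Fin.ext h))
    simpa [hba] using h b (by omega)

lemma mass_pos (h0 : ∀ σ, 0 ≤ ν σ) {σ : Equiv.Perm α} (hσ : 0 < ν σ) (j : ℕ) :
    0 < mass ν e j σ := by
  refine hσ.trans_le ?_
  have := Finset.single_le_sum (f := fun τ : Equiv.Perm α =>
    if ∀ a, (e a : ℕ) < j → τ a = σ a then ν τ else 0)
    (fun τ _ => by split_ifs; exacts [h0 τ, le_rfl]) (Finset.mem_univ σ)
  simpa [mass] using this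

lemma cq_sum_eq (h0 : ∀ σ, 0 ≤ ν σ) {σ : Equiv.Perm α} (hσ : 0 < ν σ) (a : α) :
    ∑ y, cq ν e a σ y = 1 := by
  unfold cq
  rw [← Finset.sum_div, sum_mass]
  exact div_self (mass_pos e h0 hσ _).ne'

lemma cq_self (σ : Equiv.Perm α) (a : α) :
    cq ν e a σ (σ a) = mass ν e (e a + 1) σ / mass ν e (e a) σ := by
  unfold cq; simp

lemma cq_pos (h0 : ∀ σ, 0 ≤ ν σ) {σ : Equiv.Perm α} (hσ : 0 < ν σ) (a : α) :
    0 < cq ν e a σ (σ a) := by
  rw [cq_self]; exact div_pos (mass_pos e h0 hσ _) (mass_pos e h0 hσ _)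

lemma prod_cq (h0 : ∀ σ, 0 ≤ ν σ) (h1 : ∑ σ, ν σ = 1) {σ : Equiv.Perm α} (hσ : 0 < ν σ) :
    ∏ a, cq ν e a σ (σ a) = ν σ := by
  simp_rw [cq_self]
  rw [Equiv.prod_comp e (fun i => mass ν e ((i : ℕ) + 1) σ / mass ν e (i : ℕ) σ),
    ← Finset.prod_range (fun i => mass ν e (i + 1) σ / mass ν e i σ)]
  have : ∀ k, ∏ i ∈ range k, mass ν e (i + 1) σ / mass ν e i σ = mass ν e k σ := by
    intro k
    induction k with
    | zero => simp [mass, h1]
    | succ k ih =>
      rw [Finset.prod_range_succ, ih]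
      have := (mass_pos e h0 hσ k).ne'
      field_simp
  rw [this]
  unfold mass
  rw [Finset.sum_eq_single σ]
  · simp
  · intro τ _ hτ
    rw [if_neg]
    intro h; exact hτ (Equiv.ext fun a => h a (e a).2)
  · simp

lemma cq_supp (a : α) (φ : α → α) :
    ((univ.filter fun y => 0 < cq ν e a φ y).card : ℝ) ≤ m - (e a : ℕ) := by
  have ex : ∀ y, 0 < cq ν e a φ y →
      ∃ σ : Equiv.Perm α, (∀ b, (e b : ℕ) < e a → σ b = φ b) ∧ σ a = y := by
    intro y hy
    by_contra hc
    have : mass ν e (e a + 1) (Function.update φ a y) = 0 := by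
      refine Finset.sum_eq_zero fun σ _ => if_neg ?_
      rw [agree_succ]; exact fun h => hc ⟨σ, h⟩
    simp [cq, this] at hy
  have hm : ((e a : ℕ) : ℝ) ≤ m := by exact_mod_cast (e a).2.le
  rcases (univ.filter fun y => 0 < cq ν e a φ y).eq_empty_or_nonempty with h | ⟨y0, hy0⟩
  · rw [h]; simpa using hm
  obtain ⟨σ0, h0, -⟩ := ex y0 (by simpa using hy0)
  have sub : (univ.filter fun y => 0 < cq ν e a φ y)
      ⊆ ((univ.filter fun b => (e b : ℕ) < e a).image σ0)ᶜ := by
    intro y hy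
    obtain ⟨σ, h1, h2⟩ := ex y (by simpa using hy)
    simp only [mem_compl, mem_image, mem_filter, mem_univ, true_and, not_exists, not_and]
    intro b hb h3
    have : σ b = σ a := by rw [h1 b hb, ← h0 b hb, h3, h2]
    rw [σ.injective this] at hb; omega
  have := Finset.card_le_card sub
  rw [Finset.card_compl, Finset.card_image_of_injective _ σ0.injective, card_lt,
    Fintype.card_congr e, Fintype.card_fin] at this
  rw [← Nat.cast_sub (e a).2.le]
  exact_mod_cast this

lemma row_cnt (h0 : ∀ σ, 0 ≤ ν σ) (h1 : ∑ σ, ν σ = 1) {L lam : ℝ} (hL : 2 ≤ L)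
    (hlam : Real.exp lam = L ^ 2) (hm : L ^ 8 ≤ m) :
    ∑ σ, ν σ * (lam * (∑ a, if 1 / L ^ 2 < cq ν e a σ (σ a) ∧ m / L ^ 2 < m - (e a : ℕ)
      then 1 else 0) - Real.log (ν σ)) ≤ Real.log m.factorial + m / L ^ 2 := by
  have hL0 : 0 < L := by linarith
  have hm0 : (0 : ℝ) < m := lt_of_lt_of_le (by positivity) hm
  have hN : ∀ a, (0 : ℝ) < m - (e a : ℕ) := fun a => by
    have : ((e a : ℕ) : ℝ) < m := by exact_mod_cast (e a).2
    linarith
  have : Nonempty α := ⟨e.symm ⟨0, by exact_mod_cast hm0⟩⟩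
  set g : α → (α → α) → α → ℝ := fun a φ y => (if 0 < cq ν e a φ y then
    Real.exp (lam * if 1 / L ^ 2 < cq ν e a φ y ∧ m / L ^ 2 < m - (e a : ℕ) then 1 else 0) else 0)
      / ((m - (e a : ℕ)) * (1 + 1 / L ^ 2)) with hg
  have g0 : ∀ a φ y, 0 ≤ g a φ y := fun a φ y =>
    div_nonneg (by split_ifs <;> positivity) (mul_nonneg (hN a).le (by positivity))
  have gc : ∀ a (φ ψ : α → α) y, (∀ b, (e b : ℕ) < e a → φ b = ψ b) → g a φ y = g a ψ y := by
    intro a φ ψ y h
    simp only [hg, cq_congr e a h]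
  have rb := rank_bound (fun a => (e a : ℕ)) (fun a φ => g a φ (φ a)) (fun a φ => g0 _ _ _)
    (fun a j φ y hj hle => by
      rw [Function.update_of_ne hj.symm]
      refine gc _ _ _ _ fun b hb => Function.update_of_ne ?_ _ _
      rintro rfl; omega)
    (fun a φ => by
      have : ∀ y, g a (Function.update φ a y) (Function.update φ a y a) = g a φ y := by
        intro y
        rw [Function.update_self]
        refine gc _ _ _ _ fun b hb => Function.update_of_ne ?_ _ _
        rintro rfl; omega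
      simp_rw [this]
      simp only [hg]
      rw [← Finset.sum_div, div_le_one (mul_pos (hN a) (by positivity))]
      have s1 := cq_supp (ν := ν) e a φ
      rw [Finset.card_filter] at s1
      push_cast at s1
      by_cases hb : m / L ^ 2 < m - (e a : ℕ)
      · have s2 : ∀ y, (if 0 < cq ν e a φ y then Real.exp (lam * if 1 / L ^ 2 < cq ν e a φ y ∧
            m / L ^ 2 < m - (e a : ℕ) then 1 else 0) else 0)
            ≤ (if 0 < cq ν e a φ y then 1 else 0) + L ^ 4 * cq ν e a φ y := by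
          intro y
          have := cq_nonneg e h0 a φ y
          split_ifs with c1 c2
          · rw [mul_one, hlam]
            have := c2.1
            rw [div_lt_iff₀ (by positivity)] at this
            nlinarith [mul_le_mul_of_nonneg_left this.le (sq_nonneg L)]
          · simp; positivity
          · positivity
        refine (Finset.sum_le_sum fun y _ => s2 y).trans ?_
        rw [Finset.sum_add_distrib, ← Finset.mul_sum]
        have s3 := cq_sum_le (ν := ν) e a φ
        have s4 : L ^ 4 ≤ (m - (e a : ℕ)) * (1 / L ^ 2) := by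
          rw [div_lt_iff₀ (by positivity)] at hb
          rw [mul_one_div, le_div_iff₀ (by positivity)]
          have : L ^ 4 * L ^ 2 * L ^ 2 ≤ (m - (e a : ℕ)) * L ^ 2 := by nlinarith
          exact le_of_mul_le_mul_right this (by positivity)
        nlinarith [mul_le_mul_of_nonneg_left s3 (show 0 ≤ L ^ 4 by positivity)]
      · simp only [hb, and_false, if_false, mul_zero, Real.exp_zero]
        nlinarith [mul_nonneg (hN a).le (show 0 ≤ 1 / L ^ 2 by positivity)])
  have rb2 := (sum_inj_le (fun σ : Equiv.Perm α => (σ : α → α)) DFunLike.coe_injective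
    (fun φ => ∏ a, g a φ (φ a)) (fun φ => Finset.prod_nonneg fun a _ => g0 _ _ _)).trans rb
  have gp : ∀ σ : Equiv.Perm α, 0 < ν σ → ∀ a, g a σ (σ a) = Real.exp (lam *
      if 1 / L ^ 2 < cq ν e a σ (σ a) ∧ m / L ^ 2 < m - (e a : ℕ) then 1 else 0)
      / ((m - (e a : ℕ)) * (1 + 1 / L ^ 2)) := by
    intro σ hσ a
    simp only [hg, if_pos (cq_pos e h0 hσ a)]
  have gb := gibbs ν _ h0 h1 (fun σ => Finset.prod_nonneg fun a _ => g0 _ _ _) rb2
    (fun σ hσ => Finset.prod_pos fun a _ => by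
      rw [gp σ hσ]; exact div_pos (Real.exp_pos _) (mul_pos (hN a) (by positivity)))
  have fin : ∀ σ, ν σ * (lam * (∑ a, if 1 / L ^ 2 < cq ν e a σ (σ a) ∧ m / L ^ 2 < m - (e a : ℕ)
      then 1 else 0) - Real.log (ν σ)) ≤ ν σ * (Real.log (∏ a, g a σ (σ a)) - Real.log (ν σ))
        + ν σ * (Real.log m.factorial + m / L ^ 2) := by
    intro σ
    rcases (h0 σ).eq_or_lt with h | h
    · simp [← h]
    rw [← mul_add]
    refine mul_le_mul_of_nonneg_left ?_ h.le
    simp_rw [gp σ h]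
    rw [Finset.prod_div_distrib, Finset.prod_mul_distrib, prod_sub, ← Real.exp_sum,
      Real.log_div (Real.exp_pos _).ne' (by positivity), Real.log_exp, Finset.prod_const,
      Finset.card_univ, Fintype.card_congr e, Fintype.card_fin,
      Real.log_mul (by positivity) (by positivity), Real.log_pow, ← Finset.mul_sum]
    have := Real.log_le_sub_one_of_pos (show 0 < 1 + 1 / L ^ 2 by positivity)
    have h2 := mul_le_mul_of_nonneg_left this hm0.le
    have h3 : (m : ℝ) * (1 + 1 / L ^ 2 - 1) = m / L ^ 2 := by ring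
    linarith
  refine (Finset.sum_le_sum fun σ _ => fin σ).trans ?_
  rw [Finset.sum_add_distrib, ← Finset.sum_mul, h1]
  linarith

theorem row_bound (h0 : ∀ σ, 0 ≤ ν σ) (h1 : ∑ σ, ν σ = 1) {L lam A : ℝ} (hL : 2 ≤ L)
    (hlam : Real.exp lam = L ^ 2) (hm : L ^ 8 ≤ m) (u : Equiv.Perm α → ℝ) (u0 : ∀ σ, 0 ≤ u σ)
    (up : ∀ σ, 0 < ν σ → 0 < u σ)
    (hu : ((∑ σ, u σ ^ (1 / (1 - 1 / lam))) / m.factorial) ^ (1 - 1 / lam) ≤ A) :
    ∑ σ, ν σ * (Real.log (u σ) - Real.log (ν σ) + ∑ a, min 1 (L * cq ν e a σ (σ a)))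
      ≤ Real.log (m.factorial * A) + 2 * m / L := by
  have hL0 : 0 < L := by linarith
  have hm0 : (0 : ℝ) < m := lt_of_lt_of_le (by positivity) hm
  have hl1 : 1 < lam := by
    rw [← Real.exp_lt_exp, hlam]
    have := Real.exp_one_lt_d9
    nlinarith
  set th := 1 - 1 / lam with hth
  have hth0 : 0 < th := by
    rw [hth, sub_pos, div_lt_one (by linarith)]; exact hl1
  set S := ∑ σ, u σ ^ (1 / th) with hS
  obtain ⟨σ0, hσ0⟩ : ∃ σ, 0 < ν σ := by
    by_contra hc
    have : ∑ σ, ν σ ≤ 0 := Finset.sum_nonpos fun σ _ => not_lt.mp fun h => hc ⟨σ, h⟩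
    linarith
  have hS0 : 0 < S := Finset.sum_pos' (fun σ _ => Real.rpow_nonneg (u0 σ) _)
    ⟨σ0, Finset.mem_univ _, Real.rpow_pos_of_pos (up σ0 hσ0) _⟩
  have gb := gibbs ν (fun σ => u σ ^ (1 / th) / S) h0 h1
    (fun σ => div_nonneg (Real.rpow_nonneg (u0 σ) _) hS0.le)
    (by rw [← Finset.sum_div]; exact div_self_le_one _)
    (fun σ hσ => div_pos (Real.rpow_pos_of_pos (up σ hσ) _) hS0)
  have rc := row_cnt e h0 h1 hL hlam hm
  have hf : (0 : ℝ) < m.factorial := by positivity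
  have hA := Real.log_le_log (Real.rpow_pos_of_pos (div_pos hS0 hf) _) hu
  have hA0 : 0 < A := lt_of_lt_of_le (Real.rpow_pos_of_pos (div_pos hS0 hf) _) hu
  rw [Real.log_rpow (div_pos hS0 hf), Real.log_div hS0.ne' hf.ne'] at hA
  have small : (∑ a, if m / L ^ 2 < (m : ℝ) - (e a : ℕ) then (0 : ℝ) else 1) ≤ m / L ^ 2 := by
    rw [Equiv.sum_comp e (fun i => if m / L ^ 2 < (m : ℝ) - (i : ℕ) then (0 : ℝ) else 1),
      ← Equiv.sum_comp Fin.revPerm]
    have : ∀ i : Fin m, (if m / L ^ 2 < (m : ℝ) - (Fin.revPerm i : ℕ) then (0 : ℝ) else 1)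
        = if (i : ℕ) ∈ range ⌊m / L ^ 2⌋₊ then 1 else 0 := by
      intro i
      have := i.2
      simp only [Fin.revPerm_apply, Fin.val_rev, mem_range]
      rw [Nat.cast_sub (by omega)]
      have q : (i : ℕ) < ⌊m / L ^ 2⌋₊ ↔ (i : ℝ) + 1 ≤ m / L ^ 2 := by
        rw [Nat.lt_iff_add_one_le, Nat.le_floor_iff (by positivity)]; push_cast; rfl
      push_cast
      by_cases h : (i : ℝ) + 1 ≤ m / L ^ 2
      · rw [if_pos (q.mpr h), if_neg (by linarith)]
      · rw [if_neg (mt q.mp h), if_pos (by linarith)]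
    simp_rw [this]
    rw [← Finset.sum_range (fun i => if i ∈ range ⌊m / L ^ 2⌋₊ then (1 : ℝ) else 0),
      Finset.sum_ite_mem, Finset.sum_const, nsmul_eq_mul, mul_one]
    refine le_trans ?_ (Nat.floor_le (by positivity))
    exact_mod_cast (Finset.card_le_card Finset.inter_subset_right).trans (Finset.card_range _).le
  have fin : ∀ σ, ν σ * (Real.log (u σ) - Real.log (ν σ) + ∑ a, min 1 (L * cq ν e a σ (σ a)))
      ≤ th * (ν σ * (Real.log (u σ ^ (1 / th) / S) - Real.log (ν σ)))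
        + (1 / lam) * (ν σ * (lam * (∑ a, if 1 / L ^ 2 < cq ν e a σ (σ a)
          ∧ m / L ^ 2 < m - (e a : ℕ) then 1 else 0) - Real.log (ν σ)))
        + ν σ * (th * Real.log S + m / L + m / L ^ 2) := by
    intro σ
    rcases (h0 σ).eq_or_lt with h | h
    · simp [← h]
    have c1 : ∑ a, min 1 (L * cq ν e a σ (σ a)) ≤ (∑ a, if 1 / L ^ 2 < cq ν e a σ (σ a)
          ∧ m / L ^ 2 < m - (e a : ℕ) then 1 else 0) + m / L + m / L ^ 2 := by
      have : (m : ℝ) / L = ∑ a : α, 1 / L := by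
        rw [Finset.sum_const, Finset.card_univ, Fintype.card_congr e, Fintype.card_fin,
          nsmul_eq_mul]; ring
      refine le_trans ?_ (add_le_add le_rfl small)
      rw [this, ← Finset.sum_add_distrib, ← Finset.sum_add_distrib]
      refine Finset.sum_le_sum fun a _ => ?_
      have hp : 0 < 1 / L := by positivity
      by_cases d2 : m / L ^ 2 < (m : ℝ) - (e a : ℕ)
      · by_cases d1 : 1 / L ^ 2 < cq ν e a σ (σ a)
        · rw [if_pos ⟨d1, d2⟩, if_pos d2]; linarith [min_le_left 1 (L * cq ν e a σ (σ a))]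
        · rw [if_neg (fun h => d1 h.1), if_pos d2]
          refine (min_le_right _ _).trans ?_
          have : L * cq ν e a σ (σ a) ≤ L * (1 / L ^ 2) :=
            mul_le_mul_of_nonneg_left (not_lt.mp d1) hL0.le
          have e2 : L * (1 / L ^ 2) = 1 / L := by field_simp
          linarith
      · rw [if_neg (fun h => d2 h.2), if_neg d2]; linarith [min_le_left 1 (L * cq ν e a σ (σ a))]
    rw [Real.log_div (Real.rpow_pos_of_pos (up σ h) _).ne' hS0.ne', Real.log_rpow (up σ h)]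
    have e1 : th * (1 / th) = 1 := by field_simp
    have e2 : (1 / lam) * lam = 1 := by field_simp
    generalize (∑ a, if 1 / L ^ 2 < cq ν e a σ (σ a)
          ∧ m / L ^ 2 < (m : ℝ) - (e a : ℕ) then (1 : ℝ) else 0) = C at c1 ⊢
    have := mul_le_mul_of_nonneg_left c1 h.le
    have e3 : th * (ν σ * (1 / th * Real.log (u σ) - Real.log S - Real.log (ν σ)))
        + 1 / lam * (ν σ * (lam * C - Real.log (ν σ))) + ν σ * (th * Real.log S + m / L + m / L ^ 2)
        = ν σ * (Real.log (u σ) - Real.log (ν σ) + (C + m / L + m / L ^ 2)) := by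
      have : 1 / lam = 1 - th := by rw [hth]; ring
      calc _ = ν σ * ((th * (1 / th)) * Real.log (u σ) - (th + 1 / lam) * Real.log (ν σ)
          + (((1 / lam) * lam) * C + m / L + m / L ^ 2)) := by ring
        _ = _ := by rw [e1, e2, this]; ring
    rw [e3]
    nlinarith
  refine (Finset.sum_le_sum fun σ _ => fin σ).trans ?_
  rw [Finset.sum_add_distrib, Finset.sum_add_distrib, ← Finset.mul_sum, ← Finset.mul_sum,
    ← Finset.sum_mul, h1, Real.log_mul hf.ne' hA0.ne']
  have p1 := mul_le_mul_of_nonneg_left gb hth0.le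
  have hl : 0 < 1 / lam := by positivity
  have p2 := mul_le_mul_of_nonneg_left rc hl.le
  have p3 : (m : ℝ) / L ^ 2 * 2 ≤ m / L := by
    rw [div_mul_eq_mul_div, div_le_div_iff₀ (by positivity) hL0]
    nlinarith [mul_le_mul_of_nonneg_left hL (mul_pos hm0 hL0).le]
  have p4 : 0 ≤ th * (m / L ^ 2) := by positivity
  have p5 : 1 / lam = 1 - th := by rw [hth]; ring
  rw [p5] at p2 ⊢
  have p6 : 2 * (m : ℝ) / L = m / L + m / L := by ring
  nlinarith

end Vale.Agent.P162
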