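import Vale.Agent.P162.Cube
import Vale.Agent.P162.Colour

/-! The probability that every particle shares a switch. -/

set_option linter.unusedSectionVars false

namespace Vale.Agent.P162

open Finset

variable {d : ℕ}

lemma same_sw (ω : Coins d) {x x' : Pos d} {l : Fin d}
    (h : sw x (bfly ω x) l = sw x' (bfly ω x') l) (hl : x l = x' l) : x = x' := by
  have key : ∀ x : Pos d, bf ω l x = Function.update (sw x (bfly ω x) l) l (x l) := by
    intro x
    rw [bf_iff ω x l l.2.le]
    refine ⟨fun j hj => ?_, fun j hj => ?_⟩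
    · have hj' : j < l := hj
      rw [Function.update_of_ne hj'.ne]
      have : sw x (Function.update (sw x (bfly ω x) l) l (x l)) j = sw x (bfly ω x) j := by
        funext i
        simp only [sw]
        split_ifs with h1 h2
        · rw [Function.update_of_ne (h1.trans hj').ne]; simp [sw, h1.trans hj']
        · rfl
        · rfl
      rw [this, (bfly_iff ω x _).mp rfl j]; simp [sw, hj']
    · by_cases hjl : j = l
      · rw [hjl]; simp
      · have : ¬ j < l := not_lt.mpr hj
        simp [sw, hjl, this]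
  apply (bf ω l).injective
  rw [key, key, h, hl]

lemma three_sw (ω : Coins d) {x y z : Pos d} {l : Fin d} (hy : y ≠ x) (hz : z ≠ x)
    (h1 : sw x (bfly ω x) l = sw y (bfly ω y) l) (h2 : sw x (bfly ω x) l = sw z (bfly ω z) l) :
    y = z := by
  refine same_sw ω (h1.symm.trans h2) ?_
  have a1 : x l ≠ y l := fun h => hy (same_sw ω h1 h).symm
  have a2 : x l ≠ z l := fun h => hz (same_sw ω h2 h).symm
  revert a1 a2
  cases x l <;> cases y l <;> cases z l <;> simp

lemma once_sw (ω : Coins d) {x y : Pos d} {l l' : Fin d} (hy : y ≠ x)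
    (h1 : sw x (bfly ω x) l = sw y (bfly ω y) l) (h2 : sw x (bfly ω x) l' = sw y (bfly ω y) l') :
    l = l' := by
  have key : ∀ l l' : Fin d, sw x (bfly ω x) l = sw y (bfly ω y) l →
      sw x (bfly ω x) l' = sw y (bfly ω y) l' → ¬ l < l' := by
    intro l l' h1 h2 hl
    have a1 : x l ≠ y l := fun h => hy (same_sw ω h1 h).symm
    have a2 := (bfly_iff ω x _).mp rfl l
    have a3 := (bfly_iff ω y _).mp rfl l
    have a4 := congrFun h2 l
    simp only [sw, if_pos hl] at a4
    rw [h1, a3, a4] at a2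
    revert a1 a2
    cases x l <;> cases y l <;> cases bfly ω y l <;> simp
  exact le_antisymm (not_lt.mp (key _ _ h2 h1)) (not_lt.mp (key _ _ h1 h2))

lemma card_sw (w : Pos d) (l : Fin d) :
    (univ.filter fun p : Pos d × Pos d => sw p.2 p.1 l = w).card ≤ 2 ^ (d + 1) := by
  have : Fintype.card (Pos d × Bool) = 2 ^ (d + 1) := by simp [pow_succ]
  rw [← this, ← Finset.card_univ]
  refine Finset.card_le_card_of_injOn
    (fun p => (fun j => if j < l then p.2 j else p.1 j, p.2 l)) (by simp) ?_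
  rintro ⟨y, z⟩ h1 ⟨y', z'⟩ h2 h
  simp only [coe_filter, mem_univ, true_and, Set.mem_ofPred_eq] at h1 h2
  simp only [Prod.mk.injEq] at h ⊢
  have h3 := h1.trans h2.symm
  refine ⟨funext fun j => ?_, funext fun j => ?_⟩
  · have a1 := congrFun h.1 j
    have a2 := congrFun h3 j
    by_cases hj : j < l
    · simpa [sw, hj] using a2
    · simpa [hj] using a1
  · have a1 := congrFun h.1 j
    have a2 := congrFun h3 j
    by_cases hj : j < l
    · simpa [hj] using a1
    · by_cases hjl : j = l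
      · rw [hjl]; exact h.2
      · simpa [sw, hj, hjl] using a2

/-- every particle shares a switch with another one -/
def AllSh {τ : Type} (z y : τ → Pos d) : Prop :=
  ∀ t, ∃ s, s ≠ t ∧ ∃ l, sw (z t) (y t) l = sw (z s) (y s) l

open Classical in
theorem share_bound {κ τ : Type} [Fintype κ] [DecidableEq κ] [Fintype τ] [DecidableEq τ]
    (k1 : κ) (gr : τ → κ) (hgr : ∀ t, gr t ≠ k1) (x : τ → Pos d) (hx : Function.Injective x)
    (Q r : ℕ) (hQ : 2 ≤ Q) (hr : 4 * Q + 8 * d ≤ r * Q) {θ : ℝ} (h0 : 0 ≤ θ) (h1 : θ ≤ 1)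
    (hθ : (Fintype.card τ * d * 2 ^ (d + 1) : ℝ) ≤ θ ^ (2 * Q ^ 2) * 2 ^ (2 * d - r)) :
    ((univ.filter fun ω : κ → Coins d => AllSh (fun t => (bfly (ω (gr t)))⁻¹ (bfly (ω k1) (x t)))
      (fun t => bfly (ω k1) (x t))).card : ℝ)
      ≤ (4 * θ) ^ Fintype.card τ * Fintype.card (κ → Coins d) := by
  set cu : (κ × Fin d × Pos d → Bool) ≃ (κ → Coins d) :=
    (Equiv.curry _ _ _).trans (Equiv.piCongrRight fun _ => Equiv.curry _ _ _) with hcu
  have cua : ∀ ω k l p, cu ω k l p = ω (k, l, p) := fun _ _ _ _ => rfl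
  set C : (κ × Fin d × Pos d → Bool) → τ → Pos d × Pos d := fun ω t =>
    (bfly (cu ω k1) (x t), (bfly (cu ω (gr t)))⁻¹ (bfly (cu ω k1) (x t))) with hC
  set ar : τ → Bool → κ := fun t β => if β then gr t else k1 with har
  set st : τ → Pos d × Pos d → Bool → Pos d := fun t p β => if β then p.2 else x t with hst
  set jm : τ → Pos d × Pos d → Bool × Fin d → κ × Fin d × Pos d := fun t p u =>
    (ar t u.1, u.2, sw (st t p u.1) p.1 u.2) with hjm
  have arinj : ∀ t s β β', ar t β = ar s β' → β = β' := by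
    intro t s β β' h
    cases β <;> cases β' <;> simp [har] at h ⊢
    exacts [hgr s h.symm, hgr t h]
  have jinj : ∀ t p, Function.Injective (jm t p) := by
    rintro t p ⟨β, l⟩ ⟨β', l'⟩ h
    simp only [hjm, Prod.mk.injEq] at h ⊢
    exact ⟨arinj _ _ _ _ h.1, h.2.1⟩
  set J : τ → Pos d × Pos d → Finset (κ × Fin d × Pos d) := fun t p => univ.image (jm t p) with hJ
  have Cb : ∀ ω t β, bfly (cu ω (ar t β)) (st t (C ω t) β) = (C ω t).1 := by
    intro ω t β
    cases β <;> simp [har, hst, hC]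
  have Ciff : ∀ ω t p, C ω t = p ↔ ∀ β, bfly (cu ω (ar t β)) (st t p β) = p.1 := by
    intro ω t p
    refine ⟨fun h => h ▸ Cb ω t, fun h => ?_⟩
    have a1 := h false
    have a2 := h true
    simp only [har, hst, Bool.false_eq_true, if_false, if_true] at a1 a2
    refine Prod.ext a1 ?_
    simp only [hC]
    rw [a1, ← a2]; simp
  have hCJ : ∀ ω ω' t, C ω' t = C ω t ↔ ∀ j ∈ J t (C ω t), ω' j = ω j := by
    intro ω ω' t
    rw [Ciff]
    simp only [hJ, Finset.forall_mem_image, Finset.mem_univ, forall_true_left]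
    rw [Prod.forall]
    simp only [bfly_iff]
    refine forall₂_congr fun β l => ?_
    rw [← (bfly_iff _ _ _).mp (Cb ω t β) l]
    rfl
  have stne : ∀ ω t s β, s ≠ t → ar t β = ar s β → st s (C ω s) β ≠ st t (C ω t) β := by
    intro ω t s β hs ha h
    have a1 := Cb ω t β
    have a2 := Cb ω s β
    rw [ha, ← h, a2] at a1
    exact hs (hx ((bfly (cu ω k1)).injective a1))
  have shr : ∀ ω t s u, jm t (C ω t) u ∈ J s (C ω s) → ar t u.1 = ar s u.1 ∧
      sw (st t (C ω t) u.1) (bfly (cu ω (ar t u.1)) (st t (C ω t) u.1)) u.2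
        = sw (st s (C ω s) u.1) (bfly (cu ω (ar t u.1)) (st s (C ω s) u.1)) u.2 := by
    rintro ω t s ⟨β, l⟩ h
    obtain ⟨⟨β', l'⟩, -, h⟩ := Finset.mem_image.mp h
    simp only [hjm, Prod.mk.injEq] at h
    obtain ⟨a1, rfl, a3⟩ := h
    obtain rfl := arinj _ _ _ _ a1
    refine ⟨a1.symm, ?_⟩
    rw [Cb, ← a1, Cb, a3]
  set good : Finset τ → (τ → Pos d × Pos d) → Finset (Pos d × Pos d) := fun Bl c =>
    (Bl ×ˢ (univ : Finset (Fin d))).biUnion fun q => univ.filter fun p =>
      sw p.2 p.1 q.2 = sw (c q.1).2 (c q.1).1 q.2 with hgood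
  set G := Fintype.card τ * d * 2 ^ (d + 1) with hG
  have gG : ∀ Bl c, (good Bl c).card ≤ G := by
    intro Bl c
    refine (Finset.card_biUnion_le_card_mul _ _ _ fun q _ => card_sw _ _).trans ?_
    rw [Finset.card_product, Finset.card_univ, Fintype.card_fin]
    exact Nat.mul_le_mul_right _ (Nat.mul_le_mul_right _ (Finset.card_le_univ _))
  set E : Finset τ × Finset τ → Finset (κ × Fin d × Pos d → Bool) := fun q =>
    univ.filter fun ω => (∀ t ∈ q.1, C ω t ∈ good q.2 (C ω)) ∧ (2 * d - r) * q.1.card ≤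
      (q.1.biUnion (fun t => J t (C ω t)) \ q.2.biUnion (fun s => J s (C ω s))).card with hE
  set Z := univ.filter fun q : Finset τ × Finset τ => Fintype.card τ ≤ 2 * Q ^ 2 * q.1.card with hZ
  have e1 : (univ.filter fun ω : κ → Coins d => AllSh
      (fun t => (bfly (ω (gr t)))⁻¹ (bfly (ω k1) (x t))) (fun t => bfly (ω k1) (x t))).card
      ≤ (Z.biUnion E).card := by
    refine Finset.card_le_card_of_injOn cu.symm (fun ω' hω => ?_) cu.symm.injective.injOn
    obtain ⟨ω, rfl⟩ := cu.surjective ω'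
    rw [Equiv.symm_apply_apply]
    have h3 : ∀ t s s' j, j ∈ J t (C ω t) → j ∈ J s (C ω s) → j ∈ J s' (C ω s') → s ≠ t → s' ≠ t
        → s = s' := by
      intro t s s' j hj hs hs' n1 n2
      obtain ⟨u, -, rfl⟩ := Finset.mem_image.mp hj
      obtain ⟨a1, a2⟩ := shr ω t s u hs
      obtain ⟨a3, a4⟩ := shr ω t s' u hs'
      by_contra hne
      exact stne ω s' s u.1 hne (a3.symm.trans a1)
        (three_sw _ (stne ω t s _ n1 a1) (stne ω t s' _ n2 a3) a2 a4)
    have h2 : ∀ b : τ → τ, (∀ t, b t ≠ t) → ∀ t, (J t (C ω t) ∩ J (b t) (C ω (b t))).card ≤ 2 := by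
      intro b hb t
      have : J t (C ω t) ∩ J (b t) (C ω (b t))
          = (univ.filter fun u => jm t (C ω t) u ∈ J (b t) (C ω (b t))).image (jm t (C ω t)) := by
        ext j
        simp only [Finset.mem_inter, Finset.mem_image, Finset.mem_filter, Finset.mem_univ, true_and]
        constructor
        · rintro ⟨h1, h2⟩
          obtain ⟨u, -, rfl⟩ := Finset.mem_image.mp h1
          exact ⟨u, h2, rfl⟩
        · rintro ⟨u, h, rfl⟩
          exact ⟨Finset.mem_image_of_mem _ (Finset.mem_univ _), h⟩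
      rw [this]
      refine Finset.card_image_le.trans ?_
      rw [← Fintype.card_bool, ← Finset.card_univ]
      refine Finset.card_le_card_of_injOn Prod.fst (fun u _ => Finset.mem_univ _) ?_
      rintro ⟨β, l1⟩ h1 ⟨β', l2⟩ h2 h
      obtain rfl : β = β' := h
      obtain ⟨a1, a2⟩ := shr ω t _ _ (Finset.mem_filter.mp h1).2
      obtain ⟨-, a4⟩ := shr ω t _ _ (Finset.mem_filter.mp h2).2
      exact Prod.ext rfl (once_sw _ (stne ω t _ _ (hb t) a1) a2 a4)
    choose b hb l hl using (Finset.mem_filter.mp hω).2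
    obtain ⟨T, Bl, c1, c2, c3⟩ := colouring (fun t => J t (C ω t)) (2 * d) Q r hQ (by omega)
      (fun t => by simp only [hJ]; rw [Finset.card_image_of_injective _ (jinj _ _)]; simp)
      b hb h3 (h2 b hb)
    refine Finset.mem_biUnion.mpr ⟨(T, Bl), Finset.mem_filter.mpr ⟨Finset.mem_univ _, c2⟩,
      Finset.mem_filter.mpr ⟨Finset.mem_univ _, fun t ht => ?_, c3⟩⟩
    exact Finset.mem_biUnion.mpr ⟨(b t, l t), by simp [c1 t ht],
      Finset.mem_filter.mpr ⟨Finset.mem_univ _, hl t⟩⟩
  have e2 : ∀ q ∈ Z, ((E q).card : ℝ) ≤ θ ^ Fintype.card τ * Fintype.card (κ → Coins d) := by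
    intro q hq
    have a1 := sys_bound C J hCJ q.1 q.2 (good q.2) (fun c c' h => by
      simp only [hgood]
      refine Finset.biUnion_congr rfl fun p hp => ?_
      rw [h p.1 (Finset.mem_product.mp hp).1]) G ((2 * d - r) * q.1.card) (gG q.2)
    rw [Fintype.card_congr cu] at a1
    have a2 : ((E q).card : ℝ) * (2 ^ (2 * d - r)) ^ q.1.card
        ≤ (G : ℝ) ^ q.1.card * Fintype.card (κ → Coins d) := by
      rw [← pow_mul]; exact_mod_cast a1
    have a3 : (G : ℝ) ^ q.1.card ≤ θ ^ Fintype.card τ * (2 ^ (2 * d - r)) ^ q.1.card := by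
      have : (G : ℝ) ≤ θ ^ (2 * Q ^ 2) * 2 ^ (2 * d - r) := by rw [hG]; push_cast; exact hθ
      refine (pow_le_pow_left₀ (Nat.cast_nonneg _) this _).trans ?_
      rw [mul_pow, ← pow_mul]
      exact mul_le_mul_of_nonneg_right
        (pow_le_pow_of_le_one h0 h1 (Finset.mem_filter.mp hq).2) (by positivity)
    refine le_of_mul_le_mul_right (a2.trans ?_) (show (0 : ℝ) < (2 ^ (2 * d - r)) ^ q.1.card by
      positivity)
    nlinarith [mul_le_mul_of_nonneg_right a3 (Nat.cast_nonneg (Fintype.card (κ → Coins d)))]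
  have e3 : (Z.card : ℝ) ≤ 4 ^ Fintype.card τ := by
    have := Finset.card_le_univ Z
    rw [Fintype.card_prod, Fintype.card_finset, ← mul_pow] at this
    exact_mod_cast this
  calc _ ≤ ((Z.biUnion E).card : ℝ) := by exact_mod_cast e1
    _ ≤ ∑ q ∈ Z, ((E q).card : ℝ) := by exact_mod_cast Finset.card_biUnion_le
    _ ≤ Z.card • (θ ^ Fintype.card τ * Fintype.card (κ → Coins d)) :=
        Finset.sum_le_card_nsmul _ _ _ e2
    _ ≤ _ := by
        rw [nsmul_eq_mul, mul_pow, mul_assoc]
        exact mul_le_mul_of_nonneg_right e3 (by positivity)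

end Vale.Agent.P162
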