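import Mathlib

/-! Spectral calculus for Hermitian matrices, and the Araki-Lieb-Thirring inequality. -/

set_option linter.unusedSectionVars false

namespace Vale.Agent.P162

open Finset Matrix Complex

/-- real power, zero at nonpositive bases -/
noncomputable def rp (x k : ℝ) : ℝ := if 0 < x then x ^ k else 0

/-- complex power, zero at nonpositive bases -/
noncomputable def cp (x : ℝ) (z : ℂ) : ℂ := if 0 < x then Complex.exp (z * Real.log x) else 0

lemma rp_nonneg (x k : ℝ) : 0 ≤ rp x k := by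
  unfold rp; split_ifs with h
  · exact Real.rpow_nonneg h.le _
  · exact le_rfl

lemma rp_add (x k l : ℝ) : rp x (k + l) = rp x k * rp x l := by
  unfold rp; split_ifs with h
  · exact Real.rpow_add h _ _
  · simp

lemma rp_one {x : ℝ} (hx : 0 ≤ x) : rp x 1 = x := by
  unfold rp; split_ifs with h
  · simp
  · linarith [not_lt.mp h]

lemma rp_eq_rpow {x k : ℝ} (hx : 0 ≤ x) (hk : k ≠ 0) : rp x k = x ^ k := by
  unfold rp; split_ifs with h
  · rfl
  · have : x = 0 := le_antisymm (not_lt.mp h) hx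
    rw [this, Real.zero_rpow hk]

lemma rp_half_sq {x : ℝ} (hx : 0 ≤ x) : rp x (1 / 2) ^ 2 = x := by
  rw [sq, ← rp_add]; norm_num [rp_one hx]

lemma cp_add (x : ℝ) (z w : ℂ) : cp x (z + w) = cp x z * cp x w := by
  unfold cp; split_ifs
  · rw [add_mul, Complex.exp_add]
  · simp

lemma cp_conj (x : ℝ) (z : ℂ) : star (cp x z) = cp x (star z) := by
  unfold cp; split_ifs
  · simp [← Complex.exp_conj]
  · simp

lemma cp_ofReal (x k : ℝ) : cp x k = (rp x k : ℝ) := by
  unfold cp rp; split_ifs with h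
  · rw [Real.rpow_def_of_pos h, Complex.ofReal_exp]; congr 1; push_cast; ring
  · simp

lemma cp_one {x : ℝ} (hx : 0 ≤ x) : cp x 1 = x := by
  have := cp_ofReal x 1
  rw [rp_one hx] at this
  simpa using this

lemma norm_cp (x : ℝ) (z : ℂ) : ‖cp x z‖ = rp x z.re := by
  unfold cp rp; split_ifs with h
  · rw [Complex.norm_exp, Real.rpow_def_of_pos h]; simp [mul_comm]
  · simp

/-- entire and bounded on every vertical strip -/
def Good (f : ℂ → ℂ) : Prop :=
  Differentiable ℂ f ∧ ∀ R : ℝ, ∃ C : ℝ, ∀ z : ℂ, |z.re| ≤ R → ‖f z‖ ≤ C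

lemma Good.const (c : ℂ) : Good (fun _ => c) :=
  ⟨differentiable_const c, fun _ => ⟨‖c‖, fun _ _ => le_rfl⟩⟩

lemma Good.add {f g : ℂ → ℂ} (hf : Good f) (hg : Good g) : Good (fun z => f z + g z) := by
  refine ⟨hf.1.add hg.1, fun R => ?_⟩
  obtain ⟨C, hC⟩ := hf.2 R
  obtain ⟨D, hD⟩ := hg.2 R
  exact ⟨C + D, fun z hz => (norm_add_le _ _).trans (add_le_add (hC z hz) (hD z hz))⟩

lemma Good.mul {f g : ℂ → ℂ} (hf : Good f) (hg : Good g) : Good (fun z => f z * g z) := by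
  refine ⟨hf.1.mul hg.1, fun R => ?_⟩
  obtain ⟨C, hC⟩ := hf.2 R
  obtain ⟨D, hD⟩ := hg.2 R
  refine ⟨C * D, fun z hz => ?_⟩
  rw [norm_mul]
  exact mul_le_mul (hC z hz) (hD z hz) (norm_nonneg _) ((norm_nonneg _).trans (hC z hz))

lemma Good.sum {α : Type*} (s : Finset α) {f : α → ℂ → ℂ} (hf : ∀ a ∈ s, Good (f a)) :
    Good (fun z => ∑ a ∈ s, f a z) := by
  classical
  induction s using Finset.induction_on with
  | empty => simpa using Good.const 0
  | insert a s ha ih =>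
    simp_rw [Finset.sum_insert ha]
    exact (hf a (Finset.mem_insert_self _ _)).add
      (ih fun b hb => hf b (Finset.mem_insert_of_mem hb))

lemma Good.prod {α : Type*} (s : Finset α) {f : α → ℂ → ℂ} (hf : ∀ a ∈ s, Good (f a)) :
    Good (fun z => ∏ a ∈ s, f a z) := by
  classical
  induction s using Finset.induction_on with
  | empty => simpa using Good.const 1
  | insert a s ha ih =>
    simp_rw [Finset.prod_insert ha]
    exact (hf a (Finset.mem_insert_self _ _)).mul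
      (ih fun b hb => hf b (Finset.mem_insert_of_mem hb))

lemma Good.affine {f : ℂ → ℂ} (hf : Good f) (α β : ℝ) : Good (fun z => f (β + α * z)) := by
  refine ⟨hf.1.comp (by fun_prop), fun R => ?_⟩
  obtain ⟨C, hC⟩ := hf.2 (|β| + |α| * R)
  refine ⟨C, fun z hz => hC _ ?_⟩
  simp only [add_re, ofReal_re, mul_re, ofReal_im, zero_mul, sub_zero]
  refine (abs_add_le _ _).trans ?_
  rw [abs_mul]; gcongr

lemma good_cp (x : ℝ) : Good (cp x) := by
  constructor
  · unfold cp; split_ifs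
    · fun_prop
    · fun_prop
  · intro R
    refine ⟨Real.exp (R * |Real.log x|), fun z hz => ?_⟩
    rw [norm_cp]; unfold rp; split_ifs with h
    · rw [Real.rpow_def_of_pos h, Real.exp_le_exp]
      calc Real.log x * z.re ≤ |Real.log x * z.re| := le_abs_self _
        _ = |z.re| * |Real.log x| := by rw [abs_mul, mul_comm]
        _ ≤ R * |Real.log x| := by gcongr
    · exact (Real.exp_pos _).le

lemma Good.three_lines {f : ℂ → ℂ} (hf : Good f) {a b t : ℝ} (h0 : 0 ≤ t) (h1 : t ≤ 1)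
    (ha : ∀ z : ℂ, z.re = 0 → ‖f z‖ ≤ a) (hb : ∀ z : ℂ, z.re = 1 → ‖f z‖ ≤ b) :
    ‖f t‖ ≤ a ^ (1 - t) * b ^ t := by
  have := Complex.HadamardThreeLines.norm_le_interp_of_mem_verticalClosedStrip₀₁' f
    (z := (t : ℂ)) (a := a) (b := b) (by simp [HadamardThreeLines.verticalClosedStrip, h0, h1])
    hf.1.diffContOnCl ?_ (fun z hz => ha z (by simpa using hz)) (fun z hz => hb z (by simpa using hz))
  · simpa using this
  · obtain ⟨C, hC⟩ := hf.2 1
    refine ⟨C, ?_⟩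
    rintro _ ⟨z, hz, rfl⟩
    simp only [HadamardThreeLines.verticalClosedStrip, Set.mem_preimage, Set.mem_Icc] at hz
    exact hC z (abs_le.mpr ⟨by linarith [hz.1], hz.2⟩)

variable {n m : Type} [Fintype n] [DecidableEq n] [Fintype m] [DecidableEq m]

open Classical in
/-- eigenvalues -/
noncomputable def ev (A : Matrix n n ℂ) : n → ℝ :=
  if h : A.IsHermitian then h.eigenvalues else 0

open Classical in
/-- unitary of eigenvectors -/
noncomputable def eU (A : Matrix n n ℂ) : Matrix n n ℂ :=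
  if h : A.IsHermitian then (h.eigenvectorUnitary : Matrix n n ℂ) else 1

lemma eU_star_mul (A : Matrix n n ℂ) : (eU A)ᴴ * eU A = 1 := by
  unfold eU; split_ifs with h
  · exact Unitary.coe_star_mul_self _
  · simp

lemma eU_mul_star (A : Matrix n n ℂ) : eU A * (eU A)ᴴ = 1 := by
  unfold eU; split_ifs with h
  · exact Unitary.coe_mul_star_self _
  · simp

lemma eU_spec {A : Matrix n n ℂ} (h : A.IsHermitian) :
    A = eU A * diagonal (fun i => (ev A i : ℂ)) * (eU A)ᴴ := by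
  unfold eU ev
  simp only [h, dif_pos]
  conv_lhs => rw [h.spectral_theorem]
  rfl

lemma mul_eU {A : Matrix n n ℂ} (h : A.IsHermitian) :
    A * eU A = eU A * diagonal (fun i => (ev A i : ℂ)) := by
  conv_lhs => rw [eU_spec h]
  simp only [Matrix.mul_assoc]
  congr 1
  have : eU (eU A * (diagonal (fun i => (ev A i : ℂ)) * (eU A)ᴴ)) = eU A := by
    rw [← Matrix.mul_assoc, ← eU_spec h]
  rw [this, eU_star_mul, Matrix.mul_one]

/-- functional calculus -/
noncomputable def fc (A : Matrix n n ℂ) (φ : ℝ → ℂ) : Matrix n n ℂ :=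
  eU A * diagonal (fun i => φ (ev A i)) * (eU A)ᴴ

lemma fc_mul (A : Matrix n n ℂ) (φ ψ : ℝ → ℂ) :
    fc A φ * fc A ψ = fc A (fun x => φ x * ψ x) := by
  unfold fc
  simp only [Matrix.mul_assoc]
  rw [← Matrix.mul_assoc (eU A)ᴴ, eU_star_mul, Matrix.one_mul, ← Matrix.mul_assoc (diagonal _),
    diagonal_mul_diagonal]

lemma fc_star (A : Matrix n n ℂ) (φ : ℝ → ℂ) : (fc A φ)ᴴ = fc A (fun x => star (φ x)) := by
  unfold fc
  simp only [conjTranspose_mul, conjTranspose_conjTranspose, diagonal_conjTranspose,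
    Matrix.mul_assoc]
  rfl

lemma trace_fc (A : Matrix n n ℂ) (φ : ℝ → ℂ) : (fc A φ).trace = ∑ i, φ (ev A i) := by
  unfold fc
  rw [Matrix.trace_mul_cycle, eU_star_mul, Matrix.one_mul, trace_diagonal]

lemma fc_intertwine {A : Matrix n n ℂ} {A' : Matrix m m ℂ} (h : A.IsHermitian)
    (h' : A'.IsHermitian) (T : Matrix n m ℂ) (hT : A * T = T * A') (φ : ℝ → ℂ) :
    fc A φ * T = T * fc A' φ := by
  set S := (eU A)ᴴ * T * eU A' with hS
  have e1 : diagonal (fun i => (ev A i : ℂ)) * S = S * diagonal (fun i => (ev A' i : ℂ)) := by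
    have a1 : diagonal (fun i => (ev A i : ℂ)) * (eU A)ᴴ = (eU A)ᴴ * A := by
      have := congrArg conjTranspose (mul_eU h)
      rw [conjTranspose_mul, conjTranspose_mul, h.eq, diagonal_conjTranspose] at this
      rw [this]; congr 2; funext i; simp
    rw [hS, ← Matrix.mul_assoc, ← Matrix.mul_assoc, a1, Matrix.mul_assoc (eU A)ᴴ, hT,
      Matrix.mul_assoc, Matrix.mul_assoc, Matrix.mul_assoc, mul_eU h']
    simp only [Matrix.mul_assoc]
  have e2 : diagonal (fun i => φ (ev A i)) * S = S * diagonal (fun i => φ (ev A' i)) := by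
    ext i j
    have := congrFun (congrFun e1 i) j
    rw [diagonal_mul, mul_diagonal] at this ⊢
    by_cases h0 : S i j = 0
    · simp [h0]
    · have h3 : (ev A i : ℂ) = ev A' j := by
        rw [mul_comm] at this; exact mul_left_cancel₀ h0 this
      have h4 : ev A i = ev A' j := by exact_mod_cast h3
      rw [h4, mul_comm]
  have e3 : T = eU A * S * (eU A')ᴴ := by
    rw [hS]
    simp only [← Matrix.mul_assoc]
    rw [eU_mul_star, Matrix.one_mul, Matrix.mul_assoc, eU_mul_star, Matrix.mul_one]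
  calc fc A φ * T = eU A * (diagonal (fun i => φ (ev A i)) * S) * (eU A')ᴴ := by
        conv_lhs => rw [e3]
        unfold fc
        simp only [Matrix.mul_assoc]
        rw [← Matrix.mul_assoc (eU A)ᴴ, eU_star_mul, Matrix.one_mul]
    _ = T * fc A' φ := by
        rw [e2]
        conv_rhs => rw [e3]
        unfold fc
        simp only [Matrix.mul_assoc]
        rw [← Matrix.mul_assoc (eU A')ᴴ, eU_star_mul, Matrix.one_mul]

/-- squared Euclidean norm -/
noncomputable def nsq (v : n → ℂ) : ℝ := ∑ i, ‖v i‖ ^ 2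

lemma nsq_nonneg (v : n → ℂ) : 0 ≤ nsq v := Finset.sum_nonneg fun _ _ => sq_nonneg _

lemma dot_self (v : n → ℂ) : star v ⬝ᵥ v = (nsq v : ℝ) := by
  unfold nsq dotProduct
  push_cast
  refine Finset.sum_congr rfl fun i _ => ?_
  rw [Pi.star_apply, Complex.star_def, Complex.conj_mul']

lemma nsq_eq_zero {v : n → ℂ} (h : nsq v = 0) : v = 0 := by
  funext i
  have := (Finset.sum_eq_zero_iff_of_nonneg (fun i _ => sq_nonneg ‖v i‖)).mp h i (Finset.mem_univ i)
  simpa using this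

lemma dot_cs (u v : n → ℂ) : ‖star u ⬝ᵥ v‖ ^ 2 ≤ nsq u * nsq v := by
  have h1 : ‖star u ⬝ᵥ v‖ ≤ ∑ i, ‖u i‖ * ‖v i‖ := by
    unfold dotProduct
    refine (norm_sum_le _ _).trans (le_of_eq (Finset.sum_congr rfl fun i _ => ?_))
    simp
  exact (pow_le_pow_left₀ (norm_nonneg _) h1 2).trans (Finset.sum_mul_sq_le_sq_mul_sq _ _ _)

lemma dot_mulVec (A : Matrix m n ℂ) (u : n → ℂ) (v : m → ℂ) :
    star (A *ᵥ u) ⬝ᵥ v = star u ⬝ᵥ (Aᴴ *ᵥ v) := by
  rw [star_mulVec, dotProduct_mulVec]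

lemma nsq_mulVec (A : Matrix m n ℂ) (u : n → ℂ) :
    (nsq (A *ᵥ u) : ℂ) = star u ⬝ᵥ ((Aᴴ * A) *ᵥ u) := by
  rw [← dot_self, dot_mulVec, mulVec_mulVec]

/-- eigenvector -/
noncomputable def evec (A : Matrix n n ℂ) (i : n) : n → ℂ := fun j => eU A j i

lemma dot_evec (A : Matrix n n ℂ) (i j : n) :
    star (evec A i) ⬝ᵥ evec A j = if i = j then 1 else 0 := by
  have := congrFun (congrFun (eU_star_mul A) i) j
  rw [Matrix.one_apply] at this
  rw [← this]; rfl

lemma nsq_evec (A : Matrix n n ℂ) (i : n) : nsq (evec A i) = 1 := by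
  have := dot_evec A i i
  rw [dot_self, if_pos rfl] at this
  exact_mod_cast this

lemma mulVec_evec {A : Matrix n n ℂ} (h : A.IsHermitian) (i : n) :
    A *ᵥ evec A i = (ev A i : ℂ) • evec A i := by
  funext j
  have := congrFun (congrFun (mul_eU h) j) i
  rw [mul_diagonal] at this
  simp only [Pi.smul_apply, smul_eq_mul, evec]
  rw [mul_comm, ← this]; rfl

lemma nsq_mulVec_evec (X : Matrix m n ℂ) (i : n) :
    nsq (X *ᵥ evec (Xᴴ * X) i) = ev (Xᴴ * X) i := by
  have := nsq_mulVec X (evec (Xᴴ * X) i)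
  rw [mulVec_evec (isHermitian_conjTranspose_mul_self X), dotProduct_smul, dot_evec,
    if_pos rfl] at this
  simp only [smul_eq_mul, mul_one] at this
  exact_mod_cast this

lemma ev_nonneg (X : Matrix m n ℂ) (i : n) : 0 ≤ ev (Xᴴ * X) i := by
  rw [← nsq_mulVec_evec]; exact nsq_nonneg _

lemma ev_nonneg' (X : Matrix n m ℂ) (i : n) : 0 ≤ ev (X * Xᴴ) i := by
  have := ev_nonneg Xᴴ i
  rwa [conjTranspose_conjTranspose] at this

lemma sum_nsq_evec (A : Matrix n n ℂ) (M : Matrix m n ℂ) :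
    ((∑ i, nsq (M *ᵥ evec A i) : ℝ) : ℂ) = (Mᴴ * M).trace := by
  have : (Mᴴ * M).trace = ((eU A)ᴴ * (Mᴴ * M) * eU A).trace := by
    rw [Matrix.trace_mul_cycle, eU_mul_star, Matrix.one_mul]
  rw [this]
  push_cast
  unfold Matrix.trace
  refine Finset.sum_congr rfl fun i _ => ?_
  rw [nsq_mulVec, Matrix.diag_apply, Matrix.mul_assoc]
  rfl

/-- complex powers -/
noncomputable def spw (A : Matrix n n ℂ) (z : ℂ) : Matrix n n ℂ := fc A (fun x => cp x z)

/-- trace of a real power -/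
noncomputable def trp (A : Matrix n n ℂ) (k : ℝ) : ℝ := ∑ i, rp (ev A i) k

lemma trp_nonneg (A : Matrix n n ℂ) (k : ℝ) : 0 ≤ trp A k :=
  Finset.sum_nonneg fun _ _ => rp_nonneg _ _

lemma trace_spw (A : Matrix n n ℂ) (k : ℝ) : (spw A k).trace = (trp A k : ℝ) := by
  unfold spw trp; rw [trace_fc]; push_cast; simp_rw [cp_ofReal]

lemma spw_mul (A : Matrix n n ℂ) (z w : ℂ) : spw A z * spw A w = spw A (z + w) := by
  unfold spw; rw [fc_mul]; simp_rw [cp_add]

lemma spw_star (A : Matrix n n ℂ) (z : ℂ) : (spw A z)ᴴ = spw A (star z) := by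
  unfold spw; rw [fc_star]; simp_rw [cp_conj]

lemma spw_one {A : Matrix n n ℂ} (h : A.IsHermitian) (h0 : ∀ i, 0 ≤ ev A i) : spw A 1 = A := by
  conv_rhs => rw [eU_spec h]
  unfold spw fc; simp_rw [cp_one (h0 _)]

lemma spw_apply (A : Matrix n n ℂ) (z : ℂ) (i j : n) :
    spw A z i j = ∑ γ, eU A i γ * cp (ev A γ) z * star (eU A j γ) := by
  unfold spw fc
  rw [Matrix.mul_apply]
  refine Finset.sum_congr rfl fun γ _ => ?_
  rw [mul_diagonal, conjTranspose_apply]

lemma good_spw (A : Matrix n n ℂ) (i j : n) : Good (fun z => spw A z i j) := by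
  simp_rw [spw_apply]
  exact Good.sum _ fun γ _ => ((Good.const _).mul (good_cp _)).mul (Good.const _)

lemma trp_comm (X : Matrix n m ℂ) (k : ℝ) : trp (X * Xᴴ) k = trp (Xᴴ * X) k := by
  have h1 := isHermitian_mul_conjTranspose_self X
  have h2 := isHermitian_conjTranspose_mul_self X
  have e := fc_intertwine h1 h2 X (Matrix.mul_assoc _ _ _) (fun x => cp x ((k - 1 : ℝ) : ℂ))
  have a1 : spw (X * Xᴴ) k = spw (X * Xᴴ) ((k - 1 : ℝ) : ℂ) * (X * Xᴴ) := by
    conv_rhs => rw [← spw_one h1 (ev_nonneg' X)]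
    rw [spw_one h1 (ev_nonneg' X)]
    nth_rewrite 3 [← spw_one h1 (ev_nonneg' X)]
    rw [spw_mul]; congr 1; push_cast; ring
  have a2 : spw (Xᴴ * X) k = spw (Xᴴ * X) ((k - 1 : ℝ) : ℂ) * (Xᴴ * X) := by
    nth_rewrite 3 [← spw_one h2 (ev_nonneg X)]
    rw [spw_mul]; congr 1; push_cast; ring
  have : ((trp (X * Xᴴ) k : ℝ) : ℂ) = (trp (Xᴴ * X) k : ℝ) := by
    rw [← trace_spw, ← trace_spw, a1, a2, ← Matrix.mul_assoc]
    unfold spw
    rw [e, Matrix.trace_mul_cycle, Matrix.trace_mul_comm]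
  exact_mod_cast this

/-- analytic star-semigroups of matrices -/
structure Semi (a : ℂ → Matrix n n ℂ) : Prop where
  mul : ∀ z w, a z * a w = a (z + w)
  star : ∀ z, (a z)ᴴ = a (star z)
  good : ∀ i j, Good (fun z => a z i j)

lemma semi_spw (A : Matrix n n ℂ) : Semi (spw A) := ⟨spw_mul A, spw_star A, good_spw A⟩

lemma Semi.contr {a : ℂ → Matrix n n ℂ} (ha : Semi a) {z : ℂ} (hz : z.re = 0) (v : n → ℂ) :
    nsq (a z *ᵥ v) ≤ nsq v := by
  have e0 : Star.star z + z = 0 := by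
    apply Complex.ext <;> simp [hz]
  have e1 : (nsq (a z *ᵥ v) : ℂ) = Star.star v ⬝ᵥ (a 0 *ᵥ v) := by
    rw [nsq_mulVec, ha.star, ha.mul, e0]
  have e2 : (nsq (a 0 *ᵥ v) : ℂ) = Star.star v ⬝ᵥ (a 0 *ᵥ v) := by
    rw [nsq_mulVec, ha.star, ha.mul]; simp
  have e3 : nsq (a z *ᵥ v) = nsq (a 0 *ᵥ v) := by exact_mod_cast e1.trans e2.symm
  have c := dot_cs v (a 0 *ᵥ v)
  rw [← e2, Complex.norm_real, Real.norm_of_nonneg (nsq_nonneg _)] at c
  rw [e3]
  by_cases h : nsq (a 0 *ᵥ v) = 0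
  · rw [h]; exact nsq_nonneg _
  · have hp : 0 < nsq (a 0 *ᵥ v) := lt_of_le_of_ne (nsq_nonneg _) (Ne.symm h)
    rw [sq] at c
    exact le_of_mul_le_mul_right c hp

/-- Araki-Lieb-Thirring inequality, in the form used here. -/
theorem alt {a b : ℂ → Matrix n n ℂ} (ha : Semi a) (hb : Semi b) {k : ℝ} (hk : 2 ≤ k) :
    trp (b (1 / 2) * a 1 * b (1 / 2)) k
      ≤ ‖(a (k / 2 : ℝ) * b (k / 2 : ℝ) * a (k / 2 : ℝ) * b (k / 2 : ℝ)).trace‖ := by
  set Z := a (1 / 2) * b (1 / 2) with hZ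
  have hH : b (1 / 2) * a 1 * b (1 / 2) = Zᴴ * Z := by
    rw [hZ, conjTranspose_mul, ha.star, hb.star]
    have : Star.star (1 / 2 : ℂ) = 1 / 2 := by simp
    rw [this, Matrix.mul_assoc, Matrix.mul_assoc, ← Matrix.mul_assoc (a _), ha.mul]
    norm_num
  rw [hH]
  set H := Zᴴ * Z with hHdef
  set u := evec H
  set h := ev H
  have h0 : ∀ γ, 0 ≤ h γ := ev_nonneg Z
  have hZu : ∀ γ, nsq (Z *ᵥ u γ) = h γ := nsq_mulVec_evec Z
  set S := trp H k with hS
  set T := ‖(a (k / 2 : ℝ) * b (k / 2 : ℝ) * a (k / 2 : ℝ) * b (k / 2 : ℝ)).trace‖ with hT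
  have hS0 : 0 ≤ S := trp_nonneg _ _
  have hT0 : 0 ≤ T := norm_nonneg _
  set A : ℂ → Matrix n n ℂ := fun z => a ((0 : ℝ) + (k / 4 : ℝ) * z) * b ((0 : ℝ) + (k / 4 : ℝ) * z)
    with hA
  set F : ℂ → ℂ := fun z => ∑ γ, cp (h γ) ((k - 1 / 2 : ℝ) + (-k / 4 : ℝ) * z)
    * (Star.star (Z *ᵥ u γ) ⬝ᵥ (A z *ᵥ u γ)) with hF
  have gF : Good F := by
    refine Good.sum _ fun γ _ => ((good_cp _).affine _ _).mul ?_
    simp only [dotProduct, mulVec, hA, Matrix.mul_apply]
    refine Good.sum _ fun i _ => (Good.const _).mul (Good.sum _ fun j _ =>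
      Good.mul (Good.sum _ fun l _ => ((ha.good _ _).affine _ _).mul ((hb.good _ _).affine _ _))
        (Good.const _))
  have hdot : ∀ z γ, ‖Star.star (Z *ᵥ u γ) ⬝ᵥ (A z *ᵥ u γ)‖
      ≤ rp (h γ) (1 / 2) * Real.sqrt (nsq (A z *ᵥ u γ)) := by
    intro z γ
    apply le_of_pow_le_pow_left₀ two_ne_zero (mul_nonneg (rp_nonneg _ _) (Real.sqrt_nonneg _))
    rw [mul_pow, rp_half_sq (h0 γ), Real.sq_sqrt (nsq_nonneg _), ← hZu]
    exact dot_cs _ _
  have hFb : ∀ z, ‖F z‖ ≤ ∑ γ, rp (h γ) (k - k / 4 * z.re) * Real.sqrt (nsq (A z *ᵥ u γ)) := by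
    intro z
    refine (norm_sum_le _ _).trans (Finset.sum_le_sum fun γ _ => ?_)
    rw [norm_mul, norm_cp]
    refine (mul_le_mul_of_nonneg_left (hdot z γ) (rp_nonneg _ _)).trans (le_of_eq ?_)
    rw [← mul_assoc, ← rp_add]
    congr 2
    simp; ring
  have b0 : ∀ z : ℂ, z.re = 0 → ‖F z‖ ≤ S := by
    intro z hz
    refine (hFb z).trans (Finset.sum_le_sum fun γ _ => ?_)
    rw [hz, mul_zero, sub_zero]
    refine mul_le_of_le_one_right (rp_nonneg _ _) ?_
    rw [Real.sqrt_le_one, hA, ← mulVec_mulVec]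
    have hz' : (((0 : ℝ) : ℂ) + (k / 4 : ℝ) * z).re = 0 := by simp [hz]
    exact (ha.contr hz' _).trans ((hb.contr hz' _).trans (nsq_evec H γ).le)
  have b1 : ∀ z : ℂ, z.re = 1 → ‖F z‖ ≤ S ^ (3 / 4 : ℝ) * T ^ (1 / 4 : ℝ) := by
    intro z hz
    refine (hFb z).trans ?_
    set y : n → ℝ := fun γ => nsq (A z *ᵥ u γ) with hy
    have y0 : ∀ γ, 0 ≤ y γ := fun γ => nsq_nonneg _
    have y4 : ∑ γ, y γ ^ 2 ≤ T := by
      have c1 : ∀ γ, y γ ^ 2 ≤ nsq (((A z)ᴴ * A z) *ᵥ u γ) := by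
        intro γ
        have := dot_cs (u γ) (((A z)ᴴ * A z) *ᵥ u γ)
        rwa [← nsq_mulVec, Complex.norm_real, Real.norm_of_nonneg (nsq_nonneg _), nsq_evec,
          one_mul] at this
      refine (Finset.sum_le_sum fun γ _ => c1 γ).trans ?_
      have c2 := sum_nsq_evec H ((A z)ᴴ * A z)
      set w : ℂ := ((0 : ℝ) : ℂ) + (k / 4 : ℝ) * z with hw
      have hww : Star.star w + w = (k / 2 : ℝ) := by
        apply Complex.ext <;> simp [hw, hz]; ring
      have hww' : w + Star.star w = (k / 2 : ℝ) := by rw [add_comm, hww]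
      have c3 : (A z)ᴴ * A z = b (Star.star w) * a (k / 2 : ℝ) * b w := by
        simp only [hA]
        rw [conjTranspose_mul, ha.star, hb.star, Matrix.mul_assoc, ← Matrix.mul_assoc (a _), ha.mul,
          hww, Matrix.mul_assoc]
      have c4 : ((A z)ᴴ * A z)ᴴ = (A z)ᴴ * A z := by
        rw [conjTranspose_mul, conjTranspose_conjTranspose]
      rw [c4, c3] at c2
      have c5 : (b (Star.star w) * a (k / 2 : ℝ) * b w * (b (Star.star w) * a (k / 2 : ℝ) * b w)).trace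
          = (a (k / 2 : ℝ) * b (k / 2 : ℝ) * a (k / 2 : ℝ) * b (k / 2 : ℝ)).trace := by
        simp only [Matrix.mul_assoc]
        rw [Matrix.trace_mul_comm]
        simp only [Matrix.mul_assoc]
        rw [hb.mul, hww', ← Matrix.mul_assoc (b w), hb.mul, hww']
      rw [c5] at c2
      rw [hT, ← c2, c3, Complex.norm_real]
      exact le_abs_self _
    have c6 : (∑ γ, rp (h γ) (k - k / 4 * z.re) * Real.sqrt (y γ)) ^ 2
        ≤ S * ∑ γ, rp (h γ) (k / 2) * y γ := by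
      apply Finset.sum_sq_le_sum_mul_sum_of_sq_le_mul
      · intro γ _; exact rp_nonneg _ _
      · intro γ _; exact mul_nonneg (rp_nonneg _ _) (y0 γ)
      · intro γ _
        rw [mul_pow, Real.sq_sqrt (y0 γ), ← mul_assoc, sq, ← rp_add, ← rp_add, hz]
        apply le_of_eq; congr 2; ring
    have c7 : (∑ γ, rp (h γ) (k / 2) * y γ) ^ 2 ≤ S * T := by
      refine (Finset.sum_mul_sq_le_sq_mul_sq _ _ _).trans ?_
      refine mul_le_mul (le_of_eq ?_) y4 (Finset.sum_nonneg fun γ _ => sq_nonneg _) hS0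
      refine Finset.sum_congr rfl fun γ _ => ?_
      rw [sq, ← rp_add]; congr 1; ring
    apply le_of_pow_le_pow_left₀ (n := 4) (by norm_num) (by positivity)
    have c8 : (S ^ (3 / 4 : ℝ) * T ^ (1 / 4 : ℝ)) ^ 4 = S ^ 3 * T := by
      rw [mul_pow, ← Real.rpow_natCast, ← Real.rpow_natCast, ← Real.rpow_mul hS0,
        ← Real.rpow_mul hT0]
      norm_num
    rw [c8]
    calc _ = ((∑ γ, rp (h γ) (k - k / 4 * z.re) * Real.sqrt (y γ)) ^ 2) ^ 2 := by ring
      _ ≤ (S * ∑ γ, rp (h γ) (k / 2) * y γ) ^ 2 := pow_le_pow_left₀ (sq_nonneg _) c6 2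
      _ = S ^ 2 * (∑ γ, rp (h γ) (k / 2) * y γ) ^ 2 := by ring
      _ ≤ S ^ 2 * (S * T) := mul_le_mul_of_nonneg_left c7 (sq_nonneg _)
      _ = S ^ 3 * T := by ring
  have hk0 : 0 < k := by linarith
  have t0 : 0 < 2 / k := by positivity
  have t1 : 2 / k ≤ 1 := by rw [div_le_one hk0]; exact hk
  have key := gF.three_lines t0.le t1 b0 b1
  have hFt : F ((2 / k : ℝ) : ℂ) = (S : ℝ) := by
    have e1 : ((0 : ℝ) : ℂ) + (k / 4 : ℝ) * ((2 / k : ℝ) : ℂ) = 1 / 2 := by
      have : (k : ℂ) ≠ 0 := by exact_mod_cast hk0.ne'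
      push_cast; field_simp; ring
    have e2 : ((k - 1 / 2 : ℝ) : ℂ) + (-k / 4 : ℝ) * ((2 / k : ℝ) : ℂ) = ((k - 1 : ℝ) : ℂ) := by
      have : (k : ℂ) ≠ 0 := by exact_mod_cast hk0.ne'
      push_cast; field_simp; ring
    simp only [hF, hA, e1, e2]
    rw [hS, trp]
    push_cast
    refine Finset.sum_congr rfl fun γ _ => ?_
    rw [← hZ, dot_self, hZu]
    have := cp_ofReal (h γ) (k - 1)
    push_cast at this
    rw [this, ← Complex.ofReal_mul]
    congr 1
    nth_rewrite 2 [← rp_one (h0 γ)]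
    rw [← rp_add]; congr 1; ring
  rw [hFt, Complex.norm_real, Real.norm_of_nonneg hS0] at key
  by_contra hcon
  push Not at hcon
  have hSp : 0 < S := lt_of_le_of_lt hT0 hcon
  have e5 : S ^ (3 / 4 : ℝ) * T ^ (1 / 4 : ℝ) < S := by
    have : T ^ (1 / 4 : ℝ) < S ^ (1 / 4 : ℝ) := Real.rpow_lt_rpow hT0 hcon (by norm_num)
    calc _ < S ^ (3 / 4 : ℝ) * S ^ (1 / 4 : ℝ) :=
          mul_lt_mul_of_pos_left this (Real.rpow_pos_of_pos hSp _)
      _ = S := by rw [← Real.rpow_add hSp]; norm_num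
  have e6 := Real.rpow_lt_rpow (by positivity) e5 t0
  have e7 := mul_lt_mul_of_pos_left e6 (Real.rpow_pos_of_pos hSp (1 - 2 / k))
  rw [← Real.rpow_add hSp] at e7
  simp only [sub_add_cancel, Real.rpow_one] at e7
  linarith

end Vale.Agent.P162
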