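import Vale.Agent.P162.Low

/-! Splitting the spectrum into low and high levels; the base case. -/

set_option linter.unusedSectionVars false

namespace Vale.Agent.P162

open Finset Matrix

lemma law_contr {G Ω : Type} [Group G] [Fintype G] [DecidableEq G] [Fintype Ω] [Nonempty Ω]
    (F : Ω → G) (v : G → ℂ) : nsq (mat (law F) *ᵥ v) ≤ nsq v := by
  have hn : (0 : ℝ) < Fintype.card Ω := by exact_mod_cast Fintype.card_pos
  have : ∀ g, ‖(mat (law F) *ᵥ v) g‖ ^ 2 ≤ (∑ ω, ‖v ((F ω)⁻¹ * g)‖ ^ 2) / Fintype.card Ω := by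
    intro g
    rw [mat_mulVec, conv_law, norm_div, Complex.norm_natCast, div_pow,
      div_le_div_iff₀ (by positivity) hn]
    have h1 := pow_le_pow_left₀ (norm_nonneg _) (norm_sum_le univ fun ω => v ((F ω)⁻¹ * g)) 2
    have h2 := sq_sum_le_card_mul_sum_sq (s := univ) (f := fun ω => ‖v ((F ω)⁻¹ * g)‖)
    rw [Finset.card_univ] at h2
    nlinarith [mul_le_mul_of_nonneg_right (h1.trans h2) hn.le]
  refine (Finset.sum_le_sum fun g _ => this g).trans (le_of_eq ?_)
  rw [← Finset.sum_div, Finset.sum_comm, div_eq_iff hn.ne']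
  simp_rw [fun ω => Equiv.sum_comp (Equiv.mulLeft (F ω)⁻¹) (fun g => ‖v g‖ ^ 2) |>
    fun (h : ∑ g, ‖v ((F ω)⁻¹ * g)‖ ^ 2 = ∑ g, ‖v g‖ ^ 2) => h]
  simp [nsq, mul_comm]

lemma rp_anti {x k l : ℝ} (hx : x ≤ 1) (h : k ≤ l) : rp x l ≤ rp x k := by
  unfold rp; split_ifs with h0
  · exact Real.rpow_le_rpow_of_exponent_ge h0 hx h
  · exact le_rfl

lemma rp_nat_le {x : ℝ} (hx : 0 ≤ x) (k : ℕ) : rp x k ≤ x ^ k := by
  unfold rp; split_ifs with h0
  · rw [Real.rpow_natCast]
  · positivity

variable {d : ℕ}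

lemma ev_BB_nonneg (γ) : 0 ≤ ev (mat (BB d)) γ := by rw [mat_BB]; exact ev_nonneg _ _

lemma ev_BB_le (γ) : ev (mat (BB d)) γ ≤ 1 := by
  rw [mat_BB, ← nsq_mulVec_evec, ← nsq_evec ((mat (KK d))ᴴ * mat (KK d)) γ]
  exact law_contr _ _

lemma trp_BB_anti {k l : ℝ} (h : k ≤ l) : trp (mat (BB d)) l ≤ trp (mat (BB d)) k :=
  Finset.sum_le_sum fun γ _ => rp_anti (ev_BB_le γ) h

def fl (l : Fin d) (x : Pos d) : Pos d := Function.update x l (!x l)

lemma fl_fl (l : Fin d) (x : Pos d) : fl l (fl l x) = x := by simp [fl]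

lemma fl_ne (l : Fin d) (x : Pos d) : fl l x ≠ x := fun h => by simpa [fl] using congrFun h l

lemma swap_fl (l : Fin d) (x z : Pos d) : (∀ j, j ≠ l → Equiv.swap x (fl l x) z j = z j) ∧
    xor (z l) (Equiv.swap x (fl l x) z l)
      = decide (Function.update z l false = Function.update x l false) := by
  by_cases h1 : z = x
  · subst h1; simp +contextual [fl]
  by_cases h2 : z = fl l x
  · subst h2; simp +contextual [fl]
  rw [Equiv.swap_apply_of_ne_of_ne h1 h2]
  refine ⟨fun _ _ => rfl, ?_⟩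
  rw [Bool.xor_self, eq_comm, decide_eq_false_iff_not]
  intro h
  have h3 : ∀ j, j ≠ l → z j = x j := fun j hj => by simpa [hj] using congrFun h j
  by_cases h4 : z l = x l
  · exact h1 (funext fun j => if hj : j = l then hj ▸ h4 else h3 j hj)
  · refine h2 (funext fun j => if hj : j = l then ?_ else by simpa [fl, hj] using h3 j hj)
    rw [hj]; simpa [fl] using Bool.eq_not_iff.mpr h4

lemma bfly_single (l : Fin d) (x : Pos d) :
    bfly (fun l' p => decide (l' = l ∧ p = Function.update x l false)) = Equiv.swap x (fl l x) := by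
  refine Equiv.ext fun z => (bfly_iff _ _ _).mpr fun j => ?_
  obtain ⟨h1, h2⟩ := swap_fl l x z
  by_cases hj : j = l
  · subst hj
    rw [h2]
    have : sw z (Equiv.swap x (fl j x) z) j = Function.update z j false := by
      funext i
      by_cases hi : i = j
      · simp [sw, hi]
      · simp [sw, hi, h1 i hi]
    simp [this]
  · simp [hj, h1 j hj]

lemma bfly_zero : bfly (d := d) (fun _ _ => false) = 1 :=
  Equiv.ext fun z => (bfly_iff _ _ _).mpr fun j => by simp

lemma bfly_swap (l : Fin d) (hl : ∀ j, l ≤ j) (x : Pos d) (c : Coins d) :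
    bfly c * Equiv.swap x (fl l x)
      = bfly (fun l' p => xor (c l' p) (decide (l' = l ∧ p = Function.update x l false))) := by
  refine Equiv.ext fun z => ((bfly_iff _ _ _).mpr fun j => ?_).symm
  obtain ⟨h1, h2⟩ := swap_fl l x z
  rw [Equiv.Perm.mul_apply]
  have h3 := (bfly_iff c (Equiv.swap x (fl l x) z) _).mp rfl j
  have h4 : ∀ y, sw (Equiv.swap x (fl l x) z) y j = sw z y j := by
    intro y; funext i
    simp only [sw]
    split_ifs with a1 a2
    · rfl
    · rfl
    · exact h1 i (by rintro rfl; exact a2 (le_antisymm (hl j) (not_lt.mp a1)))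
  rw [h4] at h3
  rw [h3]
  by_cases hj : j = l
  · subst hj
    have : ∀ y, sw z y j = Function.update z j false := by
      intro y; funext i
      by_cases hi : i = j
      · simp [sw, hi]
      · simp [sw, hi, not_lt.mpr (hl i)]
    simp only [this, true_and, ← h2]
    cases z j <;> cases Equiv.swap x (fl j x) z j <;> simp
  · simp [hj, h1 j hj]

lemma BB_left (l : Fin d) (hl : ∀ j, l ≤ j) (v : Equiv.Perm (Pos d) → ℂ) (x : Pos d)
    (π : Equiv.Perm (Pos d)) :
    (mat (BB d) *ᵥ v) (Equiv.swap x (fl l x) * π) = (mat (BB d) *ᵥ v) π := by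
  rw [BB_apply, BB_apply]
  congr 1
  have inv : Function.Involutive (fun (c : Coins d) l' p =>
      xor (c l' p) (decide (l' = l ∧ p = Function.update x l false))) := by
    intro c; funext l' p; simp
  conv_rhs => rw [← Equiv.sum_comp inv.toPerm]
  refine Finset.sum_congr rfl fun c _ => ?_
  rw [← mul_assoc (bfly c), bfly_swap l hl]
  rfl

lemma fixed_const {v : Equiv.Perm (Pos d) → ℂ} (hv : mat (BB d) *ᵥ v = v) : v ∈ JJ (Pos d) 0 := by
  have key : ∀ φ : ℂ →L[ℝ] ℝ, ∀ π π', φ (v π) = φ (v π') := by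
    intro φ
    obtain ⟨π0, -, h0⟩ := Finset.exists_max_image univ (fun π => φ (v π)) ⟨1, Finset.mem_univ _⟩
    set H : Submonoid (Equiv.Perm (Pos d)) :=
      { carrier := {g | ∀ π, φ (v π) = φ (v π0) → φ (v (g * π)) = φ (v π0)}
        mul_mem' := fun {a b} ha hb π h => by rw [mul_assoc]; exact ha _ (hb π h)
        one_mem' := fun π h => by simpa using h } with hH
    have hb : ∀ c, bfly c ∈ H := by
      intro c π h
      have hn : (0 : ℝ) < Fintype.card (Coins d) := by exact_mod_cast Fintype.card_pos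
      have e1 := BB_apply v π
      rw [hv, eq_div_iff (by exact_mod_cast (pow_pos hn 2).ne'), ← Fintype.sum_prod_type'] at e1
      have e2 := congrArg φ e1
      rw [map_sum, show v π * (Fintype.card (Coins d) : ℂ) ^ 2
        = ((Fintype.card (Coins d) : ℝ) ^ 2) • v π by simp [mul_comm], map_smul, h] at e2
      have e3 := (Finset.sum_eq_sum_iff_of_le (s := (univ : Finset (Coins d × Coins d)))
        (g := fun _ => φ (v π0)) fun p _ => h0 ((bfly p.2)⁻¹ * (bfly p.1 * π))
          (Finset.mem_univ _)).mp (by rw [← e2]; simp [sq]) (c, fun _ _ => false) (Finset.mem_univ _)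
      simpa [bfly_zero] using e3
    have hs : ∀ (S : Finset (Fin d)) (x y : Pos d), (∀ j, j ∉ S → x j = y j) →
        Equiv.swap x y ∈ H := by
      intro S
      induction S using Finset.induction_on with
      | empty =>
        intro x y h
        rw [show x = y from funext fun j => h j (by simp), Equiv.swap_self]; exact H.one_mem
      | insert l S hl ih =>
        intro x y h
        by_cases h1 : x l = y l
        · exact ih x y fun j hj => if hjl : j = l then hjl ▸ h1 else h j (by simp [hj, hjl])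
        · refine SubmonoidClass.swap_mem_trans H (bfly_single l x ▸ hb _) (ih (fl l x) y fun j hj => ?_)
          by_cases hjl : j = l
          · rw [hjl]; simpa [fl] using (Bool.eq_not_iff.mpr (Ne.symm h1)).symm
          · simpa [fl, hjl] using h j (by simp [hj, hjl])
    have ha : ∀ g, g ∈ H := fun g => Equiv.Perm.swap_induction_on g H.one_mem
      fun f x y _ hf => H.mul_mem (hs univ x y (by simp)) hf
    have : ∀ π, φ (v π) = φ (v π0) := fun π => by simpa using ha (π * π0⁻¹) π0 rfl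
    intro π π'
    rw [this, this π']
  exact mem_JJ Fin.elim0 v fun π π' _ =>
    Complex.ext (key Complex.reCLM π π') (key Complex.imCLM π π')

theorem base_case (d : ℕ) : ∃ k : ℝ, trp (mat (BB d)) k ≤ 5 / 4 := by
  classical
  set B := mat (BB d)
  have t1 : Filter.Tendsto (fun k : ℕ => ∑ γ ∈ univ.filter (fun γ => ¬ ev B γ = 1), ev B γ ^ k)
      Filter.atTop (nhds 0) := by
    have := tendsto_finsetSum (univ.filter (fun γ => ¬ ev B γ = 1))
      (f := fun γ (k : ℕ) => ev B γ ^ k) (a := fun _ => 0) fun γ hγ =>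
        tendsto_pow_atTop_nhds_zero_of_lt_one (ev_BB_nonneg γ)
          (lt_of_le_of_ne (ev_BB_le γ) (Finset.mem_filter.mp hγ).2)
    simpa using this
  obtain ⟨k, hk⟩ := (t1.eventually (ge_mem_nhds (show (0 : ℝ) < 1 / 4 by norm_num))).exists
  refine ⟨k, ?_⟩
  rw [trp, ← Finset.sum_filter_add_sum_filter_not univ (fun γ => ev B γ = 1)]
  have c1 := (evec_count B (JJ (Pos d) 0) (univ.filter fun γ => ev B γ = 1) fun γ hγ =>
    fixed_const (by rw [mulVec_evec BB_herm, (Finset.mem_filter.mp hγ).2]; exact one_smul _ _)).trans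
    (finrank_JJ 0)
  have c2 : ∑ γ ∈ univ.filter (fun γ => ev B γ = 1), rp (ev B γ) k ≤ 1 := by
    refine (Finset.sum_le_card_nsmul _ _ 1 fun γ hγ => ?_).trans (by simpa using c1)
    rw [(Finset.mem_filter.mp hγ).2]; simp [rp]
  have c3 := Finset.sum_le_sum (s := univ.filter (fun γ => ¬ ev B γ = 1))
    fun γ _ => rp_nat_le (ev_BB_nonneg γ) k
  linarith

theorem split_spec (hd : 1 ≤ d) (a D K0 : ℕ) (hD : 0 < D) {k E η : ℝ} (hk : K0 ≤ k) (hE1 : 1 ≤ E)
    (hE : trp (mat (BB d)) k ≤ E) (ha : E * (8 * E) ^ D ≤ 2 ^ a) (h0 : 0 ≤ η)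
    (hη : 4 ^ d * η ^ K0 ≤ 1 / 16)
    (hlow : ∀ j < 4 * a, ∀ (v : Equiv.Perm (Pos d) → ℂ) (lam : ℝ),
      mat (BB d) *ᵥ v = (lam : ℂ) • v → v ∈ JJ (Pos d) (j + 1) → v ∉ JJ (Pos d) j →
        lam ≤ η ^ (j + 1)) :
    trp (mat (BB d)) (k + k / D) ≤ 5 / 4 := by
  classical
  set B := mat (BB d) with hB
  have hk0 : 0 ≤ k := le_trans (Nat.cast_nonneg _) hk
  have hD0 : (0 : ℝ) < D := by exact_mod_cast hD
  rw [trp, ← Finset.sum_filter_add_sum_filter_not univ (fun γ => evec B γ ∈ JJ (Pos d) (4 * a))]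
  have high : ∑ γ ∈ univ.filter (fun γ => ¬ evec B γ ∈ JJ (Pos d) (4 * a)),
      rp (ev B γ) (k + k / D) ≤ 1 / 8 := by
    have c1 : ∀ γ, evec B γ ∉ JJ (Pos d) (4 * a) → rp (ev B γ) (k / D) ≤ 1 / (8 * E) := by
      intro γ hγ
      rcases (show 0 ≤ ev B γ from ev_BB_nonneg γ).eq_or_lt with h | h
      · rw [← h]; simp [rp]; linarith
      have := (high_mult (fl ⟨0, hd⟩) (fl_fl _) (fl_ne _) a BB_herm (lam := ev B γ)
        (fun v hv x π => by
          have := BB_left ⟨0, hd⟩ (fun j => Nat.zero_le _) v x π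
          rw [hv] at this
          exact mul_left_cancel₀ (by exact_mod_cast h.ne') this)
        (mulVec_evec BB_herm γ) hγ k).trans hE
      apply le_of_pow_le_pow_left₀ hD.ne' (by positivity)
      have e : rp (ev B γ) (k / D) ^ D = rp (ev B γ) k := by
        simp only [rp, if_pos h]
        rw [← Real.rpow_natCast, ← Real.rpow_mul h.le]; congr 1; field_simp
      rw [e, _root_.one_div_pow, le_div_iff₀ (by positivity)]
      apply le_of_mul_le_mul_left _ (show (0 : ℝ) < 2 ^ a by positivity)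
      nlinarith [mul_le_mul_of_nonneg_right this (show (0 : ℝ) ≤ (8 * E) ^ D by positivity)]
    refine (Finset.sum_le_sum (g := fun γ => rp (ev B γ) k * (1 / (8 * E))) fun γ hγ => ?_).trans ?_
    · rw [rp_add]
      exact mul_le_mul_of_nonneg_left (c1 γ (Finset.mem_filter.mp hγ).2) (rp_nonneg _ _)
    · rw [← Finset.sum_mul]
      have := (Finset.sum_le_sum_of_subset_of_nonneg (Finset.subset_univ (univ.filter
        (fun γ => ¬ evec B γ ∈ JJ (Pos d) (4 * a)))) fun γ _ _ => rp_nonneg (ev B γ) k).trans hE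
      refine (mul_le_mul_of_nonneg_right this (by positivity)).trans (le_of_eq ?_)
      field_simp
  have low : ∑ γ ∈ univ.filter (fun γ => evec B γ ∈ JJ (Pos d) (4 * a)),
      rp (ev B γ) (k + k / D) ≤ 9 / 8 := by
    set lev : Equiv.Perm (Pos d) → ℕ := fun γ =>
      if h : ∃ i, evec B γ ∈ JJ (Pos d) i then Nat.find h else 0 with hlev
    have l1 : ∀ γ, evec B γ ∈ JJ (Pos d) (4 * a) → lev γ ≤ 4 * a ∧ evec B γ ∈ JJ (Pos d) (lev γ)
        ∧ ev B γ ≤ η ^ lev γ := by
      intro γ hγ
      have ex : ∃ i, evec B γ ∈ JJ (Pos d) i := ⟨_, hγ⟩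
      have e : lev γ = Nat.find ex := by simp only [hlev, dif_pos ex]
      have b1 : lev γ ≤ 4 * a := e ▸ Nat.find_min' ex hγ
      have b2 : evec B γ ∈ JJ (Pos d) (lev γ) := e ▸ Nat.find_spec ex
      refine ⟨b1, b2, ?_⟩
      rcases h : lev γ with _ | j
      · simpa using ev_BB_le γ
      · rw [h] at b2
        exact hlow j (by omega) _ _ (mulVec_evec BB_herm γ) b2 (Nat.find_min ex (by omega))
    rw [← Finset.sum_fiberwise_of_maps_to (t := range (4 * a + 1)) (g := lev) fun γ hγ =>
      Finset.mem_range.mpr (Nat.lt_succ_of_le (l1 γ (Finset.mem_filter.mp hγ).2).1)]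
    refine (Finset.sum_le_sum (g := fun i => (1 / 16 : ℝ) ^ i) fun i _ => ?_).trans ?_
    · refine (Finset.sum_le_card_nsmul _ _ ((η ^ K0) ^ i) fun γ hγ => ?_).trans ?_
      · obtain ⟨h1, h2⟩ := Finset.mem_filter.mp hγ
        have := (l1 γ (Finset.mem_filter.mp h1).2).2.2
        refine (rp_anti (ev_BB_le γ) (show (K0 : ℝ) ≤ k + k / D by
          have : 0 ≤ k / D := by positivity
          linarith)).trans ((rp_nat_le (ev_BB_nonneg γ) K0).trans ?_)
        rw [← pow_mul, mul_comm, pow_mul, ← h2]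
        exact pow_le_pow_left₀ (ev_BB_nonneg γ) this _
      · have c1 := (evec_count B (JJ (Pos d) i) ((univ.filter fun γ => evec B γ ∈ JJ (Pos d)
          (4 * a)).filter fun γ => lev γ = i) fun γ hγ => by
            obtain ⟨h1, h2⟩ := Finset.mem_filter.mp hγ
            exact h2 ▸ (l1 γ (Finset.mem_filter.mp h1).2).2.1).trans (finrank_JJ i)
        have c2 : Fintype.card (Pos d) ^ (2 * i) = (4 ^ d) ^ i := by
          rw [pow_mul]; congr 1
          rw [Fintype.card_fun, Fintype.card_bool, Fintype.card_fin, ← pow_mul, mul_comm, pow_mul]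
          rfl
        rw [c2] at c1
        rw [nsmul_eq_mul]
        calc _ ≤ ((4 : ℝ) ^ d) ^ i * (η ^ K0) ^ i :=
              mul_le_mul_of_nonneg_right (by exact_mod_cast c1) (by positivity)
          _ ≤ _ := by rw [← mul_pow]; exact pow_le_pow_left₀ (by positivity) hη _
    · rw [geom_sum_eq (by norm_num), div_le_iff_of_neg (by norm_num)]
      have : (0 : ℝ) ≤ (1 / 16) ^ (4 * a + 1) := by positivity
      linarith
  linarith

end Vale.Agent.P162
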