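import Vale.Agent.P162.Rec
import Vale.Agent.P162.Defs

/-! From the butterfly network to the Thorp shuffle. -/

set_option linter.unusedSectionVars false

namespace Vale.Agent.P162

open Finset Matrix

section
variable {G H : Type} [Group G] [Fintype G] [DecidableEq G] [Group H] [Fintype H] [DecidableEq H]

noncomputable def cpow (a : G → ℂ) : ℕ → G → ℂ
  | 0 => fun g => if g = 1 then 1 else 0
  | t + 1 => conv a (cpow a t)

lemma mat_cpow (a : G → ℂ) (t : ℕ) : mat (cpow a t) = mat a ^ t := by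
  induction t with
  | zero => ext g h; simp [mat, cpow, Matrix.one_apply, mul_inv_eq_one]
  | succ t ih => rw [cpow, mat_conv, ih, pow_succ']

lemma law_fst {Ω Ω' : Type} [Fintype Ω] [Fintype Ω'] [Nonempty Ω'] (F : Ω → G) :
    law (fun p : Ω × Ω' => F p.1) = law F := by
  funext g
  have : (Fintype.card Ω' : ℂ) ≠ 0 := by exact_mod_cast Fintype.card_ne_zero
  unfold law
  rw [Fintype.sum_prod_type, Fintype.card_prod]
  have e : ∀ ω, (∑ _y : Ω', if F ω = g then (1 : ℂ) else 0)
      = Fintype.card Ω' * if F ω = g then 1 else 0 := fun ω => by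
    rw [Finset.sum_const, Finset.card_univ, nsmul_eq_mul]
  simp only [e]
  push_cast
  rw [← Finset.mul_sum, mul_comm (Fintype.card Ω : ℂ), mul_div_mul_left _ _ this]

lemma law_update {I C : Type} [Fintype I] [DecidableEq I] [Fintype C] [Nonempty C] (k : I)
    (Φ : C → (I → C) → G) (h : ∀ c ω y, Φ c (Function.update ω k y) = Φ c ω) :
    law (fun p : C × (I → C) => Φ p.1 p.2) = law (fun ω => Φ (ω k) ω) := by
  funext g
  have : (Fintype.card C : ℂ) ≠ 0 := by exact_mod_cast Fintype.card_ne_zero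
  have r := resample (R := ℂ) k (fun ω : I → C => if Φ (ω k) ω = g then 1 else 0)
  simp only [Function.update_self, h] at r
  unfold law
  rw [Fintype.sum_prod_type_right, ← r, Fintype.card_prod]
  push_cast
  rw [mul_div_mul_left _ _ this]

end

def val {d : ℕ} (x : Pos d) : ℕ := ∑ j, (x j).toNat * 2 ^ (d - 1 - j.val)

lemma val_succ {d : ℕ} (x : Pos (d + 1)) : val x = (x 0).toNat * 2 ^ d + val (Fin.tail x) := by
  unfold val
  rw [Fin.sum_univ_succ]
  congr 1
  refine Finset.sum_congr rfl fun j _ => ?_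
  congr 2
  simp only [Fin.val_succ]; omega

lemma val_last {d : ℕ} (x : Pos (d + 1)) :
    val x = 2 * val (Fin.init x) + (x (Fin.last d)).toNat := by
  unfold val
  rw [Fin.sum_univ_castSucc, Finset.mul_sum]
  congr 1
  · refine Finset.sum_congr rfl fun j _ => ?_
    have := j.2
    rw [mul_left_comm, ← pow_succ']
    congr 2
    simp only [Fin.val_castSucc]; omega
  · simp

lemma val_lt {d : ℕ} (x : Pos d) : val x < 2 ^ d := by
  induction d with
  | zero => simp [val]
  | succ d ih =>
    have := ih (Fin.tail x)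
    rw [val_succ, pow_succ]
    cases x 0 <;> simp <;> omega

lemma val_inj {d : ℕ} : Function.Injective (val (d := d)) := by
  induction d with
  | zero => intro x y _; exact Subsingleton.elim _ _
  | succ d ih =>
    intro x y h
    have h1 := val_lt (Fin.tail x)
    have h2 := val_lt (Fin.tail y)
    rw [val_succ, val_succ] at h
    have h3 : x 0 = y 0 := by
      revert h
      cases x 0 <;> cases y 0 <;> simp <;> omega
    rw [h3] at h
    rw [← Fin.cons_self_tail x, ← Fin.cons_self_tail y, h3, ih (Nat.add_left_cancel h)]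

noncomputable def valE (d n : ℕ) (h : n = 2 ^ d) : Pos d ≃ Fin n :=
  Equiv.ofBijective (fun x => ⟨val x, h ▸ val_lt x⟩)
    ((Fintype.bijective_iff_injective_and_card _).mpr
      ⟨fun x y hxy => val_inj (congrArg Fin.val hxy), by simp [h]⟩)

lemma valE_val (d n : ℕ) (h : n = 2 ^ d) (x : Pos d) : (valE d n h x).val = val x := rfl

def rot {d : ℕ} (σ : Equiv.Perm (Fin d)) : Equiv.Perm (Pos d) where
  toFun x := x ∘ σ
  invFun x := x ∘ σ.symm
  left_inv x := by funext j; simp
  right_inv x := by funext j; simp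

lemma rot_apply {d : ℕ} (σ : Equiv.Perm (Fin d)) (x : Pos d) : rot σ x = x ∘ σ := rfl

lemma lay_rot {d : ℕ} (σ : Equiv.Perm (Fin d)) (l : Fin d) (c : Pos d → Bool) :
    lay l c * rot σ = rot σ * lay (σ l) (c ∘ rot σ) := by
  refine Equiv.ext fun x => ?_
  simp only [Equiv.Perm.mul_apply, lay, Function.Involutive.coe_toPerm, layF, rot_apply,
    Function.comp_apply, Function.update_comp_eq_of_injective _ σ.injective]

lemma finRotate_pow_val (d k : ℕ) (i : Fin (d + 1)) :
    ((finRotate (d + 1) ^ k) i).val = (i.val + k) % (d + 1) := by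
  induction k with
  | zero => simp [Nat.mod_eq_of_lt i.2]
  | succ k ih =>
    rw [pow_succ', Equiv.Perm.mul_apply, finRotate_apply, Fin.val_add, ih, Fin.val_one',
      ← Nat.add_mod, add_assoc]

lemma bf_update {d : ℕ} (ω : Coins d) (l : Fin d) (y : Pos d → Bool) (k : ℕ) (hk : k ≤ l.val) :
    bf (Function.update ω l y) k = bf ω k := by
  induction k with
  | zero => rfl
  | succ k ih =>
    simp only [bf]
    rw [ih (by omega)]
    split_ifs with h
    · rw [Function.update_of_ne (by intro h2; rw [← h2] at hk; simp at hk)]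
    · rfl

noncomputable def TT (d : ℕ) : Equiv.Perm (Pos (d + 1)) → ℂ :=
  law fun c : Pos (d + 1) → Bool => rot (finRotate (d + 1)) * lay 0 c

lemma cpow_TT (d k : ℕ) (hk : k ≤ d + 1) :
    cpow (TT d) k = law fun ω : Coins (d + 1) => rot (finRotate (d + 1) ^ k) * bf ω k := by
  induction k with
  | zero =>
    funext g
    have : rot (1 : Equiv.Perm (Fin (d + 1))) = 1 := rfl
    simp only [cpow, law, pow_zero, this, bf, mul_one, eq_comm (a := g)]
    split_ifs <;> simp
  | succ k ih =>
    have hkd : k < d + 1 := hk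
    set σ := finRotate (d + 1) ^ k with hσ
    have h0 : σ 0 = ⟨k, hkd⟩ := Fin.ext (by
      rw [hσ, finRotate_pow_val]; simp [Nat.mod_eq_of_lt hkd])
    rw [cpow, ih hkd.le, TT, law_mul]
    have := law_update (G := Equiv.Perm (Pos (d + 1))) (⟨k, hkd⟩ : Fin (d + 1))
      (fun (c : Pos (d + 1) → Bool) (ω : Coins (d + 1)) =>
        rot (finRotate (d + 1) ^ (k + 1)) * (lay ⟨k, hkd⟩ c * bf ω k))
      (fun c ω y => by rw [bf_update _ _ _ _ le_rfl])
    simp only [bf, dif_pos hkd]
    rw [← this, ← law_equiv (Equiv.prodCongr ((rot σ).arrowCongr (Equiv.refl Bool)) (Equiv.refl _))]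
    congr 1
    funext p
    rw [mul_assoc, ← mul_assoc (lay _ _), lay_rot, h0, ← mul_assoc, ← mul_assoc, mul_assoc _ (lay _ _)]
    have e : rot (finRotate (d + 1)) * rot σ = rot (finRotate (d + 1) ^ (k + 1)) := by
      rw [pow_succ]; rfl
    rw [e]
    refine congrArg (fun c => _ * (lay _ c * _)) (funext fun x => ?_)
    simp

lemma cpow_TT_full (d : ℕ) : cpow (TT d) (d + 1) = KK (d + 1) := by
  rw [cpow_TT d _ le_rfl]
  have : finRotate (d + 1) ^ (d + 1) = 1 := Equiv.ext fun i => Fin.ext (by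
    rw [finRotate_pow_val]; simp [Nat.mod_eq_of_lt i.2])
  rw [this]
  rfl

lemma half_pow (d : ℕ) : 2 ^ (d + 1) / 2 = 2 ^ d := by rw [pow_succ]; simp

noncomputable def tau (d : ℕ) (c : Fin (2 ^ (d + 1) / 2) → Bool) : Equiv.Perm (Pos (d + 1)) :=
  rot (finRotate (d + 1)) * lay 0 fun p => c (valE d _ (half_pow d) (Fin.tail p))

noncomputable def io (d : ℕ) : Equiv.Perm (Pos d) ≃* Equiv.Perm (Fin (2 ^ d)) :=
  (valE d _ rfl).permCongrHom

lemma law_tau (d : ℕ) : law (tau d) = TT d := by
  set E : (Fin (2 ^ (d + 1) / 2) → Bool) × (Pos d → Bool) ≃ (Pos (d + 1) → Bool) :=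
    { toFun := fun c p => if p 0 = true then c.2 (Fin.tail p) else c.1 (valE d _ (half_pow d) (Fin.tail p))
      invFun := fun c => (fun i => c (Fin.cons false ((valE d _ (half_pow d)).symm i)),
        fun y => c (Fin.cons true y))
      left_inv := fun c => by simp
      right_inv := fun c => by
        funext p
        conv_rhs => rw [← Fin.cons_self_tail p]
        cases h : p 0 <;> simp [h] } with hE
  rw [TT, ← law_equiv E, ← law_fst (Ω' := Pos d → Bool)]
  refine congrArg law (funext fun c => Equiv.ext fun x => ?_)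
  simp [tau, lay, layF, hE]

lemma isThorp_tau (d : ℕ) (c : Fin (2 ^ (d + 1) / 2) → Bool) :
    IsThorp _ c (io (d + 1) (tau d c)) := by
  intro i p
  obtain ⟨x, rfl⟩ := (valE (d + 1) _ rfl).surjective p
  have e1 : (io (d + 1) (tau d c) (valE (d + 1) _ rfl x)).val = 2 * val (Fin.tail x)
      + (xor (x 0) (c (valE d _ (half_pow d) (Fin.tail x)))).toNat := by
    have : io (d + 1) (tau d c) (valE (d + 1) _ rfl x) = valE (d + 1) _ rfl (tau d c x) := by
      simp [io]
    rw [this, valE_val, val_last]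
    congr 2
    · congr 1
      funext j
      simp [tau, lay, layF, rot_apply, Fin.init, Fin.tail, finRotate_apply]
    · simp [tau, lay, layF, rot_apply]
  have h1 := val_lt (Fin.tail x)
  have h2 : i.val < 2 ^ d := half_pow d ▸ i.2
  rw [e1, valE_val, val_succ]
  have key : val (Fin.tail x) = i.val → valE d _ (half_pow d) (Fin.tail x) = i := fun h => Fin.ext h
  have h3 := half_pow d
  constructor
  · intro h
    cases hx : x 0
    · rw [hx] at h
      have : val (Fin.tail x) = i.val := by simpa using h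
      rw [key this, this]; cases c i <;> simp
    · rw [hx] at h; simp at h; omega
  · intro h
    cases hx : x 0
    · rw [hx] at h; simp at h; omega
    · rw [hx] at h
      have : val (Fin.tail x) = i.val := by simp at h; omega
      rw [key this, this]; cases c i <;> simp

lemma isThorp_iff (d : ℕ) (c : Fin (2 ^ (d + 1) / 2) → Bool) (g : Equiv.Perm (Fin (2 ^ (d + 1)))) :
    IsThorp _ c g ↔ io (d + 1) (tau d c) = g := by
  refine ⟨fun h => Equiv.ext fun p => Fin.ext ?_, fun h => h ▸ isThorp_tau d c⟩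
  have h2 := isThorp_tau d c
  have h3 := half_pow d
  have h4 := p.2
  by_cases hp : p.val < 2 ^ (d + 1) / 2
  · rw [(h ⟨p, hp⟩ p).1 rfl, (h2 ⟨p, hp⟩ p).1 rfl]
  · have : p.val - 2 ^ (d + 1) / 2 < 2 ^ (d + 1) / 2 := by omega
    rw [(h ⟨_, this⟩ p).2 (by simp only; omega), (h2 ⟨_, this⟩ p).2 (by simp only; omega)]

lemma q_eq (d : ℕ) (r : Equiv.Perm (Pos (d + 1))) : (q _ (io (d + 1) r) : ℂ) = TT d r := by
  rw [← law_tau]
  unfold q law
  simp only [isThorp_iff, EmbeddingLike.apply_eq_iff_eq, Finset.card_filter]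
  simp

lemma qpow_eq (d t : ℕ) (r : Equiv.Perm (Pos (d + 1))) :
    (qpow _ t (io (d + 1) r) : ℂ) = cpow (TT d) t r := by
  induction t generalizing r with
  | zero => simp only [qpow, cpow, EmbeddingLike.map_eq_one_iff]; split_ifs <;> simp
  | succ t ih =>
    simp only [qpow, cpow, conv]
    rw [← Equiv.sum_comp (io (d + 1)).toEquiv]
    push_cast
    refine Finset.sum_congr rfl fun h _ => ?_
    rw [← ih, ← q_eq, map_mul, map_inv]
    rfl

lemma sum_q (d : ℕ) : ∑ g, q (2 ^ (d + 1)) g = 1 := by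
  have : ((∑ g, q (2 ^ (d + 1)) g : ℝ) : ℂ) = 1 := by
    rw [← Equiv.sum_comp (io (d + 1)).toEquiv]
    push_cast
    have := sum_law (fun c : Pos (d + 1) → Bool => rot (finRotate (d + 1)) * lay 0 c) (fun _ => 1)
    simp only [mul_one, Finset.sum_const, Finset.card_univ, nsmul_eq_mul] at this
    rw [div_self (by exact_mod_cast Fintype.card_ne_zero)] at this
    rw [← this]
    exact Finset.sum_congr rfl fun r _ => q_eq d r
  exact_mod_cast this

lemma sum_qpow (d t : ℕ) : ∑ g, qpow (2 ^ (d + 1)) t g = 1 := by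
  induction t with
  | zero => simp [qpow]
  | succ t ih =>
    simp only [qpow]
    rw [Finset.sum_comm]
    simp_rw [← Finset.mul_sum]
    rw [← sum_q d]
    refine Finset.sum_congr rfl fun h _ => ?_
    rw [show ∑ g, qpow (2 ^ (d + 1)) t (h⁻¹ * g) = ∑ g, qpow (2 ^ (d + 1)) t g from
      Equiv.sum_comp (Equiv.mulLeft h⁻¹) _, ih, mul_one]

theorem upper : ∃ j : ℕ, ∀ d, tv (2 ^ (d + 1)) ((d + 1) * 2 ^ j) ≤ 1 / 4 := by
  obtain ⟨K, hK⟩ := NN_bound
  obtain ⟨j, hj⟩ := pow_unbounded_of_one_lt K (show (1 : ℝ) < 2 by norm_num)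
  refine ⟨j, fun d => ?_⟩
  have h1 := (trp_BB_anti hj.le).trans (hK (d + 1) (by omega))
  have h2 := (trp_pow j (mat (KK (d + 1)))).trans ((NN_eq _ _).symm.le.trans h1)
  rw [← cpow_TT_full, mat_cpow, ← pow_mul, ← mat_cpow] at h2
  set t := (d + 1) * 2 ^ j
  set f := qpow (2 ^ (d + 1)) t with hf
  set N : ℝ := ((2 ^ (d + 1)).factorial : ℝ) with hN
  have hN0 : 0 < N := by positivity
  have h3 := trp_one (mat (cpow (TT d) t))
  rw [← mat_cst, ← mat_conv, trace_mat, Fintype.card_perm] at h3
  have h4 : conv (cpow (TT d) t) (cst (cpow (TT d) t)) 1 = ((∑ g, f g ^ 2 : ℝ) : ℂ) := by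
    rw [← Equiv.sum_comp (io (d + 1)).toEquiv]
    push_cast
    refine Finset.sum_congr rfl fun r _ => ?_
    simp only [cst, mul_one, inv_inv, ← qpow_eq, Complex.star_def, Complex.conj_ofReal, sq]
    rfl
  rw [h4, show Fintype.card (Pos (d + 1)) = 2 ^ (d + 1) by simp, mat_conv, mat_cst] at h3
  have h5 : N * ∑ g, f g ^ 2 ≤ 5 / 4 := by
    refine le_trans (le_of_eq ?_) h2
    exact_mod_cast h3.symm
  have h6 := sq_sum_le_card_mul_sum_sq (s := univ) (f := fun g => |f g - 1 / N|)
  rw [Finset.card_univ, Fintype.card_perm, Fintype.card_fin, ← hN] at h6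
  have h7 : N * ∑ g, |f g - 1 / N| ^ 2 = N * ∑ g, f g ^ 2 - 1 := by
    simp_rw [sq_abs, sub_sq]
    rw [Finset.sum_add_distrib, Finset.sum_sub_distrib, ← Finset.sum_mul, ← Finset.mul_sum,
      sum_qpow, Finset.sum_const, Finset.card_univ, Fintype.card_perm, Fintype.card_fin,
      nsmul_eq_mul, ← hN]
    field_simp; ring
  have h8 : ∑ g, |f g - 1 / N| ≤ 1 / 2 :=
    le_of_pow_le_pow_left₀ two_ne_zero (by norm_num) (by linarith)
  unfold tv
  linarith

lemma supp_qpow (d t : ℕ) : ∃ S : Finset (Equiv.Perm (Fin (2 ^ (d + 1)))),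
    S.card ≤ 2 ^ (2 ^ d * t) ∧ ∀ g, g ∉ S → qpow _ t g = 0 := by
  induction t with
  | zero => exact ⟨{1}, by simp, fun g hg => by simpa [qpow] using hg⟩
  | succ t ih =>
    obtain ⟨S, h1, h2⟩ := ih
    refine ⟨Finset.image₂ (· * ·) (univ.image fun c => io (d + 1) (tau d c)) S, ?_, fun g hg => ?_⟩
    · refine (Finset.card_image₂_le _ _ _).trans ?_
      refine (Nat.mul_le_mul Finset.card_image_le h1).trans (le_of_eq ?_)
      rw [Finset.card_univ, Fintype.card_fun, Fintype.card_fin, Fintype.card_bool, half_pow,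
        ← pow_add]
      congr 1; ring
    · refine Finset.sum_eq_zero fun h _ => ?_
      by_cases hh : h ∈ univ.image fun c => io (d + 1) (tau d c)
      · rw [h2, mul_zero]
        intro hS
        exact hg (Finset.mem_image₂.mpr ⟨h, hh, _, hS, by simp⟩)
      · have : q _ h = 0 := by
          classical
          unfold q
          rw [Finset.filter_eq_empty_iff.mpr fun c _ hc => hh (Finset.mem_image.mpr
            ⟨c, Finset.mem_univ _, (isThorp_iff d c h).mp hc⟩)]
          simp
        rw [this, zero_mul]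

theorem lower (d t : ℕ) (h : tv (2 ^ (d + 1)) t ≤ 1 / 4) : d + 1 ≤ 3 * t := by
  obtain ⟨S, h1, h2⟩ := supp_qpow d t
  set N : ℝ := ((2 ^ (d + 1)).factorial : ℝ) with hN
  have hN0 : 0 < N := by positivity
  set f := qpow (2 ^ (d + 1)) t with hf
  have a1 : ∑ g, ((if g ∈ S then -(1 / N) else 1 / N) + f g) ≤ ∑ g, |f g - 1 / N| := by
    refine Finset.sum_le_sum fun g _ => ?_
    split_ifs with hg
    · linarith [le_abs_self (f g - 1 / N)]
    · rw [h2 g hg]; simp [abs_of_pos hN0]
  have a2 : ∑ g, (if g ∈ S then -(1 / N) else 1 / N) = 1 - 2 * S.card / N := by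
    have : ∀ g, (if g ∈ S then -(1 / N) else 1 / N) = 1 / N - if g ∈ S then 2 / N else 0 := by
      intro g; split_ifs <;> ring
    simp_rw [this]
    rw [Finset.sum_sub_distrib, Finset.sum_ite_mem, Finset.univ_inter, Finset.sum_const,
      Finset.sum_const, Finset.card_univ, Fintype.card_perm, Fintype.card_fin, nsmul_eq_mul,
      nsmul_eq_mul, ← hN]
    field_simp
  rw [Finset.sum_add_distrib, a2, sum_qpow] at a1
  have a3 : 3 * N ≤ 4 * 2 ^ (2 ^ d * t) := by
    have b1 : (S.card : ℝ) ≤ 2 ^ (2 ^ d * t) := by exact_mod_cast h1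
    have b2 : 3 / 4 ≤ S.card / N := by
      unfold tv at h
      have : 2 * S.card / N = 2 * (S.card / N) := by ring
      linarith
    rw [le_div_iff₀ hN0] at b2
    linarith
  have a4 : 1 ≤ t := by
    rcases Nat.eq_zero_or_pos t with rfl | ht
    · have b1 : 2 ≤ (2 ^ (d + 1)).factorial := le_trans (by
        calc 2 = 2 ^ 1 := rfl
          _ ≤ 2 ^ (d + 1) := Nat.pow_le_pow_right (by norm_num) (by omega)) (Nat.self_le_factorial _)
      have b2 : (2 : ℝ) ≤ N := by rw [hN]; exact_mod_cast b1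
      simp at a3; linarith
    · exact ht
  have a5 : N ≤ 2 ^ (2 ^ d * t + 1) := by rw [pow_succ]; nlinarith
  have a6 := (le_log_fact (2 ^ (d + 1))).trans (Real.log_le_log hN0 a5)
  rw [Real.log_pow, Nat.cast_pow, Real.log_pow] at a6
  push_cast at a6
  have l2 := Real.log_two_gt_d9
  have l3 := Real.log_two_lt_d9
  have p1 : (1 : ℝ) ≤ 2 ^ d := one_le_pow₀ (by norm_num)
  have a7 : (2 * d : ℝ) < t + 2 := by
    rw [pow_succ] at a6
    by_contra hc
    push Not at hc
    have := mul_le_mul_of_nonneg_left hc (show (0 : ℝ) ≤ 2 ^ d * Real.log 2 by positivity)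
    nlinarith
  have a8 : 2 * d < t + 2 := by exact_mod_cast a7
  omega

end Vale.Agent.P162
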